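import Vale.Agent.Lib.P329.PartialAct

/-!
Aperiodic partial actions are star-free: the argument of `PartialAct` needs only that a word that
can be repeated forever from a state eventually stabilises that state.  This contains
Schutzenberger's theorem in the form needed here, for non-injective automata.
-/

namespace Vale.Agent.Lib.P329

section Aper

variable {α P : Type}

/-- Aperiodic partial action: a word that can be repeated forever from a state stabilises it. -/
def Ap' (t : α → P → Option P) : Prop :=
  ∀ (u : List α) (p : P), (∀ k, prun t p (wpow u k) ≠ none) →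
    ∃ n, prun t p (wpow u (n + 1)) = prun t p (wpow u n)

variable {t : α → P → Option P} {c : α} {A₀ : Finset α}

/-- The new partial action is aperiodic. -/
theorem ap'_t₂ (hA : Ap' t) : Ap' (t₂ t c A₀) := by
  intro u₂ p hu
  obtain ⟨u, hrel⟩ := exists_blockRel u₂
  obtain ⟨n, hn⟩ := hA u p.1 (fun k => by
    rw [← (blockRel_wpow hrel k).run p]
    intro h0
    exact hu k (Option.map_eq_none_iff.1 h0))
  refine ⟨n, ?_⟩
  rw [← (blockRel_wpow hrel (n + 1)).run p, ← (blockRel_wpow hrel n).run p] at hn
  exact Option.map_injective Subtype.val_injective hn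

/-- The image is smaller when `c` is not the identity. -/
theorem card_img_lt' [Finite P] (hA : Ap' t) (hc : ¬ ∀ s, t c s = some s) :
    Nat.card (Img t c) < Nat.card P := by
  by_contra hlt
  have hinj : Function.Injective (Subtype.val : Img t c → P) := Subtype.val_injective
  have hbij := hinj.bijective_of_nat_card_le (not_lt.1 hlt)
  have hsurj : ∀ p, ∃ s, t c s = some p := fun p => by
    obtain ⟨q, rfl⟩ := hbij.2 p
    exact q.2
  choose g hg using hsurj
  have hginj : Function.Injective g := fun a b hab => by
    have : some a = some b := by rw [← hg a, ← hg b, hab]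
    exact Option.some.inj this
  have hgsurj := Finite.injective_iff_surjective.1 hginj
  have htotal : ∀ s, ∃ p, t c s = some p := fun s => by
    obtain ⟨p, rfl⟩ := hgsurj s
    exact ⟨p, hg p⟩
  have huniq : ∀ {a b p : P}, t c a = some p → t c b = some p → a = b := by
    intro a b p ha hb
    obtain ⟨a', rfl⟩ := hgsurj a
    obtain ⟨b', rfl⟩ := hgsurj b
    rw [hg] at ha hb
    rw [Option.some.inj ha, Option.some.inj hb]
  have hk : ∀ (k : ℕ) (s : P), prun t s (wpow [c] k) ≠ none := by
    intro k
    induction k with
    | zero => intro s; simp [prun]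
    | succ k ih =>
      intro s
      obtain ⟨p, hp⟩ := htotal s
      simp only [wpow_succ, List.singleton_append, prun, hp, Option.bind_some]
      exact ih p
  have hfix : ∀ (n : ℕ) (s : P),
      prun t s (wpow [c] (n + 1)) = prun t s (wpow [c] n) → t c s = some s := by
    intro n
    induction n with
    | zero =>
      intro s hs
      obtain ⟨p, hp⟩ := htotal s
      simp only [wpow_succ, wpow_zero, List.singleton_append, prun, hp, Option.bind_some] at hs
      rw [hp, Option.some.inj hs]
    | succ n ih =>
      intro s hs
      obtain ⟨p, hp⟩ := htotal s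
      rw [wpow_succ, wpow_succ] at hs
      simp only [List.singleton_append, prun, hp, Option.bind_some] at hs
      have hp2 := ih p hs
      rw [huniq hp hp2]
      exact hp2
  apply hc
  intro s
  obtain ⟨n, hn⟩ := hA [c] s (fun k => hk k s)
  exact hfix n s hn

end Aper

section Main

/-- **Aperiodic partial actions are star-free.** -/
theorem gsh_prun' (n : ℕ) : ∀ {α P : Type} [Finite α] [Finite P] (t : α → P → Option P),
    Nat.card P ≤ n → Ap' t → ∀ (A : Finset α) (p r : P),
      GSH 0 {w : List α | (∀ x ∈ w, x ∈ A) ∧ prun t p w = some r} := by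
  induction n with
  | zero =>
    intro α P _ _ t hn _ A p r
    have hempty : Nat.card P = 0 := by omega
    have hpos : 0 < Nat.card P := Nat.card_pos_iff.2 ⟨⟨p⟩, inferInstance⟩
    omega
  | succ n ihn =>
    intro α P _ _ t hn hA A
    classical
    induction A using Finset.strongInduction with
    | H A ihA =>
      intro p r
      by_cases hid : ∀ c ∈ A, ∀ s, t c s = some s
      · have hrun : ∀ (w : List α), (∀ x ∈ w, x ∈ A) → ∀ s, prun t s w = some s := by
          intro w
          induction w with
          | nil => intro _ s; rfl
          | cons a w ih =>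
            intro hw s
            simp only [prun, hid a (hw a (by simp)) s, Option.bind_some]
            exact ih (fun x hx => hw x (List.mem_cons_of_mem _ hx)) s
        by_cases hpr : p = r
        · refine (GSH.allIn 0 (fun x => x ∈ A)).of_ext (fun w => ?_)
          constructor
          · intro hw
            refine ⟨hw, ?_⟩
            rw [hrun w hw p, hpr]
          · exact fun h => h.1
        · refine (GSH.bot 0).of_ext (fun w => ?_)
          constructor
          · intro h
            exact absurd h (Language.notMem_zero w)
          · rintro ⟨hw, h⟩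
            rw [hrun w hw p] at h
            exact absurd (Option.some.inj h) hpr
      · simp only [not_forall] at hid
        obtain ⟨c, hcA, hcid⟩ := hid
        have hcid' : ¬ ∀ s, t c s = some s := by
          intro h
          obtain ⟨s, hs⟩ := hcid
          exact hs (h s)
        set A₀ := A.erase c with hA₀def
        have hA₀ : A₀ ⊂ A := Finset.erase_ssubset hcA
        have hc₀ : c ∉ A₀ := Finset.notMem_erase c A
        have hmemA : ∀ x, x ∈ A ↔ x ∈ A₀ ∨ x = c := by
          intro x
          rw [hA₀def, Finset.mem_erase]
          constructor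
          · intro h
            by_cases hx : x = c
            · exact Or.inr hx
            · exact Or.inl ⟨hx, h⟩
          · rintro (h | rfl)
            · exact h.2
            · exact hcA
        have IH := ihA A₀ hA₀
        -- values of blocks
        have hallA₀ : GSH 0 {v : List α | ∀ x ∈ v, x ∈ A₀} := GSH.allIn 0 (fun x => x ∈ A₀)
        have hblockval : ∀ (s : P) (o : Option (Img t c)),
            GSH 0 {v : List α | (∀ x ∈ v, x ∈ A₀) ∧ (prun t s v).bind (tc t c) = o} := by
          intro s o
          have h1 : GSH 0 {v : List α | ∃ s' : P, ((∀ x ∈ v, x ∈ A₀) ∧ prun t s v = some s') ∧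
              tc t c s' = o} := by
            refine GSH.exists (fun s' => ?_)
            by_cases hs' : tc t c s' = o
            · exact (IH s s').of_ext (fun v => ⟨fun h => ⟨h, hs'⟩, fun h => h.1⟩)
            · refine (GSH.bot 0).of_ext (fun v => ⟨fun h => absurd h (Language.notMem_zero v), ?_⟩)
              rintro ⟨_, h⟩
              exact absurd h hs'
          cases o with
          | some q =>
            refine h1.of_ext (fun v => ?_)
            constructor
            · rintro ⟨s', ⟨h2, h3⟩, h4⟩
              exact ⟨h2, by rw [h3]; exact h4⟩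
            · rintro ⟨h2, h3⟩
              obtain ⟨s', h5, h6⟩ := Option.bind_eq_some_iff.1 h3
              exact ⟨s', ⟨h2, h5⟩, h6⟩
          | none =>
            have h2 : GSH 0 {v : List α | (∀ x ∈ v, x ∈ A₀) ∧ ¬ ∃ s' : P,
                (∀ x ∈ v, x ∈ A₀) ∧ prun t s v = some s'} :=
              hallA₀.and (GSH.exists (fun s' => IH s s')).not
            refine (h1.or h2).of_ext (fun v => ?_)
            constructor
            · rintro (⟨s', ⟨h3, h4⟩, h5⟩ | ⟨h3, h4⟩)
              · exact ⟨h3, by rw [h4]; exact h5⟩
              · refine ⟨h3, ?_⟩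
                cases h5 : prun t s v with
                | none => rfl
                | some s' => exact absurd ⟨s', h3, h5⟩ h4
            · rintro ⟨h3, h4⟩
              cases h5 : prun t s v with
              | none =>
                refine Or.inr ⟨h3, ?_⟩
                rintro ⟨s', _, h6⟩
                rw [h5] at h6
                exact absurd h6 (by simp)
              | some s' =>
                refine Or.inl ⟨s', ⟨h3, h5⟩, ?_⟩
                rw [h5] at h4
                exact h4
        -- letters of the new alphabet
        have hletter : ∀ g : BAlpha t c A₀, GSH 0 {w : List α | ∃ v, ((∀ x ∈ v, x ∈ A₀) ∧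
            ∀ p, g.1 p = blockP t c v p) ∧ w = v ++ [c]} := by
          intro g
          have h1 : GSH 0 {v : List α | ∀ p : Img t c,
              (∀ x ∈ v, x ∈ A₀) ∧ (prun t p.1 v).bind (tc t c) = g.1 p} :=
            GSH.forall (fun p => hblockval p.1 (g.1 p))
          have h2 : GSH 0 {v : List α | (∀ x ∈ v, x ∈ A₀) ∧ ∀ p, g.1 p = blockP t c v p} :=
            (hallA₀.and h1).of_ext (fun v => by
              constructor
              · rintro ⟨h3, h4⟩
                exact ⟨h3, fun p => (h4 p).2.symm⟩
              · rintro ⟨h3, h4⟩
                exact ⟨h3, fun p => ⟨h3, (h4 p).symm⟩⟩)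
          exact GSH.snoc_letter c h2
        -- block words
        have hY : GSH 0 {w : List α | ∃ w₂, BlockRel t c A₀ w w₂} := by
          have h1 : GSH 0 {w : List α | ∀ x ∈ w, x ∈ A} := GSH.allIn 0 (fun x => x ∈ A)
          have h2 : GSH 0 {w : List α | w = []} :=
            (GSH.one 0).of_ext (fun w => Language.mem_one _)
          have h3 : GSH 0 {w : List α | ∃ y, True ∧ w = y ++ [c]} :=
            GSH.snoc_letter c (GSH.univ 0)
          refine (h1.and (h2.or h3)).of_ext (fun w => ?_)
          constructor
          · rintro ⟨h4, h5⟩
            refine exists_blockRel_of hc₀ _ w le_rfl (fun x hx => (hmemA x).1 (h4 x hx)) ?_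
            rcases h5 with h5 | ⟨y, _, h5⟩
            · exact Or.inl h5
            · exact Or.inr ⟨y, h5⟩
          · rintro ⟨w₂, h4⟩
            obtain ⟨h5, h6⟩ := blockRel_letters h4
            refine ⟨fun x hx => (hmemA x).2 (h5 x hx), ?_⟩
            rcases h6 with h6 | ⟨y, h6⟩
            · exact Or.inl h6
            · exact Or.inr ⟨y, trivial, h6⟩
        -- the smaller partial action
        have hcard : Nat.card (Img t c) ≤ n := by
          have := card_img_lt' hA hcid'
          omega
        haveI : Fintype (BAlpha t c A₀) := Fintype.ofFinite _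
        have hsmall := ihn (t₂ t c A₀) hcard (ap'_t₂ hA) Finset.univ
        have hF : ∀ p₁ p₂ : Img t c, ∃ F : List α → Prop, GSH 0 {w | F w} ∧
            (∀ w w₂, BlockRel t c A₀ w w₂ → (F w ↔ prun (t₂ t c A₀) p₁ w₂ = some p₂)) ∧
            (∀ w, F w → ∃ w₂, BlockRel t c A₀ w w₂) := by
          intro p₁ p₂
          obtain ⟨e, he, hl⟩ := hsmall p₁ p₂
          obtain ⟨F, h1, h2, h3⟩ := gsh_pull (P := P) hc₀ hletter hY e (Nat.le_zero.1 he)
          refine ⟨F, h1, fun w w₂ h => ?_, h3⟩
          rw [h2 w w₂ h, hl]
          constructor
          · exact fun h4 => h4.2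
          · exact fun h4 => ⟨fun x _ => Finset.mem_univ x, h4⟩
        choose F hF1 hF2 hF3 using hF
        -- first blocks
        have hH : ∀ p₁ : Img t c, GSH 0 {x : List α | ∃ v, ((∀ y ∈ v, y ∈ A₀) ∧
            (prun t p v).bind (tc t c) = some p₁) ∧ x = v ++ [c]} :=
          fun p₁ => GSH.snoc_letter c (hblockval p (some p₁))
        have hmain : GSH 0 {w : List α | ((∀ x ∈ w, x ∈ A₀) ∧ prun t p w = some r) ∨
            ∃ p₁ : Img t c, ∃ p₂ : Img t c, ∃ x y, (∃ v, ((∀ y ∈ v, y ∈ A₀) ∧
              (prun t p v).bind (tc t c) = some p₁) ∧ x = v ++ [c]) ∧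
              (∃ y1 z, F p₁ p₂ y1 ∧ ((∀ x ∈ z, x ∈ A₀) ∧ prun t p₂.1 z = some r) ∧ y = y1 ++ z) ∧
              w = x ++ y} :=
          (IH p r).or (GSH.exists fun p₁ => GSH.exists fun p₂ =>
            (hH p₁).conc ((hF1 p₁ p₂).conc (IH p₂.1 r)))
        refine hmain.of_ext (fun w => ?_)
        constructor
        · rintro (⟨h1, h2⟩ | ⟨p₁, p₂, x, y, ⟨v, ⟨h1, h2⟩, rfl⟩, ⟨y1, z, h3, ⟨h4, h5⟩, rfl⟩, rfl⟩)
          · exact ⟨fun x hx => (hmemA x).2 (Or.inl (h1 x hx)), h2⟩
          · obtain ⟨y₂, hy₂⟩ := hF3 p₁ p₂ y1 h3
            have h6 := (hF2 p₁ p₂ y1 y₂ hy₂).1 h3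
            have h7 := hy₂.run p₁
            rw [h6] at h7
            obtain ⟨s, h8, h9⟩ := Option.bind_eq_some_iff.1 h2
            have h10 := (tc_some t c).1 h9
            refine ⟨?_, ?_⟩
            · intro a ha
              rw [hmemA]
              simp only [List.mem_append, List.mem_singleton] at ha
              rcases ha with (ha | ha) | ha | ha
              · exact Or.inl (h1 a ha)
              · exact Or.inr ha
              · exact (blockRel_letters hy₂).1 a ha
              · exact Or.inl (h4 a ha)
            · rw [prun_append, prun_append, h8]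
              simp only [Option.bind_some, prun, h10]
              rw [prun_append, ← h7]
              simp only [Option.map_some, Option.bind_some]
              exact h5
        · rintro ⟨h1, h2⟩
          by_cases hcw : c ∈ w
          · right
            obtain ⟨as, bs, rfl, has⟩ := List.eq_append_cons_of_mem hcw
            have hv : ∀ x ∈ as, x ∈ A₀ := by
              intro x hx
              rcases (hmemA x).1 (h1 x (by simp [hx])) with h | h
              · exact h
              · subst h; exact absurd hx has
            have hbs : ∀ x ∈ bs, x ∈ A₀ ∨ x = c := fun x hx => (hmemA x).1 (h1 x (by simp [hx]))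
            obtain ⟨y, z, rfl, hy, hz⟩ := split_last (A₀ := A₀) (c := c) bs hbs
            obtain ⟨y₂, hy₂⟩ := exists_blockRel_of (t := t) hc₀ _ y le_rfl
              (fun x hx => hbs x (by simp [hx])) hy
            rw [prun_append] at h2
            obtain ⟨s, hs, h3⟩ := Option.bind_eq_some_iff.1 h2
            simp only [prun] at h3
            obtain ⟨q, hq, h4⟩ := Option.bind_eq_some_iff.1 h3
            rw [prun_append] at h4
            obtain ⟨s', hs', h5⟩ := Option.bind_eq_some_iff.1 h4
            let p₁ : Img t c := ⟨q, s, hq⟩
            have h6 := hy₂.run p₁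
            rw [show p₁.1 = q from rfl, hs'] at h6
            obtain ⟨p₂, hp₂, hp₂'⟩ := Option.map_eq_some_iff.1 h6
            refine ⟨p₁, p₂, as ++ [c], y ++ z, ⟨as, ⟨hv, ?_⟩, rfl⟩,
              ⟨y, z, (hF2 p₁ p₂ y y₂ hy₂).2 hp₂, ⟨hz, ?_⟩, rfl⟩, by simp⟩
            · rw [hs]
              exact (tc_some t c).2 hq
            · rw [hp₂']
              exact h5
          · left
            refine ⟨fun x hx => ?_, h2⟩
            rcases (hmemA x).1 (h1 x hx) with h | h
            · exact h
            · subst h; exact absurd hx hcw

end Main

end Vale.Agent.Lib.P329
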