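import Vale.Agent.Lib.P329.Defs

/-!
Closure properties of the classes `GSH k` of languages of generalized star height at most `k`.
-/

namespace Vale.Agent.Lib.P329

open GRE

variable {α β : Type} {k k' : ℕ} {L L' : Language α}

theorem GSH.mono (h : k ≤ k') : GSH k L → GSH k' L := by
  rintro ⟨e, he, rfl⟩
  exact ⟨e, he.trans h, rfl⟩

theorem GSH.congr (h : GSH k L) (hL : L = L') : GSH k L' := hL ▸ h

theorem GSH.of_ext (h : GSH k L) (hL : ∀ w, w ∈ L ↔ w ∈ L') : GSH k L' :=
  h.congr (Language.ext hL)

theorem GSH.zero (k : ℕ) : GSH k (0 : Language α) := ⟨GRE.zero, Nat.zero_le _, rfl⟩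

theorem GSH.one (k : ℕ) : GSH k (1 : Language α) := ⟨GRE.one, Nat.zero_le _, rfl⟩

theorem GSH.letter (k : ℕ) (a : α) : GSH k ({[a]} : Language α) :=
  ⟨GRE.letter a, Nat.zero_le _, rfl⟩

theorem GSH.add (h : GSH k L) (h' : GSH k L') : GSH k (L + L') := by
  obtain ⟨e, he, rfl⟩ := h
  obtain ⟨e', he', rfl⟩ := h'
  exact ⟨GRE.union e e', max_le he he', rfl⟩

theorem GSH.mul (h : GSH k L) (h' : GSH k L') : GSH k (L * L') := by
  obtain ⟨e, he, rfl⟩ := h
  obtain ⟨e', he', rfl⟩ := h'
  exact ⟨GRE.conc e e', max_le he he', rfl⟩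

theorem GSH.compl (h : GSH k L) : GSH k Lᶜ := by
  obtain ⟨e, he, rfl⟩ := h
  exact ⟨GRE.compl e, he, rfl⟩

theorem GSH.star (h : GSH k L) : GSH (k + 1) (KStar.kstar L) := by
  obtain ⟨e, he, rfl⟩ := h
  exact ⟨GRE.star e, Nat.succ_le_succ he, rfl⟩

/-- All words. -/
theorem GSH.univ (k : ℕ) : GSH k (⊤ : Language α) :=
  (GSH.zero k).compl.of_ext (fun _ => by
    show (_ ∉ (0 : Language α)) ↔ _
    simp [Language.notMem_zero]; exact trivial)

theorem GSH.bot (k : ℕ) : GSH k (⊥ : Language α) := GSH.zero k

theorem GSH.sup (h : GSH k L) (h' : GSH k L') : GSH k (L ⊔ L') :=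
  (h.add h').of_ext (fun _ => Iff.rfl)

theorem GSH.inf (h : GSH k L) (h' : GSH k L') : GSH k (L ⊓ L') :=
  (h.compl.add h'.compl).compl.of_ext (fun w => by
    show ¬ (w ∉ L ∨ w ∉ L') ↔ (w ∈ L ∧ w ∈ L')
    tauto)

theorem GSH.sdiff (h : GSH k L) (h' : GSH k L') : GSH k (L \ L') :=
  (h.inf h'.compl).of_ext (fun _ => Iff.rfl)

/-- A set-builder version of union. -/
theorem GSH.or {P Q : List α → Prop} (h : GSH k {w | P w}) (h' : GSH k {w | Q w}) :
    GSH k {w | P w ∨ Q w} := h.add h'

theorem GSH.and {P Q : List α → Prop} (h : GSH k {w | P w}) (h' : GSH k {w | Q w}) :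
    GSH k {w | P w ∧ Q w} := (h.inf h').of_ext (fun _ => Iff.rfl)

theorem GSH.not {P : List α → Prop} (h : GSH k {w | P w}) : GSH k {w | ¬ P w} :=
  h.compl.of_ext (fun _ => Iff.rfl)

/-- Set-builder version of concatenation. -/
theorem GSH.conc {P Q : List α → Prop} (h : GSH k {w | P w}) (h' : GSH k {w | Q w}) :
    GSH k {w | ∃ x y, P x ∧ Q y ∧ w = x ++ y} :=
  (h.mul h').of_ext (fun _ => Language.mem_mul.trans ⟨
    fun ⟨x, hx, y, hy, hw⟩ => ⟨x, y, hx, hy, hw.symm⟩,
    fun ⟨x, y, hx, hy, hw⟩ => ⟨x, hx, y, hy, hw.symm⟩⟩)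

/-- Set-builder version of the Kleene star. -/
theorem GSH.kstar {P : List α → Prop} (h : GSH k {w | P w}) :
    GSH (k + 1) {w | ∃ S : List (List α), w = S.flatten ∧ ∀ y ∈ S, P y} :=
  h.star.of_ext (fun _ => Language.mem_kstar)

/-- Finite unions. -/
theorem GSH.iSup {ι : Type*} [Finite ι] {f : ι → Language α} (h : ∀ i, GSH k (f i)) :
    GSH k (⨆ i, f i) := by
  classical
  cases nonempty_fintype ι
  have key : ∀ s : Finset ι, GSH k (s.sup f) := by
    intro s
    induction s using Finset.induction_on with
    | empty => simpa using GSH.bot k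
    | insert a s _ ih =>
      rw [Finset.sup_insert]
      exact (h a).sup ih
  have := key Finset.univ
  rwa [Finset.sup_univ_eq_iSup] at this

/-- Finite intersections. -/
theorem GSH.iInf {ι : Type*} [Finite ι] {f : ι → Language α} (h : ∀ i, GSH k (f i)) :
    GSH k (⨅ i, f i) :=
  (GSH.iSup (f := fun i => (f i)ᶜ) (fun i => (h i).compl)).compl.congr (by simp [compl_iSup])

/-- Set-builder version of finite unions. -/
theorem GSH.exists {ι : Type*} [Finite ι] {P : ι → List α → Prop}
    (h : ∀ i, GSH k {w | P i w}) : GSH k {w | ∃ i, P i w} :=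
  (GSH.iSup h).of_ext (fun _ => Language.mem_iSup)

/-- Set-builder version of finite intersections. -/
theorem GSH.forall {ι : Type*} [Finite ι] {P : ι → List α → Prop}
    (h : ∀ i, GSH k {w | P i w}) : GSH k {w | ∀ i, P i w} :=
  (GSH.exists (P := fun i w => ¬ P i w) (fun i => (h i).not)).not.of_ext (fun w => by
    show (¬ ∃ i, ¬ P i w) ↔ ∀ i, P i w
    simp)

/-- A single word. -/
theorem GSH.word (k : ℕ) (u : List α) : GSH k ({u} : Language α) := by
  induction u with
  | nil => exact (GSH.one k).of_ext (fun w => by simp [Language.mem_one]; rfl)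
  | cons a u ih =>
    refine ((GSH.letter k a).mul ih).of_ext (fun w => ?_)
    rw [Language.mem_mul]
    constructor
    · rintro ⟨x, hx, y, hy, rfl⟩
      have hx' : x = [a] := hx
      have hy' : y = u := hy
      subst hx' hy'
      rfl
    · intro hw
      have hw' : w = a :: u := hw
      exact ⟨[a], rfl, u, rfl, hw'.symm⟩

/-- Finite languages. -/
theorem GSH.of_finite (k : ℕ) {S : Set (List α)} (hS : S.Finite) : GSH k S := by
  have : Finite S := hS
  exact (GSH.exists (k := k) (ι := S) (P := fun u w => w = u.1)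
    (fun u => GSH.word k u.1)).of_ext (fun w => by
      constructor
      · rintro ⟨⟨u, hu⟩, rfl⟩
        exact hu
      · intro hw
        exact ⟨⟨w, hw⟩, rfl⟩)

/-- Words over a subset of letters: this is star-free since it is the complement of
`Σ* (Σ \ Λ) Σ*`, provided the alphabet is finite. -/
theorem GSH.allIn [Finite α] (k : ℕ) (Λ : α → Prop) : GSH k {w : List α | ∀ x ∈ w, Λ x} := by
  have hb : GSH k {w : List α | ∃ b : {b : α // ¬ Λ b}, w = [b.1]} :=
    GSH.exists (fun b => GSH.letter k b.1)
  have hu : GSH k {w : List α | True} := GSH.univ k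
  refine (((hu.conc hb).conc hu).not).of_ext (fun w => ?_)
  constructor
  · intro h x hx
    by_contra hΛ
    apply h
    obtain ⟨s, t, rfl⟩ := List.append_of_mem hx
    exact ⟨s ++ [x], t, ⟨s, [x], trivial, ⟨⟨x, hΛ⟩, rfl⟩, rfl⟩, trivial, by simp⟩
  · rintro h ⟨_, t, ⟨s, _, -, ⟨⟨b, hb⟩, rfl⟩, rfl⟩, -, rfl⟩
    exact hb (h _ (by simp))

/-! ### Reversal -/

theorem GSH.reverse (h : GSH k L) : GSH k L.reverse := by
  obtain ⟨e, he, rfl⟩ := h
  induction e generalizing k with
  | zero => exact GSH.zero k
  | one =>
    show GSH k (Language.reverse 1)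
    rw [Language.reverse_one]
    exact GSH.one k
  | letter a =>
    refine (GSH.letter k a).of_ext (fun w => ?_)
    constructor
    · intro hw
      have hw' : w = [a] := hw
      subst hw'
      rfl
    · intro hw
      have hw' : w.reverse = [a] := hw
      have : w = [a] := by
        have := congrArg List.reverse hw'
        simpa using this
      exact this
  | union P Q ihP ihQ =>
    exact (ihP (le_of_max_le_left he)).add (ihQ (le_of_max_le_right he))
  | conc P Q ihP ihQ =>
    show GSH k (Language.reverse (P.lang * Q.lang))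
    rw [Language.reverse_mul]
    exact (ihQ (le_of_max_le_right he)).mul (ihP (le_of_max_le_left he))
  | compl P ih => exact (ih he).compl.of_ext (fun _ => Iff.rfl)
  | star P ih =>
    show GSH k (Language.reverse (KStar.kstar P.lang))
    rw [Language.reverse_kstar]
    have hh : P.height + 1 ≤ k := he
    obtain ⟨k, rfl⟩ : ∃ m, k = m + 1 := ⟨k - 1, by omega⟩
    exact (ih (by omega)).star

/-! ### Left and right quotients -/

/-- Left quotient by a letter. -/
theorem GSH.quotLetter (a : α) (h : GSH k L) : GSH k {w | a :: w ∈ L} := by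
  classical
  obtain ⟨e, he, rfl⟩ := h
  induction e generalizing k with
  | zero => exact (GSH.zero k).of_ext (fun w => by simp [Language.notMem_zero]; exact id)
  | one =>
    refine (GSH.zero k).of_ext (fun w => ?_)
    constructor
    · exact fun h => absurd h (Language.notMem_zero w)
    · intro h
      have h' : a :: w = [] := h
      exact absurd h' (by simp)
  | letter b =>
    by_cases hab : a = b
    · subst hab
      refine (GSH.one k).of_ext (fun w => ?_)
      constructor
      · intro h
        have h' : w = [] := h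
        subst h'
        rfl
      · intro h
        have h' : a :: w = [a] := h
        have : w = [] := by simpa using h'
        exact this
    · refine (GSH.zero k).of_ext (fun w => ?_)
      constructor
      · exact fun h => absurd h (Language.notMem_zero w)
      · intro h
        have h' : a :: w = [b] := h
        have : a = b := by simpa using (List.cons.inj h').1
        exact absurd this hab
  | union P Q ihP ihQ =>
    exact ((ihP (le_of_max_le_left he)).add (ihQ (le_of_max_le_right he))).of_ext
      (fun _ => Iff.rfl)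
  | conc P Q ihP ihQ =>
    have hQ : GSH k {w | w ∈ Q.lang} := ⟨Q, le_of_max_le_right he, rfl⟩
    have h1 := (ihP (le_of_max_le_left he)).conc hQ
    have hmem : ∀ w : List α, (w ∈ (GRE.conc P Q).lang ↔
        ∃ x y, x ∈ P.lang ∧ y ∈ Q.lang ∧ w = x ++ y) := fun w =>
      Language.mem_mul.trans ⟨
        fun ⟨x, hx, y, hy, hw⟩ => ⟨x, y, hx, hy, hw.symm⟩,
        fun ⟨x, y, hx, hy, hw⟩ => ⟨x, hx, y, hy, hw.symm⟩⟩
    by_cases hn : [] ∈ P.lang
    · refine (h1.or (ihQ (le_of_max_le_right he))).of_ext (fun w => ?_)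
      show _ ↔ a :: w ∈ (GRE.conc P Q).lang
      rw [hmem]
      constructor
      · rintro (⟨x, y, hx, hy, rfl⟩ | hw)
        · exact ⟨a :: x, y, hx, hy, rfl⟩
        · exact ⟨[], a :: w, hn, hw, rfl⟩
      · rintro ⟨x, y, hx, hy, hxy⟩
        cases x with
        | nil =>
          right
          simp at hxy
          subst hxy
          exact hy
        | cons c x =>
          left
          simp at hxy
          obtain ⟨rfl, rfl⟩ := hxy
          exact ⟨x, y, hx, hy, rfl⟩
    · refine h1.of_ext (fun w => ?_)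
      show _ ↔ a :: w ∈ (GRE.conc P Q).lang
      rw [hmem]
      constructor
      · rintro ⟨x, y, hx, hy, rfl⟩
        exact ⟨a :: x, y, hx, hy, rfl⟩
      · rintro ⟨x, y, hx, hy, hxy⟩
        cases x with
        | nil => exact absurd hx hn
        | cons c x =>
          simp at hxy
          obtain ⟨rfl, rfl⟩ := hxy
          exact ⟨x, y, hx, hy, rfl⟩
  | compl P ih => exact (ih he).compl.of_ext (fun _ => Iff.rfl)
  | star P ih =>
    have hh : P.height + 1 ≤ k := he
    obtain ⟨m, rfl⟩ : ∃ m, k = m + 1 := ⟨k - 1, by omega⟩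
    have hP : GSH m {w | w ∈ P.lang} := ⟨P, by omega, rfl⟩
    have h1 := (ih (k := m + 1) (by omega)).conc hP.star
    refine h1.of_ext (fun w => ?_)
    show _ ↔ a :: w ∈ KStar.kstar P.lang
    constructor
    · rintro ⟨x, y, hx, hy, rfl⟩
      have : (a :: x) ++ y ∈ P.lang * KStar.kstar P.lang :=
        Language.append_mem_mul hx hy
      have h3 : (1 : Language α) + P.lang * KStar.kstar P.lang = KStar.kstar P.lang :=
        Language.one_add_self_mul_kstar_eq_kstar P.lang
      have h2 : (a :: x) ++ y ∈ (1 : Language α) + P.lang * KStar.kstar P.lang :=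
        Language.mem_add _ _ _ |>.mpr (Or.inr this)
      rwa [h3] at h2
    · intro hw
      rw [Language.mem_kstar_iff_exists_nonempty] at hw
      obtain ⟨S, hS, hne⟩ := hw
      cases S with
      | nil => simp at hS
      | cons s S =>
        simp only [List.flatten_cons] at hS
        obtain ⟨hs, hsne⟩ := hne s (by simp)
        cases s with
        | nil => exact absurd rfl hsne
        | cons c s =>
          simp at hS
          obtain ⟨rfl, rfl⟩ := hS
          refine ⟨s, S.flatten, hs, ?_, rfl⟩
          exact Language.join_mem_kstar (fun y hy => (hne y (by simp [hy])).1)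

/-- Left quotient by a word. -/
theorem GSH.lquot (u : List α) (h : GSH k L) : GSH k {w | u ++ w ∈ L} := by
  induction u generalizing L with
  | nil => exact h
  | cons a u ih => exact (ih (L := {w | a :: w ∈ L}) (GSH.quotLetter a h))

/-- Right quotient by a word. -/
theorem GSH.rquot (u : List α) (h : GSH k L) : GSH k {w | w ++ u ∈ L} := by
  refine ((GSH.lquot u.reverse h.reverse).reverse).of_ext (fun w => ?_)
  show u.reverse ++ w.reverse ∈ L.reverse ↔ w ++ u ∈ L
  rw [Language.mem_reverse]
  simp

/-! ### Inverse images under letter-to-letter maps -/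

/-- Inverse images under letter-to-letter morphisms preserve the star height. -/
theorem GSH.comap [Finite β] (f : β → α) (h : GSH k L) : GSH k {w : List β | w.map f ∈ L} := by
  obtain ⟨e, he, rfl⟩ := h
  induction e generalizing k with
  | zero => exact (GSH.zero k).of_ext (fun w => by simp [Language.notMem_zero]; exact id)
  | one =>
    refine (GSH.one k).of_ext (fun w => ?_)
    rw [Language.mem_one]
    show _ ↔ w.map f = []
    simp
  | letter a =>
    refine (GSH.exists (ι := {b : β // f b = a}) (P := fun b w => w = [b.1])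
      (fun b => GSH.letter k b.1)).of_ext (fun w => ?_)
    constructor
    · rintro ⟨⟨b, hb⟩, rfl⟩
      show [f b] = [a]
      rw [hb]
    · intro hw
      have hw' : w.map f = [a] := hw
      obtain ⟨b, hb, hba⟩ := List.map_eq_singleton_iff.mp hw'
      exact ⟨⟨b, hba⟩, hb⟩
  | union P Q ihP ihQ =>
    exact ((ihP (le_of_max_le_left he)).add (ihQ (le_of_max_le_right he))).of_ext
      (fun _ => Iff.rfl)
  | conc P Q ihP ihQ =>
    refine ((ihP (le_of_max_le_left he)).conc (ihQ (le_of_max_le_right he))).of_ext (fun w => ?_)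
    show _ ↔ w.map f ∈ P.lang * Q.lang
    rw [Language.mem_mul]
    constructor
    · rintro ⟨x, y, hx, hy, rfl⟩
      exact ⟨x.map f, hx, y.map f, hy, by simp⟩
    · rintro ⟨x, hx, y, hy, hxy⟩
      obtain ⟨x', y', rfl, rfl, rfl⟩ := List.map_eq_append_iff.mp hxy.symm
      exact ⟨x', y', hx, hy, rfl⟩
  | compl P ih => exact (ih he).compl.of_ext (fun _ => Iff.rfl)
  | star P ih =>
    have hh : P.height + 1 ≤ k := he
    obtain ⟨m, rfl⟩ : ∃ m, k = m + 1 := ⟨k - 1, by omega⟩
    refine (GSH.kstar (ih (k := m) (by omega))).of_ext (fun w => ?_)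
    show _ ↔ w.map f ∈ KStar.kstar P.lang
    rw [Language.mem_kstar]
    constructor
    · rintro ⟨S, rfl, hS⟩
      refine ⟨S.map (List.map f), by simp [List.map_flatten], ?_⟩
      intro y hy
      obtain ⟨y', hy', rfl⟩ := List.mem_map.mp hy
      exact hS y' hy'
    · rintro ⟨S, hS, hSm⟩
      induction S generalizing w with
      | nil =>
        simp at hS
        subst hS
        exact ⟨[], rfl, by simp⟩
      | cons s S ih2 =>
        simp only [List.flatten_cons] at hS
        obtain ⟨x', y', rfl, hx', hy'⟩ := List.map_eq_append_iff.mp hS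
        obtain ⟨T, rfl, hT⟩ := ih2 y' hy' (fun y hy => hSm y (by simp [hy]))
        refine ⟨x' :: T, by simp, ?_⟩
        intro y hy
        rcases List.mem_cons.mp hy with rfl | hy
        · show y.map f ∈ P.lang
          rw [hx']
          exact hSm s (by simp)
        · exact hT y hy

end Vale.Agent.Lib.P329
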