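import Vale.Agent.Lib.P329.Count3

/-!
All scattered subword counts of length at most three are countable, so all languages recognized by
a finite group of nilpotency class at most three have generalized star height at most one.
-/

namespace Vale.Agent.Lib.P329

variable {α : Type} [DecidableEq α]

/-- Number of occurrences of the letter `c`. -/
abbrev XX (c : α) : List α → ℤ := cntP (fun a => a = c)

/-- Sum over positions of `d` of the product of the numbers of `c` and `e` in the suffix. -/
def TT (c e d : α) : List α → ℤ
  | [] => 0
  | a :: w => TT c e d w + if a = d then XX c w * XX e w else 0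

theorem sc_cons (c a : α) (u w : List α) :
    (subCount (c :: u) (a :: w) : ℤ) = subCount (c :: u) w + if a = c then (subCount u w : ℤ) else 0 := by
  rw [subCount_cons_cons]
  by_cases h : a = c
  · subst h; simp
  · have h' : ¬ c = a := fun e => h e.symm
    simp [h, h']

theorem XX_cons (c a : α) (w : List α) : XX c (a :: w) = XX c w + if a = c then 1 else 0 := rfl

theorem sc_single (c : α) (w : List α) : (subCount [c] w : ℤ) = XX c w := by
  induction w with
  | nil => rfl
  | cons a w ih =>
    rw [sc_cons, ih, XX_cons]
    simp

theorem sc_pair_self (c : α) (w : List α) :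
    2 * (subCount [c, c] w : ℤ) = XX c w * (XX c w - 1) := by
  induction w with
  | nil => simp [XX, cntP]
  | cons a w ih =>
    rw [sc_cons, XX_cons]
    by_cases h : a = c
    · subst h
      simp only [if_true, sc_single]
      linarith
    · simp only [h, if_false]
      linarith

theorem sc_pair (c d : α) (w : List α) :
    (subCount [c, d] w : ℤ) = lampSum (fun a => a = d) (fun a => a = c) (fun x => x) w := by
  induction w with
  | nil => rfl
  | cons a w ih =>
    rw [sc_cons, ih]
    simp only [lampSum, sc_single]

theorem cntP_or (c e : α) (hce : c ≠ e) (w : List α) :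
    cntP (fun a => a = c ∨ a = e) w = XX c w + XX e w := by
  induction w with
  | nil => rfl
  | cons a w ih =>
    simp only [cntP, XX] at ih ⊢
    rw [ih]
    by_cases h : a = c
    · subst h
      simp [hce]
      ring
    · by_cases h' : a = e
      · subst h'
        simp [h]
        ring
      · simp [h, h']

/-- Polarization. -/
theorem TT_polar (c e d : α) (hce : c ≠ e) (w : List α) :
    2 * TT c e d w = lampSum (fun a => a = c ∨ a = e) (fun a => a = d) (fun x => x ^ 2) w
      - lampSum (fun a => a = c) (fun a => a = d) (fun x => x ^ 2) w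
      - lampSum (fun a => a = e) (fun a => a = d) (fun x => x ^ 2) w := by
  induction w with
  | nil => simp [TT, lampSum]
  | cons a w ih =>
    simp only [TT, lampSum, cntP_or c e hce]
    by_cases h : a = d
    · simp only [h, if_true]
      rw [mul_add, ih]
      ring
    · simp only [h, if_false]
      rw [mul_add, ih]
      ring

theorem TT_self (c d : α) (w : List α) :
    TT c c d w = lampSum (fun a => a = c) (fun a => a = d) (fun x => x ^ 2) w := by
  induction w with
  | nil => rfl
  | cons a w ih =>
    simp only [TT, lampSum, ih]
    by_cases h : a = d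
    · simp only [h, if_true]
      ring
    · simp only [h, if_false]

/-- `[c, d, e]` with `d` different from `c`. -/
theorem sc_triple_mid (c d e : α) (hcd : c ≠ d) (w : List α) :
    (subCount [c, d, e] w : ℤ) + TT c e d w = XX c w * (subCount [d, e] w : ℤ) := by
  induction w with
  | nil => simp [TT, XX, cntP]
  | cons a w ih =>
    rw [sc_cons, sc_cons, XX_cons]
    simp only [TT, sc_single]
    by_cases h : a = c
    · subst h
      simp only [if_true, hcd, if_false]
      linarith
    · by_cases h' : a = d
      · subst h'
        simp only [h, if_true, if_false]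
        linarith
      · simp only [h, h', if_false]
        linarith

/-- `[c, e, e]`. -/
theorem sc_triple_ee (c e : α) (w : List α) :
    2 * (subCount [c, e, e] w : ℤ) =
      lampSum (fun a => a = e) (fun a => a = c) (fun x => x ^ 2 - x) w := by
  induction w with
  | nil => rfl
  | cons a w ih =>
    rw [sc_cons, mul_add, ih]
    simp only [lampSum]
    by_cases h : a = c
    · simp only [h, if_true]
      rw [sc_pair_self]
      ring
    · simp only [h, if_false]
      ring

/-- The auxiliary identity for `[c, e]`. -/
theorem sc_pair_swap (c e : α) (hce : c ≠ e) (w : List α) :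
    (subCount [c, e] w : ℤ) + lampSum (fun a => a = c) (fun a => a = e) (fun x => x) w
      = XX c w * XX e w := by
  induction w with
  | nil => simp [lampSum, XX, cntP]
  | cons a w ih =>
    rw [sc_cons, XX_cons, XX_cons]
    simp only [lampSum, sc_single]
    by_cases h : a = c
    · subst h
      simp only [hce, if_true, if_false]
      linarith
    · by_cases h' : a = e
      · subst h'
        simp only [h, if_true, if_false]
        linarith
      · simp only [h, h', if_false]
        linarith

/-- `[c, c, e]`. -/
theorem sc_triple_cc (c e : α) (hce : c ≠ e) (w : List α) :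
    2 * (subCount [c, c, e] w : ℤ) =
      (XX c w ^ 2 - XX c w) * XX e w
        - (2 * XX c w - 1) * lampSum (fun a => a = c) (fun a => a = e) (fun x => x) w
        + lampSum (fun a => a = c) (fun a => a = e) (fun x => x ^ 2) w := by
  induction w with
  | nil => simp [lampSum, XX, cntP]
  | cons a w ih =>
    rw [sc_cons, XX_cons, XX_cons, mul_add, ih]
    simp only [lampSum]
    have hsw := sc_pair_swap c e hce w
    by_cases h : a = c
    · subst h
      simp only [hce, if_true, if_false]
      linear_combination 2 * hsw
    · by_cases h' : a = e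
      · subst h'
        simp only [h, if_true, if_false]
        ring
      · simp only [h, h', if_false]
        ring

/-- `[c, c, c]`. -/
theorem sc_triple_self (c : α) (w : List α) :
    6 * (subCount [c, c, c] w : ℤ) = XX c w * (XX c w - 1) * (XX c w - 2) := by
  induction w with
  | nil => simp [XX, cntP]
  | cons a w ih =>
    rw [sc_cons, XX_cons]
    have h2 := sc_pair_self c w
    by_cases h : a = c
    · subst h
      simp only [if_true]
      linear_combination ih + 3 * h2
    · simp only [h, if_false]
      linarith

variable [Finite α]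

theorem hper_id : ∀ (N : ℕ) (x y : ℤ), x ≡ y [ZMOD N] → (fun x : ℤ => x) x ≡ (fun x : ℤ => x) y [ZMOD N] :=
  fun _ _ _ h => h

theorem hper_sq : ∀ (N : ℕ) (x y : ℤ), x ≡ y [ZMOD N] →
    (fun x : ℤ => x ^ 2) x ≡ (fun x : ℤ => x ^ 2) y [ZMOD N] :=
  fun _ _ _ h => h.pow 2

theorem hper_sqm : ∀ (N : ℕ) (x y : ℤ), x ≡ y [ZMOD N] →
    (fun x : ℤ => x ^ 2 - x) x ≡ (fun x : ℤ => x ^ 2 - x) y [ZMOD N] :=
  fun _ _ _ h => (h.pow 2).sub h

theorem cnt_XX (c : α) : CNT (XX c : List α → ℤ) := cnt_cntP _

theorem cnt_TT (c e d : α) (hcd : c ≠ d) (hed : e ≠ d) : CNT (TT c e d : List α → ℤ) := by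
  by_cases hce : c = e
  · subst hce
    refine (cnt_lampSum _ _ ?_ _ hper_sq).congr (fun w => (TT_self c d w).symm)
    rintro a rfl rfl
    exact hcd rfl
  · refine CNT.of_mul 2 (by norm_num) ?_
    have h1 := cnt_lampSum (α := α) (fun a => a = c ∨ a = e) (fun a => a = d)
      (by rintro a (rfl | rfl) rfl
          · exact hcd rfl
          · exact hed rfl) _ hper_sq
    have h2 := cnt_lampSum (α := α) (fun a => a = c) (fun a => a = d)
      (by rintro a rfl rfl; exact hcd rfl) _ hper_sq
    have h3 := cnt_lampSum (α := α) (fun a => a = e) (fun a => a = d)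
      (by rintro a rfl rfl; exact hed rfl) _ hper_sq
    refine ((h1.sub h2).sub h3).congr (fun w => ?_)
    rw [← TT_polar c e d hce w]
    norm_num

theorem cnt_pair (c d : α) : CNT (fun w : List α => (subCount [c, d] w : ℤ)) := by
  by_cases hcd : c = d
  · subst hcd
    refine CNT.of_mul 2 (by norm_num) ?_
    refine ((cnt_XX c).mul ((cnt_XX c).sub (CNT.const 1))).congr (fun w => ?_)
    rw [← sc_pair_self]
    norm_num
  · refine (cnt_lampSum (α := α) (fun a => a = d) (fun a => a = c)
      (by rintro a rfl rfl; exact hcd rfl) _ hper_id).congr (fun w => (sc_pair c d w).symm)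

theorem cnt_triple (c d e : α) : CNT (fun w : List α => (subCount [c, d, e] w : ℤ)) := by
  by_cases hcd : c = d
  · subst hcd
    by_cases hce : c = e
    · subst hce
      refine CNT.of_mul 6 (by norm_num) ?_
      refine (((cnt_XX c).mul ((cnt_XX c).sub (CNT.const 1))).mul
        ((cnt_XX c).sub (CNT.const 2))).congr (fun w => ?_)
      rw [← sc_triple_self]
      norm_num
    · refine CNT.of_mul 2 (by norm_num) ?_
      have h1 := cnt_lampSum (α := α) (fun a => a = c) (fun a => a = e)
        (by rintro a rfl rfl; exact hce rfl) _ hper_id
      have h2 := cnt_lampSum (α := α) (fun a => a = c) (fun a => a = e)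
        (by rintro a rfl rfl; exact hce rfl) _ hper_sq
      have hC := cnt_XX c
      have hE := cnt_XX e
      have hC2 : CNT (fun w : List α => XX c w ^ 2) := (hC.mul hC).congr (fun w => by ring)
      refine ((((hC2.sub hC).mul hE).sub (((CNT.const 2).mul hC |>.sub (CNT.const 1)).mul h1)).add
        h2).congr (fun w => ?_)
      rw [show (((2 : ℕ) : ℤ)) = 2 by norm_num, sc_triple_cc c e hce w]
  · by_cases hde : d = e
    · subst hde
      refine CNT.of_mul 2 (by norm_num) ?_
      refine (cnt_lampSum (α := α) (fun a => a = d) (fun a => a = c)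
        (by rintro a rfl rfl; exact hcd rfl) _ hper_sqm).congr (fun w => ?_)
      rw [← sc_triple_ee]
      norm_num
    · have h1 := (cnt_XX (α := α) c).mul (cnt_pair d e)
      have h2 := cnt_TT (α := α) c e d hcd (Ne.symm hde)
      refine (h1.sub h2).congr (fun w => ?_)
      have := sc_triple_mid c d e hcd w
      linarith

/-- All scattered subword counts of length at most three are countable. -/
theorem cnt_subCount (u : List α) (hu : u.length ≤ 3) :
    CNT (fun w : List α => (subCount u w : ℤ)) := by
  match u, hu with
  | [], _ => exact (CNT.const 1).congr (fun w => by simp)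
  | [c], _ => exact (cnt_XX c).congr (fun w => (sc_single c w).symm)
  | [c, d], _ => exact cnt_pair c d
  | [c, d, e], _ => exact cnt_triple c d e
  | _ :: _ :: _ :: _ :: _, h => simp at h; omega

end Vale.Agent.Lib.P329

namespace Vale.Agent.Lib.P329

/-- Every language recognized by a finite group of nilpotency class at most three has generalized
star height at most one. -/
theorem gsh_of_class3 {α G : Type} [Finite α] [Group G] [Finite G]
    (hc : (⊤ : Subgroup G).lowerCentralSeries 3 = ⊥) (g : α → G) (T : Set G) :
    GSH 1 {w : List α | (w.map g).prod ∈ T} := by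
  classical
  cases nonempty_fintype α
  have hN : 0 < Nat.card G := Nat.card_pos
  have : NeZero (Nat.card G) := ⟨hN.ne'⟩
  let ι := {u : List α // u.length ≤ 3}
  have hι : Finite ι := (List.finite_length_le α 3).to_subtype
  let σ : List α → ι → ZMod (Nat.card G) := fun w u => ((subCount u.1 w : ℕ) : ZMod (Nat.card G))
  have key : GSH 1 {w : List α | ∃ τ : ι → ZMod (Nat.card G),
      (∃ w0, σ w0 = τ ∧ (w0.map g).prod ∈ T) ∧ σ w = τ} := by
    refine GSH.exists (fun τ => ?_)
    by_cases hτ : ∃ w0, σ w0 = τ ∧ (w0.map g).prod ∈ T
    · have h1 : GSH 1 {w : List α | ∀ u : ι, σ w u = τ u} := by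
        refine GSH.forall (fun u => ?_)
        refine (cnt_subCount u.1 u.2 _ hN (τ u)).of_ext (fun w => ?_)
        show (((subCount u.1 w : ℕ) : ℤ) : ZMod (Nat.card G)) = τ u ↔ σ w u = τ u
        simp [σ]
      refine h1.of_ext (fun w => ⟨fun h => ⟨hτ, funext h⟩, fun h u => congrFun h.2 u⟩)
    · refine (GSH.bot 1).of_ext (fun w => ?_)
      constructor
      · intro h0
        exact absurd h0 (Language.notMem_zero w)
      · intro h0
        exact absurd h0.1 hτ
  refine key.of_ext (fun w => ?_)
  constructor
  · rintro ⟨τ, ⟨w0, h1, h2⟩, h3⟩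
    have : (w.map g).prod = (w0.map g).prod := by
      apply prod_eq_of_subCount_modEq hc g
      intro u hu
      have h4 : σ w ⟨u, hu⟩ = σ w0 ⟨u, hu⟩ := by rw [h3, h1]
      exact (ZMod.natCast_eq_natCast_iff _ _ _).1 h4
    show (w.map g).prod ∈ T
    rw [this]
    exact h2
  · intro h
    exact ⟨_, ⟨w, rfl, h⟩, rfl⟩

end Vale.Agent.Lib.P329
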