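import Vale.Agent.Lib.P329.Poly

/-!
Taylor expansion of the product map of a nilpotent group: for a group of class at most `c`, the
product of a word is an ordered product of powers `κ ^ subCount u w`, where `κ` lies in the term of
the lower central series of index `j` and `u` has length at most `j + 1`.
-/

namespace Vale.Agent.Lib.P329

open scoped commutatorElement

universe u

section Tval

variable {α G : Type*} [DecidableEq α] [Group G]

/-- Ordered product of powers indexed by subword counts. -/
def tval (L : List (List α × G)) (w : List α) : G :=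
  (L.map fun p => p.2 ^ subCount p.1 w).prod

@[simp] theorem tval_nil (w : List α) : tval ([] : List (List α × G)) w = 1 := rfl

@[simp] theorem tval_cons (p : List α × G) (L : List (List α × G)) (w : List α) :
    tval (p :: L) w = p.2 ^ subCount p.1 w * tval L w := by
  simp [tval]

theorem tval_append (L L' : List (List α × G)) (w : List α) :
    tval (L ++ L') w = tval L w * tval L' w := by
  simp [tval]

theorem map_tval {H : Type*} [Group H] (φ : G →* H) (L : List (List α × G)) (w : List α) :
    φ (tval L w) = tval (L.map fun p => (p.1, φ p.2)) w := by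
  induction L with
  | nil => simp
  | cons p L ih => simp [ih]

end Tval

section PolPow

variable {α G : Type*} [DecidableEq α] [Group G] {F : ℕ → Subgroup G}

/-- A power of a subword count is polynomial. -/
theorem polM_pow (hF : Antitone F) {κ : G} (m : ℕ) :
    ∀ (u : List α) (j : ℕ), u.length ≤ j → κ ∈ F j →
      PolM F m (j - u.length) (fun w => κ ^ subCount u w) := by
  induction m with
  | zero =>
    intro u j _ hκ w
    exact pow_mem (hF (Nat.sub_le _ _) hκ) _
  | succ m ih =>
    intro u j hu hκ
    refine ⟨fun w => pow_mem (hF (Nat.sub_le _ _) hκ) _, fun b => ?_⟩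
    cases u with
    | nil =>
      refine (PolM.one m _).congr (fun w => ?_)
      simp [lDiff]
    | cons a u =>
      by_cases hab : a = b
      · subst hab
        have hu' : u.length ≤ j := by simp at hu; omega
        have h1 := ih u j hu' hκ
        have h2 : j - (a :: u).length + 1 = j - u.length := by simp at hu ⊢; omega
        rw [h2]
        refine h1.congr (fun w => ?_)
        simp only [lDiff, subCount_cons_cons, if_true]
        rw [add_comm, pow_add]
        simp
      · refine (PolM.one m _).congr (fun w => ?_)
        simp [lDiff, subCount_cons_cons, hab]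

/-- A Taylor product is polynomial. -/
theorem polM_tval (hF : IsFiltration F) (m : ℕ) (L : List (List α × G))
    (hL : ∀ p ∈ L, ∃ j, p.1.length ≤ j ∧ p.2 ∈ F j) :
    PolM F m 0 (tval L) := by
  induction L with
  | nil => exact PolM.one m 0
  | cons p L ih =>
    obtain ⟨j, hj, hp⟩ := hL p (by simp)
    have h1 := PolM.mono_level hF.anti (Nat.zero_le _) (polM_pow hF.anti (κ := p.2) m p.1 j hj hp)
    have h2 := ih (fun q hq => hL q (List.mem_cons_of_mem _ hq))
    exact (PolM.mul hF h1 h2).congr (fun w => by simp)

end PolPow

section Newton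

variable {α : Type*} [DecidableEq α]

theorem ConstAfter.of_injective {A G : Type*} [Group A] [Group G] (ι : A →* G)
    (hι : Function.Injective ι) :
    ∀ (d : ℕ) (r : List α → A), ConstAfter d (fun w => ι (r w)) → ConstAfter d r
  | 0, r, h => fun b w => hι (h b w)
  | d + 1, r, h => fun b => ConstAfter.of_injective ι hι d (lDiff b r) (by
      have e : (fun w => ι (lDiff b r w)) = lDiff b (fun w => ι (r w)) := by
        funext w
        simp [lDiff]
      rw [e]
      exact h b)

theorem constAfter_of_polM {G : Type*} [Group G] {F : ℕ → Subgroup G} :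
    ∀ (d k : ℕ) (f : List α → G), PolM F (d + 1) k f → F (k + d + 1) = ⊥ → ConstAfter d f
  | 0, k, f, h, hb => fun b w => by
      have h1 : lDiff b f w ∈ F (k + 1) := h.2 b w
      rw [show k + 1 = k + 0 + 1 by omega, hb, Subgroup.mem_bot] at h1
      exact mul_inv_eq_one.1 h1
  | d + 1, k, f, h, hb => fun b =>
      constAfter_of_polM d (k + 1) (lDiff b f) (h.2 b) (by
        rw [show k + 1 + d + 1 = k + (d + 1) + 1 by omega]; exact hb)

/-- Newton expansion in a commutative group. -/
theorem newton [Fintype α] {A : Type*} [Group A] (hc : ∀ x y : A, x * y = y * x) :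
    ∀ (d : ℕ) (r : List α → A), ConstAfter d r →
      ∃ L : List (List α × A), (∀ p ∈ L, p.1.length ≤ d) ∧ ∀ w, r w = tval L w := by
  intro d
  induction d with
  | zero =>
    intro r h
    refine ⟨[([], r [])], by simp, fun w => ?_⟩
    have : r w = r [] := by
      induction w with
      | nil => rfl
      | cons b w ih => rw [h b w, ih]
    simp [this]
  | succ d ih =>
    intro r h
    choose Lb hLb hLb2 using fun b => ih (lDiff b r) (h b)
    let lift : α → List (List α × A) := fun b => (Lb b).map fun p => (b :: p.1, p.2)
    -- single letter computation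
    have hlift : ∀ (b c : α) (K : List (List α × A)) (w : List α),
        tval (K.map fun p => (b :: p.1, p.2)) (c :: w) =
          tval (K.map fun p => (b :: p.1, p.2)) w * (if b = c then tval K w else 1) := by
      intro b c K w
      induction K with
      | nil => simp
      | cons p K ihK =>
        simp only [List.map_cons, tval_cons, ihK, subCount_cons_cons]
        by_cases hbc : b = c
        · simp only [hbc, if_true]
          rw [add_comm, pow_add]
          generalize p.2 ^ subCount p.1 w = x1
          generalize p.2 ^ subCount (c :: p.1) w = x2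
          generalize tval (List.map (fun p => (c :: p.1, p.2)) K) w = x3
          generalize tval K w = x4
          calc x1 * x2 * (x3 * x4) = x2 * x1 * (x3 * x4) := by rw [hc x1 x2]
            _ = x2 * (x1 * x3 * x4) := by simp only [mul_assoc]
            _ = x2 * (x3 * x1 * x4) := by rw [hc x1 x3]
            _ = x2 * x3 * (x1 * x4) := by simp only [mul_assoc]
        · simp [hbc]
    have hlist : ∀ (bs : List α), bs.Nodup → ∀ (c : α) (w : List α),
        tval (bs.flatMap lift) (c :: w) =
          tval (bs.flatMap lift) w * (if c ∈ bs then tval (Lb c) w else 1) := by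
      intro bs
      induction bs with
      | nil => intros; simp
      | cons b bs ihb =>
        intro hnd c w
        rw [List.flatMap_cons, tval_append, tval_append, ihb (List.nodup_cons.1 hnd).2 c w]
        show tval ((Lb b).map fun p => (b :: p.1, p.2)) (c :: w) * _ = tval (lift b) w * _ * _
        rw [hlift b c (Lb b) w]
        by_cases hbc : b = c
        · subst hbc
          have hnot : b ∉ bs := (List.nodup_cons.1 hnd).1
          simp [hnot, lift, mul_assoc]
          exact hc _ _
        · have hcb : ¬ c = b := fun e => hbc e.symm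
          simp [hbc, hcb, lift, mul_assoc]
    let bs : List α := Finset.univ.toList
    have hbs : bs.Nodup := Finset.nodup_toList _
    have hmem : ∀ c, c ∈ bs := fun c => Finset.mem_toList.2 (Finset.mem_univ c)
    refine ⟨([], r []) :: bs.flatMap lift, ?_, fun w => ?_⟩
    · intro p hp
      rcases List.mem_cons.1 hp with rfl | hp
      · simp
      · obtain ⟨b, -, hb⟩ := List.mem_flatMap.1 hp
        obtain ⟨q, hq, rfl⟩ := List.mem_map.1 hb
        have := hLb b q hq
        simp only [List.length_cons]
        omega
    · have hzero : ∀ (bs : List α), tval (bs.flatMap lift) ([] : List α) = 1 := by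
        intro bs
        induction bs with
        | nil => simp
        | cons b bs ihb =>
          rw [List.flatMap_cons, tval_append, ihb, mul_one]
          show tval ((Lb b).map fun p => (b :: p.1, p.2)) [] = 1
          generalize Lb b = K
          induction K with
          | nil => simp
          | cons p K ihK => simp [ihK]
      induction w with
      | nil =>
        simp [hzero]
      | cons c w ihw =>
        have h1 : r (c :: w) = lDiff c r w * r w := by simp [lDiff]
        rw [h1, hLb2 c w, ihw]
        simp only [tval_cons, subCount_nil_left, pow_one]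
        rw [hlist bs hbs c w, if_pos (hmem c)]
        generalize tval (Lb c) w = x1
        generalize tval (bs.flatMap lift) w = x2
        calc x1 * (r [] * x2) = (r [] * x2) * x1 := hc _ _
          _ = r [] * (x2 * x1) := by rw [mul_assoc]

end Newton

section LCS

variable {G : Type*} [Group G]

theorem lcs_normal (j : ℕ) : ((⊤ : Subgroup G).lowerCentralSeries j).Normal :=
  Subgroup.normal_of_characteristic _

/-- Commutators add the levels of the lower central series. -/
theorem lcs_comm (j : ℕ) : ∀ i : ℕ, ⁅(⊤ : Subgroup G).lowerCentralSeries i,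
    (⊤ : Subgroup G).lowerCentralSeries j⁆ ≤ (⊤ : Subgroup G).lowerCentralSeries (i + j + 1) := by
  induction j with
  | zero => intro i; exact le_rfl
  | succ j ih =>
    intro i
    set N := (⊤ : Subgroup G).lowerCentralSeries (i + (j + 1) + 1) with hN
    have hNn : N.Normal := lcs_normal _
    let π : G →* G ⧸ N := QuotientGroup.mk' N
    have hker : ∀ K : Subgroup G, K ≤ N → K.map π = ⊥ := by
      intro K hK
      rw [Subgroup.map_eq_bot_iff, QuotientGroup.ker_mk']
      exact hK
    have h1 : ⁅⁅(⊤ : Subgroup G), (⊤ : Subgroup G).lowerCentralSeries i⁆,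
        (⊤ : Subgroup G).lowerCentralSeries j⁆ ≤ N := by
      rw [Subgroup.commutator_comm (⊤ : Subgroup G)]
      have := ih (i + 1)
      rw [show i + 1 + j + 1 = i + (j + 1) + 1 by omega] at this
      exact this
    have h2 : ⁅⁅(⊤ : Subgroup G).lowerCentralSeries i, (⊤ : Subgroup G).lowerCentralSeries j⁆,
        (⊤ : Subgroup G)⁆ ≤ N := by
      have h3 := Subgroup.commutator_mono (ih i) (le_refl (⊤ : Subgroup G))
      exact h3
    have key := Subgroup.commutator_commutator_eq_bot_of_rotate
      (H₁ := ((⊤ : Subgroup G).lowerCentralSeries j).map π)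
      (H₂ := (⊤ : Subgroup G).map π)
      (H₃ := ((⊤ : Subgroup G).lowerCentralSeries i).map π)
      (by
        rw [← Subgroup.map_commutator, ← Subgroup.map_commutator]
        exact hker _ h1)
      (by
        rw [← Subgroup.map_commutator, ← Subgroup.map_commutator]
        exact hker _ h2)
    rw [← Subgroup.map_commutator, ← Subgroup.map_commutator, Subgroup.map_eq_bot_iff,
      QuotientGroup.ker_mk'] at key
    rw [Subgroup.commutator_comm]
    exact key

/-- The filtration given by the lower central series (levels `0` and `1` are both everything). -/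
def lcF (G : Type*) [Group G] (i : ℕ) : Subgroup G := (⊤ : Subgroup G).lowerCentralSeries (i - 1)

theorem isFiltration_lcF : IsFiltration (lcF G) := by
  refine ⟨fun a b hab => Subgroup.lowerCentralSeries_antitone ⊤ (by omega), ?_⟩
  intro i j x y hx hy
  rcases Nat.eq_zero_or_pos i with rfl | hi
  · have hn : (lcF G j).Normal := lcs_normal _
    simp only [Nat.zero_add]
    rw [commutatorElement_def]
    exact mul_mem (hn.conj_mem y hy x) (inv_mem hy)
  · rcases Nat.eq_zero_or_pos j with rfl | hj
    · have hn : (lcF G i).Normal := lcs_normal _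
      simp only [Nat.add_zero]
      rw [commutatorElement_def, mul_assoc, mul_assoc]
      refine mul_mem hx ?_
      have := hn.conj_mem x⁻¹ (inv_mem hx) y
      simpa [mul_assoc] using this
    · have h := lcs_comm (G := G) (j - 1) (i - 1)
      have h2 : ⁅x, y⁆ ∈ ⁅(⊤ : Subgroup G).lowerCentralSeries (i - 1),
          (⊤ : Subgroup G).lowerCentralSeries (j - 1)⁆ :=
        Subgroup.commutator_mem_commutator hx hy
      have h3 := h h2
      have h4 : i - 1 + (j - 1) + 1 = i + j - 1 := by omega
      rw [h4] at h3
      exact h3

end LCS

section Main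

variable {α : Type*} [DecidableEq α] [Fintype α]

/-- The product map of a word is polynomial of level `0`. -/
theorem polM_prod {G : Type*} [Group G] (g : α → G) (m : ℕ) :
    PolM (lcF G) m 0 (fun w : List α => (w.map g).prod) := by
  cases m with
  | zero => exact fun w => Subgroup.mem_top _
  | succ m =>
    refine ⟨fun w => Subgroup.mem_top _, fun b => ?_⟩
    refine (PolM.const (k := 1) (a := g b) (Subgroup.mem_top _) m).congr (fun w => ?_)
    simp [lDiff]

/-- Taylor expansion. -/
theorem taylor : ∀ (c : ℕ) {G : Type u} [Group G], (⊤ : Subgroup G).lowerCentralSeries c = ⊥ →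
    ∀ g : α → G, ∃ L : List (List α × G),
      (∀ p ∈ L, ∃ j, j < c ∧ p.1.length ≤ j + 1 ∧ p.2 ∈ (⊤ : Subgroup G).lowerCentralSeries j) ∧
      ∀ w : List α, (w.map g).prod = tval L w := by
  intro c
  induction c with
  | zero =>
    intro G _ hG g
    refine ⟨[], by simp, fun w => ?_⟩
    have : (w.map g).prod ∈ (⊤ : Subgroup G).lowerCentralSeries 0 := Subgroup.mem_top _
    rw [hG, Subgroup.mem_bot] at this
    simpa using this
  | succ c ih =>
    intro G _ hG g
    set Z := (⊤ : Subgroup G).lowerCentralSeries c with hZ
    have hZn : Z.Normal := lcs_normal _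
    let π : G →* G ⧸ Z := QuotientGroup.mk' Z
    have hπ : Function.Surjective π := QuotientGroup.mk'_surjective Z
    have hmap : ∀ j, ((⊤ : Subgroup G).lowerCentralSeries j).map π =
        (⊤ : Subgroup (G ⧸ Z)).lowerCentralSeries j := by
      intro j
      rw [Subgroup.map_lowerCentralSeries, Subgroup.map_top_of_surjective π hπ]
    have hQ : (⊤ : Subgroup (G ⧸ Z)).lowerCentralSeries c = ⊥ := by
      rw [← hmap, ← hZ, Subgroup.map_eq_bot_iff, QuotientGroup.ker_mk']
    obtain ⟨Lq, hLq, hLq2⟩ := ih hQ (fun a => π (g a))
    -- lift the coefficients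
    have hlift : ∀ Lq : List (List α × (G ⧸ Z)),
        (∀ p ∈ Lq, ∃ j, j < c ∧ p.1.length ≤ j + 1 ∧
          p.2 ∈ (⊤ : Subgroup (G ⧸ Z)).lowerCentralSeries j) →
        ∃ L1 : List (List α × G),
          (∀ p ∈ L1, ∃ j, j < c ∧ p.1.length ≤ j + 1 ∧
            p.2 ∈ (⊤ : Subgroup G).lowerCentralSeries j) ∧
          ∀ w, π (tval L1 w) = tval Lq w := by
      intro Lq
      induction Lq with
      | nil => intro _; exact ⟨[], by simp, fun w => by simp⟩
      | cons p Lq ihq =>
        intro hp
        obtain ⟨L1, h1, h2⟩ := ihq (fun q hq => hp q (List.mem_cons_of_mem _ hq))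
        obtain ⟨j, hj, hj2, hj3⟩ := hp p (by simp)
        rw [← hmap] at hj3
        obtain ⟨κ, hκ, hκ2⟩ := hj3
        refine ⟨(p.1, κ) :: L1, ?_, fun w => ?_⟩
        · intro q hq
          rcases List.mem_cons.1 hq with rfl | hq
          · exact ⟨j, hj, hj2, hκ⟩
          · exact h1 q hq
        · simp [h2, hκ2]
    obtain ⟨L1, hL1, hL1π⟩ := hlift Lq hLq
    -- the remainder lies in `Z`
    let r : List α → G := fun w => (tval L1 w)⁻¹ * (w.map g).prod
    have hrZ : ∀ w, r w ∈ Z := by
      intro w
      have h1 : π (r w) = 1 := by
        simp only [r, map_mul, map_inv, hL1π, map_list_prod, List.map_map]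
        have h2 := hLq2 w
        have h3 : (List.map (⇑π ∘ g) w).prod = (w.map fun a => π (g a)).prod := rfl
        rw [h3, h2]
        simp
      have h4 : r w ∈ π.ker := h1
      rwa [QuotientGroup.ker_mk'] at h4
    have hF : IsFiltration (lcF G) := isFiltration_lcF
    have hr : PolM (lcF G) (c + 1 + 1) 0 r := by
      have h1 : PolM (lcF G) (c + 1 + 1) 0 (tval L1) := by
        refine polM_tval hF _ L1 (fun p hp => ?_)
        obtain ⟨j, _, hj2, hj3⟩ := hL1 p hp
        exact ⟨j + 1, hj2, hj3⟩
      exact PolM.mul hF (PolM.inv hF h1) (polM_prod g _)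
    have hconst : ConstAfter (c + 1) r :=
      constAfter_of_polM (c + 1) 0 r hr (by
        show (⊤ : Subgroup G).lowerCentralSeries _ = ⊥
        rw [show 0 + (c + 1) + 1 - 1 = c + 1 by omega]
        exact hG)
    -- `Z` is commutative
    have hcomm : ∀ x y : Z, x * y = y * x := by
      intro x y
      have h1 : ⁅(x : G), (y : G)⁆ ∈ (⊤ : Subgroup G).lowerCentralSeries (c + 1) :=
        Subgroup.commutator_mem_commutator x.2 (Subgroup.mem_top _)
      rw [hG, Subgroup.mem_bot, commutatorElement_eq_one_iff_mul_comm] at h1
      exact Subtype.ext h1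
    let rZ : List α → Z := fun w => ⟨r w, hrZ w⟩
    have hconstZ : ConstAfter (c + 1) rZ :=
      ConstAfter.of_injective Z.subtype Z.subtype_injective _ rZ hconst
    obtain ⟨LZ, hLZ, hLZ2⟩ := newton hcomm (c + 1) rZ hconstZ
    refine ⟨L1 ++ LZ.map (fun p => (p.1, Z.subtype p.2)), ?_, fun w => ?_⟩
    · intro p hp
      rcases List.mem_append.1 hp with hp | hp
      · obtain ⟨j, hj, hj2, hj3⟩ := hL1 p hp
        exact ⟨j, by omega, hj2, hj3⟩
      · obtain ⟨q, hq, rfl⟩ := List.mem_map.1 hp
        exact ⟨c, by omega, hLZ q hq, q.2.2⟩
    · rw [tval_append, ← map_tval, ← hLZ2 w]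
      show _ = tval L1 w * r w
      simp [r]

/-- The product of a word in a group of class at most `c` is determined by the subword counts of
length at most `c`, each taken modulo an exponent of the corresponding term of the lower central
series. -/
theorem prod_eq_of_subCount_modEq_lcs {G : Type u} [Group G] (c : ℕ)
    (hG : (⊤ : Subgroup G).lowerCentralSeries c = ⊥) (g : α → G) (E : ℕ → ℕ)
    (hE : ∀ l j, l ≤ j + 1 → ∀ x ∈ (⊤ : Subgroup G).lowerCentralSeries j, x ^ E l = 1)
    (w w' : List α)
    (h : ∀ u : List α, u.length ≤ c → subCount u w ≡ subCount u w' [MOD E u.length]) :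
    (w.map g).prod = (w'.map g).prod := by
  obtain ⟨L, hL, hL2⟩ := taylor c hG g
  rw [hL2, hL2]
  clear hL2
  induction L with
  | nil => rfl
  | cons p L ih =>
    rw [tval_cons, tval_cons, ih (fun q hq => hL q (List.mem_cons_of_mem _ hq))]
    congr 1
    obtain ⟨j, hj, hj2, hj3⟩ := hL p (by simp)
    have h1 := hE _ j hj2 _ hj3
    have h2 := h p.1 (by omega)
    rw [pow_eq_pow_mod _ h1, pow_eq_pow_mod (subCount p.1 w') h1, h2]

end Main

end Vale.Agent.Lib.P329
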