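import Vale.Agent.Lib.P329.Cert4
import Vale.Agent.Lib.P329.Taylor

/-!
All scattered subword counts of length four modulo an odd prime have generalized star height at
most one, and therefore so have the languages recognized by a finite group of nilpotency class at
most four whose fourth term of the lower central series has odd squarefree exponent.
-/

namespace Vale.Agent.Lib.P329

section Words

variable {β : Type} [DecidableEq β]

/-- Numbering of the letters of a word of length four. -/
def rho (a b c d y : β) : Fin 5 :=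
  if y = a then 0 else if y = b then 1 else if y = c then 2 else if y = d then 3 else 4

theorem rho_inj (a b c d x y : β) (hx : x ∈ [a, b, c, d]) (h : rho a b c d x = rho a b c d y) :
    x = y := by
  simp only [List.mem_cons, List.not_mem_nil, or_false] at hx
  unfold rho at h
  split_ifs at h <;> first
    | (subst_vars; rfl)
    | (exact absurd h (by decide))
    | simp_all

theorem table_words : ∀ b' ∈ ([0, 1] : List (Fin 5)), ∀ c' ∈ ([0, 1, 2] : List (Fin 5)),
    ∀ d' ∈ ([0, 1, 2, 3] : List (Fin 5)), ∃ t ∈ certTable, t.2.1 = [0, b', c', d'] := by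
  decide +kernel

theorem table_k : ∀ t ∈ certTable, t.1 = 1 ∨ t.1 = 2 := by
  decide +kernel

variable [Finite β] {p : ℕ} [hp : Fact p.Prime]

/-- The certified words over the letters of `Fin 5`. -/
theorem cnz_table (hp2 : p ≠ 2) (t : ℤ × List (Fin 5) × List (ℤ × Code (Fin 5))) (ht : t ∈ certTable) :
    CNZ (fun w : List (Fin 5) => (((subCount t.2.1 w : ℕ) : ℤ) : ZMod p)) := by
  refine cert_sound (certTable_ok t ht) ?_
  rcases table_k t ht with h | h
  · rw [h]; simp
  · rw [h]
    have h2 : ((2 : ℕ) : ZMod p) ≠ 0 := by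
      intro h0
      have := (ZMod.natCast_eq_zero_iff 2 p).1 h0
      have h3 := (Nat.prime_dvd_prime_iff_eq hp.out Nat.prime_two).1 this
      exact hp2 h3
    simpa using h2

/-- Counts of words of length four modulo an odd prime. -/
theorem cnz_word_four (hp2 : p ≠ 2) (a b c d : β) :
    CNZ (fun w : List β => (((subCount [a, b, c, d] w : ℕ) : ℤ) : ZMod p)) := by
  have hb' : rho a b c d b ∈ ([0, 1] : List (Fin 5)) := by
    unfold rho
    split_ifs <;> first | (exfalso; simp_all; done) | simp
  have hc' : rho a b c d c ∈ ([0, 1, 2] : List (Fin 5)) := by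
    unfold rho
    split_ifs <;> first | (exfalso; simp_all; done) | simp
  have hd' : rho a b c d d ∈ ([0, 1, 2, 3] : List (Fin 5)) := by
    unfold rho
    split_ifs <;> first | (exfalso; simp_all; done) | simp
  have ha' : rho a b c d a = 0 := by simp [rho]
  obtain ⟨t, ht, he⟩ := table_words _ hb' _ hc' _ hd'
  have h1 := (cnz_table hp2 t ht).comap (rho a b c d)
  refine h1.congr (fun w => ?_)
  have h2 := subCount_map (rho a b c d) [a, b, c, d] w
    (fun x hx y hxy => rho_inj a b c d x y hx hxy)
  simp only [List.map_cons, List.map_nil, ha'] at h2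
  rw [he, h2]

end Words

section Main

variable {α G : Type} [Finite α] [Group G] [Finite G]

omit [Finite α] in
/-- A language whose membership depends only on finitely many residues of statistics has height at
most one. -/
theorem gsh_of_determined {ι : Type} [Finite ι] (N : ι → ℕ) [∀ i, NeZero (N i)]
    (f : ι → List α → ℤ) (hf : ∀ i, CNTat (N i) (f i)) (L : Language α)
    (hL : ∀ w w' : List α, (∀ i, ((f i w : ℤ) : ZMod (N i)) = ((f i w' : ℤ) : ZMod (N i))) →
      (w ∈ L → w' ∈ L)) : GSH 1 L := by
  classical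
  have key : GSH 1 {w : List α | ∃ τ : ∀ i, ZMod (N i),
      (∃ w0 ∈ L, ∀ i, ((f i w0 : ℤ) : ZMod (N i)) = τ i) ∧ ∀ i, ((f i w : ℤ) : ZMod (N i)) = τ i} := by
    refine GSH.exists (fun τ => ?_)
    by_cases hτ : ∃ w0 ∈ L, ∀ i, ((f i w0 : ℤ) : ZMod (N i)) = τ i
    · have h1 : GSH 1 {w : List α | ∀ i, ((f i w : ℤ) : ZMod (N i)) = τ i} :=
        GSH.forall (fun i => hf i (τ i))
      exact h1.of_ext (fun w => ⟨fun h => ⟨hτ, h⟩, fun h => h.2⟩)
    · refine (GSH.bot 1).of_ext (fun w => ?_)
      constructor
      · intro h0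
        exact absurd h0 (Language.notMem_zero w)
      · intro h0
        exact absurd h0.1 hτ
  refine key.of_ext (fun w => ?_)
  constructor
  · rintro ⟨τ, ⟨w0, h1, h2⟩, h3⟩
    exact hL w0 w (fun i => (h2 i).trans (h3 i).symm) h1
  · intro h
    exact ⟨fun i => ((f i w : ℤ) : ZMod (N i)), ⟨w, h, fun _ => rfl⟩, fun _ => rfl⟩

/-- A congruence modulo every prime factor of a squarefree number. -/
theorem modEq_of_squarefree {m a b : ℕ} (hm : Squarefree m)
    (h : ∀ q ∈ m.primeFactors, a ≡ b [MOD q]) : a ≡ b [MOD m] := by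
  have key : ∀ x y : ℕ, x ≤ y → (∀ q ∈ m.primeFactors, x ≡ y [MOD q]) → x ≡ y [MOD m] := by
    intro x y hxy hq
    rw [Nat.modEq_iff_dvd' hxy]
    rw [← Nat.prod_primeFactors_of_squarefree hm]
    refine Finset.prod_primes_dvd _ (fun q hq' => (Nat.prime_of_mem_primeFactors hq').prime)
      (fun q hq' => (Nat.modEq_iff_dvd' hxy).1 (hq q hq'))
  rcases le_total a b with hab | hab
  · exact key a b hab h
  · exact (key b a hab (fun q hq => (h q hq).symm)).symm

/-- **Class four.** -/
theorem gsh_of_class4 (hc : (⊤ : Subgroup G).lowerCentralSeries 4 = ⊥) (m : ℕ) (hm : Squarefree m)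
    (hodd : Odd m) (hexp : ∀ x ∈ (⊤ : Subgroup G).lowerCentralSeries 3, x ^ m = 1)
    (g : α → G) (T : Set G) : GSH 1 {w : List α | (w.map g).prod ∈ T} := by
  classical
  cases nonempty_fintype α
  have hN : 0 < Nat.card G := Nat.card_pos
  -- the index set
  let ι₁ := {u : List α // u.length ≤ 3}
  have hι₁ : Finite ι₁ := (List.finite_length_le α 3).to_subtype
  have hι₂' : Finite {u : List α // u.length = 4} := (List.finite_length_eq α 4).to_subtype
  let ι₂ := {u : List α // u.length = 4} × {q : ℕ // q ∈ m.primeFactors}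
  let N : ι₁ ⊕ ι₂ → ℕ := fun i => match i with
    | Sum.inl _ => Nat.card G
    | Sum.inr x => x.2.1
  have hNZ : ∀ i, NeZero (N i) := by
    rintro (u | x)
    · exact ⟨hN.ne'⟩
    · exact ⟨(Nat.prime_of_mem_primeFactors x.2.2).ne_zero⟩
  let f : ι₁ ⊕ ι₂ → List α → ℤ := fun i w => match i with
    | Sum.inl u => (subCount u.1 w : ℤ)
    | Sum.inr x => (subCount x.1.1 w : ℤ)
  have hf : ∀ i, CNTat (N i) (f i) := by
    rintro (u | x)
    · exact cnt_subCount u.1 u.2 _ hN
    · obtain ⟨⟨u, hu⟩, ⟨q, hq⟩⟩ := x
      have hqp : q.Prime := Nat.prime_of_mem_primeFactors hq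
      have : Fact q.Prime := ⟨hqp⟩
      have hq2 : q ≠ 2 := by
        rintro rfl
        have h2 : 2 ∣ m := Nat.dvd_of_mem_primeFactors hq
        obtain ⟨t, ht⟩ := hodd
        omega
      match u, hu with
      | [a, b, c, d], _ => exact cnz_word_four hq2 a b c d
  refine gsh_of_determined N f hf _ (fun w w' hww' hw => ?_)
  have hprod : (w.map g).prod = (w'.map g).prod := by
    refine prod_eq_of_subCount_modEq_lcs 4 hc g (fun l => if l ≤ 3 then Nat.card G else m) ?_ w w' ?_
    · intro l j hl x hx
      by_cases h3 : l ≤ 3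
      · simp only [h3, if_true]
        exact pow_card_eq_one'
      · simp only [h3, if_false]
        exact hexp x (Subgroup.lowerCentralSeries_antitone _ (by omega) hx)
    · intro u hu
      by_cases h3 : u.length ≤ 3
      · simp only [h3, if_true]
        have := hww' (Sum.inl ⟨u, h3⟩)
        simp only [f, N] at this
        exact (ZMod.natCast_eq_natCast_iff _ _ _).1 (by exact_mod_cast this)
      · simp only [h3, if_false]
        have h4 : u.length = 4 := by omega
        refine modEq_of_squarefree hm (fun q hq => ?_)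
        have := hww' (Sum.inr ⟨⟨u, h4⟩, ⟨q, hq⟩⟩)
        simp only [f, N] at this
        exact (ZMod.natCast_eq_natCast_iff _ _ _).1 (by exact_mod_cast this)
  show (w'.map g).prod ∈ T
  rw [← hprod]
  exact hw

end Main

end Vale.Agent.Lib.P329
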