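import Vale.Agent.Lib.P329.Cert5
import Vale.Agent.Lib.P329.Class4

/-!
All scattered subword counts of length five modulo a prime `p ≥ 5` have generalized star height at
most one, and therefore so have the languages recognized by a finite group of nilpotency class at
most five, whose fourth term of the lower central series has odd squarefree exponent and whose fifth
term has squarefree exponent prime to six.
-/

namespace Vale.Agent.Lib.P329

section Words

variable {β : Type} [DecidableEq β]

/-- Numbering of the letters of a word of length five by their first occurrence. -/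
def rho5 (a b c d e y : β) : Fin 6 :=
  if y = a then 0 else if y = b then 1 else if y = c then 2 else if y = d then 3
  else if y = e then 4 else 5

theorem rho5_inj (a b c d e x y : β) (hx : x ∈ [a, b, c, d, e])
    (h : rho5 a b c d e x = rho5 a b c d e y) : x = y := by
  simp only [List.mem_cons, List.not_mem_nil, or_false] at hx
  unfold rho5 at h
  split_ifs at h <;> first
    | (subst_vars; rfl)
    | (exact absurd h (by decide))
    | simp_all

theorem table5_words : ∀ b' ∈ ([0, 1] : List (Fin 6)), ∀ c' ∈ ([0, 1, 2] : List (Fin 6)),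
    ∀ d' ∈ ([0, 1, 2, 3] : List (Fin 6)), ∀ e' ∈ ([0, 1, 2, 3, 4] : List (Fin 6)),
    (c' = 1 → b' = 1) → (d' = 1 → b' = 1) → (d' = 2 → c' = 2) →
    (e' = 1 → b' = 1) → (e' = 2 → c' = 2) → (e' = 3 → d' = 3) →
    ∃ t ∈ certTable5, t.2.1 = [0, b', c', d', e'] := by
  decide +kernel

theorem table_k5 : ∀ t ∈ certTable5, t.1 = 1 ∨ t.1 = 2 := by
  decide +kernel

theorem rho5_one (a b c d e y : β) (h : rho5 a b c d e y = 1) : rho5 a b c d e b = 1 := by
  unfold rho5 at h
  split_ifs at h with h1 h2
  · exact absurd h (by decide)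
  · subst h2
    simp [rho5, h1]
  all_goals exact absurd h (by decide)

theorem rho5_two (a b c d e y : β) (h : rho5 a b c d e y = 2) : rho5 a b c d e c = 2 := by
  unfold rho5 at h
  split_ifs at h with h1 h2 h3
  · exact absurd h (by decide)
  · exact absurd h (by decide)
  · subst h3
    simp [rho5, h1, h2]
  all_goals exact absurd h (by decide)

theorem rho5_three (a b c d e y : β) (h : rho5 a b c d e y = 3) : rho5 a b c d e d = 3 := by
  unfold rho5 at h
  split_ifs at h with h1 h2 h3 h4
  · exact absurd h (by decide)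
  · exact absurd h (by decide)
  · exact absurd h (by decide)
  · subst h4
    simp [rho5, h1, h2, h3]
  all_goals exact absurd h (by decide)

/-- The images of words of length five are in the table. -/
theorem rho5_table (a b c d e : β) : ∃ t ∈ certTable5,
    t.2.1 = [rho5 a b c d e a, rho5 a b c d e b, rho5 a b c d e c, rho5 a b c d e d,
      rho5 a b c d e e] := by
  have ha : rho5 a b c d e a = 0 := by simp [rho5]
  have hb : rho5 a b c d e b ∈ ([0, 1] : List (Fin 6)) := by
    unfold rho5
    split_ifs <;> first | (exfalso; simp_all; done) | simp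
  have hc : rho5 a b c d e c ∈ ([0, 1, 2] : List (Fin 6)) := by
    unfold rho5
    split_ifs <;> first | (exfalso; simp_all; done) | simp
  have hd : rho5 a b c d e d ∈ ([0, 1, 2, 3] : List (Fin 6)) := by
    unfold rho5
    split_ifs <;> first | (exfalso; simp_all; done) | simp
  have he : rho5 a b c d e e ∈ ([0, 1, 2, 3, 4] : List (Fin 6)) := by
    unfold rho5
    split_ifs <;> first | (exfalso; simp_all; done) | simp
  rw [ha]
  exact table5_words _ hb _ hc _ hd _ he (rho5_one _ _ _ _ _ _) (rho5_one _ _ _ _ _ _)
    (rho5_two _ _ _ _ _ _) (rho5_one _ _ _ _ _ _) (rho5_two _ _ _ _ _ _) (rho5_three _ _ _ _ _ _)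

variable [Finite β] {p : ℕ} [hp : Fact p.Prime]

/-- Counts of words of length at most four modulo an odd prime. -/
theorem cnz_short (hp2 : p ≠ 2) (z : List β) (hz : z.length ≤ 4) :
    CNZ (fun w : List β => (((subCount z w : ℕ) : ℤ) : ZMod p)) := by
  by_cases h3 : z.length ≤ 3
  · exact cnt_subCount z h3 p hp.out.pos
  · match z, hz with
    | [a, b, c, d], _ => exact cnz_word_four hp2 a b c d
    | [], _ => simp at h3
    | [_], _ => simp at h3
    | [_, _], _ => simp at h3
    | [_, _, _], _ => simp at h3
    | _ :: _ :: _ :: _ :: _ :: _, h => simp at h; omega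

omit [Finite β] in
theorem cast24_ne (h5 : 5 ≤ p) : (24 : ZMod p) ≠ 0 := by
  intro h0
  have h1 : ((24 : ℕ) : ZMod p) = 0 := by exact_mod_cast h0
  have h2 := (ZMod.natCast_eq_zero_iff 24 p).1 h1
  have h3 : (24 : ℕ) = 2 ^ 3 * 3 := by norm_num
  rw [h3] at h2
  rcases (Nat.Prime.dvd_mul hp.out).1 h2 with h | h
  · have := (Nat.prime_dvd_prime_iff_eq hp.out Nat.prime_two).1 (hp.out.dvd_of_dvd_pow h)
    omega
  · have := (Nat.prime_dvd_prime_iff_eq hp.out Nat.prime_three).1 h
    omega

omit [Finite β] in
theorem cast_k5 (h5 : 5 ≤ p) (t : ℤ × List (Fin 6) × List (ℤ × Code5 (Fin 6))) (ht : t ∈ certTable5) :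
    ((t.1 : ℤ) : ZMod p) ≠ 0 := by
  rcases table_k5 t ht with h | h
  · rw [h]; simp
  · rw [h]
    have h2 : ((2 : ℕ) : ZMod p) ≠ 0 := by
      intro h0
      have := (ZMod.natCast_eq_zero_iff 2 p).1 h0
      have h3 := (Nat.prime_dvd_prime_iff_eq hp.out Nat.prime_two).1 this
      omega
    simpa using h2

/-- Counts of the words of length at most five over `Fin 6`, by induction on the number of distinct
letters. -/
theorem cnz_fin6 (h5 : 5 ≤ p) : ∀ (b : ℕ) (z : List (Fin 6)), z.length ≤ 5 → dcount z < b →
    CNZ (fun w : List (Fin 6) => (((subCount z w : ℕ) : ℤ) : ZMod p)) := by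
  have hp2 : p ≠ 2 := by omega
  intro b
  induction b with
  | zero => intro z _ h; omega
  | succ b ih =>
    intro z hz hb
    by_cases h4 : z.length ≤ 4
    · exact cnz_short hp2 z h4
    · match z, hz with
      | [] , _ => simp at h4
      | [_], _ => simp at h4
      | [_, _], _ => simp at h4
      | [_, _, _], _ => simp at h4
      | [_, _, _, _], _ => simp at h4
      | _ :: _ :: _ :: _ :: _ :: _ :: _, h => simp at h; omega
      | [a, b', c, d, e], _ =>
        obtain ⟨t, ht, hv⟩ := rho5_table a b' c d e
        have hmap := fun x (hx : x ∈ [a, b', c, d, e]) y hxy => rho5_inj a b' c d e x y hx hxy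
        have hdc : dcount t.2.1 = dcount [a, b', c, d, e] := by
          rw [hv]
          have := dcount_map (rho5 a b' c d e) [a, b', c, d, e] hmap
          simpa only [List.map_cons, List.map_nil] using this
        have hk := cast_k5 h5 t ht
        have hsound := cert_sound5 (p := p) (cast24_ne h5) h5 Fin.val (fun x => x.2) Fin.val_injective
          (certTable5_ok t ht) hk
          (fun y hy => by
            simp only [isKnown, Bool.or_eq_true, Bool.and_eq_true, decide_eq_true_eq] at hy
            rcases hy with hy | hy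
            · exact cnz_short hp2 y hy
            · exact ih y hy.1 (by omega))
          (fun y hy => cnz_short hp2 y hy)
        have h1 := hsound.comap (rho5 a b' c d e)
        refine h1.congr (fun w => ?_)
        have h2 := subCount_map (rho5 a b' c d e) [a, b', c, d, e] w hmap
        simp only [List.map_cons, List.map_nil] at h2
        rw [hv, h2]

/-- Counts of words of length five modulo a prime `p ≥ 5`. -/
theorem cnz_word_five (h5 : 5 ≤ p) (a b c d e : β) :
    CNZ (fun w : List β => (((subCount [a, b, c, d, e] w : ℕ) : ℤ) : ZMod p)) := by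
  obtain ⟨t, ht, hv⟩ := rho5_table a b c d e
  have hmap := fun x (hx : x ∈ [a, b, c, d, e]) y hxy => rho5_inj a b c d e x y hx hxy
  have hz : t.2.1.length ≤ 5 := by rw [hv]; simp
  have h1 := (cnz_fin6 (p := p) h5 _ t.2.1 hz (Nat.lt_succ_self _)).comap (rho5 a b c d e)
  refine h1.congr (fun w => ?_)
  have h2 := subCount_map (rho5 a b c d e) [a, b, c, d, e] w hmap
  simp only [List.map_cons, List.map_nil] at h2
  rw [hv, h2]

end Words

section Main

variable {α G : Type} [Finite α] [Group G] [Finite G]

/-- **Class five.** -/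
theorem gsh_of_class5 (hc : (⊤ : Subgroup G).lowerCentralSeries 5 = ⊥)
    (m : ℕ) (hm : Squarefree m) (hodd : Odd m)
    (hexp : ∀ x ∈ (⊤ : Subgroup G).lowerCentralSeries 3, x ^ m = 1)
    (m' : ℕ) (hm' : Squarefree m') (hcop : Nat.Coprime m' 6)
    (hexp' : ∀ x ∈ (⊤ : Subgroup G).lowerCentralSeries 4, x ^ m' = 1)
    (g : α → G) (T : Set G) : GSH 1 {w : List α | (w.map g).prod ∈ T} := by
  classical
  cases nonempty_fintype α
  have hN : 0 < Nat.card G := Nat.card_pos
  -- the index set
  let ι₁ := {u : List α // u.length ≤ 3}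
  have hι₁ : Finite ι₁ := (List.finite_length_le α 3).to_subtype
  have hι₂' : Finite {u : List α // u.length = 4} := (List.finite_length_eq α 4).to_subtype
  have hι₃' : Finite {u : List α // u.length = 5} := (List.finite_length_eq α 5).to_subtype
  let ι₂ := {u : List α // u.length = 4} × {q : ℕ // q ∈ m.primeFactors}
  let ι₃ := {u : List α // u.length = 5} × {q : ℕ // q ∈ m'.primeFactors}
  let N : ι₁ ⊕ ι₂ ⊕ ι₃ → ℕ := fun i => match i with
    | Sum.inl _ => Nat.card G
    | Sum.inr (Sum.inl x) => x.2.1
    | Sum.inr (Sum.inr x) => x.2.1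
  have hNZ : ∀ i, NeZero (N i) := by
    rintro (u | x | x)
    · exact ⟨hN.ne'⟩
    · exact ⟨(Nat.prime_of_mem_primeFactors x.2.2).ne_zero⟩
    · exact ⟨(Nat.prime_of_mem_primeFactors x.2.2).ne_zero⟩
  let f : ι₁ ⊕ ι₂ ⊕ ι₃ → List α → ℤ := fun i w => match i with
    | Sum.inl u => (subCount u.1 w : ℤ)
    | Sum.inr (Sum.inl x) => (subCount x.1.1 w : ℤ)
    | Sum.inr (Sum.inr x) => (subCount x.1.1 w : ℤ)
  have hf : ∀ i, CNTat (N i) (f i) := by
    rintro (u | x | x)
    · exact cnt_subCount u.1 u.2 _ hN
    · obtain ⟨⟨u, hu⟩, ⟨q, hq⟩⟩ := x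
      have hqp : q.Prime := Nat.prime_of_mem_primeFactors hq
      have : Fact q.Prime := ⟨hqp⟩
      have hq2 : q ≠ 2 := by
        rintro rfl
        have h2 : 2 ∣ m := Nat.dvd_of_mem_primeFactors hq
        obtain ⟨t, ht⟩ := hodd
        omega
      match u, hu with
      | [a, b, c, d], _ => exact cnz_word_four hq2 a b c d
    · obtain ⟨⟨u, hu⟩, ⟨q, hq⟩⟩ := x
      have hqp : q.Prime := Nat.prime_of_mem_primeFactors hq
      have : Fact q.Prime := ⟨hqp⟩
      have hdvd : q ∣ m' := Nat.dvd_of_mem_primeFactors hq
      have hq2 : q ≠ 2 := by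
        rintro rfl
        have h2 : (2 : ℕ) ∣ Nat.gcd m' 6 := Nat.dvd_gcd hdvd (by norm_num)
        rw [hcop] at h2
        omega
      have hq3 : q ≠ 3 := by
        rintro rfl
        have h2 : (3 : ℕ) ∣ Nat.gcd m' 6 := Nat.dvd_gcd hdvd (by norm_num)
        rw [hcop] at h2
        omega
      have hq5 : 5 ≤ q := by
        have := hqp.two_le
        by_contra hlt
        have : q = 4 := by omega
        subst this
        norm_num at hqp
      match u, hu with
      | [a, b, c, d, e], _ => exact cnz_word_five hq5 a b c d e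
  refine gsh_of_determined N f hf _ (fun w w' hww' hw => ?_)
  have hprod : (w.map g).prod = (w'.map g).prod := by
    refine prod_eq_of_subCount_modEq_lcs 5 hc g
      (fun l => if l ≤ 3 then Nat.card G else if l = 4 then m else m') ?_ w w' ?_
    · intro l j hl x hx
      by_cases h3 : l ≤ 3
      · simp only [h3, if_true]
        exact pow_card_eq_one'
      · by_cases h4 : l = 4
        · simp only [h3, h4, if_true]
          exact hexp x (Subgroup.lowerCentralSeries_antitone _ (by omega) hx)
        · simp only [h3, h4, if_false]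
          exact hexp' x (Subgroup.lowerCentralSeries_antitone _ (by omega) hx)
    · intro u hu
      by_cases h3 : u.length ≤ 3
      · simp only [h3, if_true]
        have := hww' (Sum.inl ⟨u, h3⟩)
        simp only [f, N] at this
        exact (ZMod.natCast_eq_natCast_iff _ _ _).1 (by exact_mod_cast this)
      · by_cases h4 : u.length = 4
        · simp only [h3, h4, if_true]
          refine modEq_of_squarefree hm (fun q hq => ?_)
          have := hww' (Sum.inr (Sum.inl ⟨⟨u, h4⟩, ⟨q, hq⟩⟩))
          simp only [f, N] at this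
          exact (ZMod.natCast_eq_natCast_iff _ _ _).1 (by exact_mod_cast this)
        · simp only [h3, h4, if_false]
          have h5' : u.length = 5 := by omega
          refine modEq_of_squarefree hm' (fun q hq => ?_)
          have := hww' (Sum.inr (Sum.inr ⟨⟨u, h5'⟩, ⟨q, hq⟩⟩))
          simp only [f, N] at this
          exact (ZMod.natCast_eq_natCast_iff _ _ _).1 (by exact_mod_cast this)
  show (w'.map g).prod ∈ T
  rw [← hprod]
  exact hw

end Main

end Vale.Agent.Lib.P329
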