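import Vale.Agent.Lib.P329.PolyCert

/-!
Codes for the statistics of scattered subword counts modulo a prime that are already known to have
generalized star height at most one, and the soundness of certificates made of them.
-/

namespace Vale.Agent.Lib.P329

variable {α : Type} [DecidableEq α]

/-- A code for a known combination of scattered subword counts. -/
inductive Code (α : Type) where
  | W (u : List α)
  | PP (u v : List α)
  | F (c : α) (S : List α)
  | Fa (c x : α) (S : List α)
  | Fb (c x : α) (S : List α)

/-- The combination encoded. -/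
def Code.poly : Code α → Pol α
  | .W u => [(1, u)]
  | .PP u v => infil u v
  | .F c S => prep c (powS S 3)
  | .Fa c x S => prep c (prep x (powS S 2))
  | .Fb c x S => prep c (pmul (powS S 1) (prep x (powS S 1)))

/-- The conditions under which the combination is known. -/
def Code.valid : Code α → Bool
  | .W u => decide (u.length ≤ 3)
  | .PP u v => decide (u.length ≤ 3) && decide (v.length ≤ 3)
  | .F _ S => decide S.Nodup
  | .Fa c x S => decide S.Nodup && decide (c ∉ S) && decide (x ∈ S)
  | .Fb c x S => decide S.Nodup && decide (c ∉ S) && decide (x ∈ S)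

theorem cast_posSum {p : ℕ} (c : α) (f : List α → ℤ) (w : List α) :
    ((posSum c f w : ℤ) : ZMod p) = posSum c (fun w => ((f w : ℤ) : ZMod p)) w := by
  induction w with
  | nil => simp [posSum]
  | cons a w ih =>
    simp only [posSum]
    push_cast
    rw [ih]

section Known

variable {p : ℕ} [hp : Fact p.Prime] [Finite α]

theorem known_word (u : List α) (hu : u.length ≤ 3) :
    CNZ (fun w : List α => (((subCount u w : ℕ) : ℤ) : ZMod p)) :=
  cnt_subCount u hu p hp.out.pos

omit [Finite α] in
theorem cast_evalP_powS (S : List α) (hS : S.Nodup) (j : ℕ) (w : List α) :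
    ((evalP (powS S j) w : ℤ) : ZMod p) = (((nS (· ∈ S) w).choose j : ℕ) : ZMod p) := by
  rw [evalP_powS S hS]
  push_cast
  rfl

theorem known_code (C : Code α) (hv : C.valid = true) :
    CNZ (fun w : List α => ((evalP C.poly w : ℤ) : ZMod p)) := by
  have : NeZero p := ⟨hp.out.ne_zero⟩
  cases C with
  | W u =>
    have hu : u.length ≤ 3 := by simpa [Code.valid] using hv
    refine (known_word (p := p) u hu).congr (fun w => ?_)
    simp [Code.poly]
  | PP u v =>
    have hu : u.length ≤ 3 ∧ v.length ≤ 3 := by simpa [Code.valid] using hv
    refine ((known_word (p := p) u hu.1).mul (known_word (p := p) v hu.2)).congr (fun w => ?_)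
    simp [Code.poly, evalP_infil]
  | F c S =>
    have hS : S.Nodup := by simpa [Code.valid] using hv
    have key : ∀ w : List α, ((evalP (prep c (powS S 3)) w : ℤ) : ZMod p) =
        posSum c (fun w : List α => ((nS (· ∈ S) w).choose 3 : ZMod p)) w := by
      intro w
      rw [evalP_prep, cast_posSum]
      exact posSum_congr c (fun w' => cast_evalP_powS S hS 3 w') w
    by_cases hc : c ∈ S
    · exact (stat_F2 (S := (· ∈ S)) c hc 3 le_rfl).congr (fun w => (key w).symm)
    · exact (stat_F1 (S := (· ∈ S)) c hc 3 le_rfl).congr (fun w => (key w).symm)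
  | Fa c x S =>
    have hS : S.Nodup ∧ c ∉ S ∧ x ∈ S := by simpa [Code.valid, and_assoc] using hv
    obtain ⟨hS, hc, hx⟩ := hS
    refine (stat_F3 (p := p) (S := (· ∈ S)) c hc x hx 0 2 (by omega) (by omega)).congr (fun w => ?_)
    show _ = ((evalP (prep c (prep x (powS S 2))) w : ℤ) : ZMod p)
    rw [evalP_prep, cast_posSum]
    refine posSum_congr c (fun w' => ?_) w
    rw [evalP_prep, cast_posSum]
    simp only [Nat.choose_zero_right, Nat.cast_one, one_mul]
    exact posSum_congr x (fun w'' => (cast_evalP_powS S hS 2 w'').symm) w'
  | Fb c x S =>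
    have hS : S.Nodup ∧ c ∉ S ∧ x ∈ S := by simpa [Code.valid, and_assoc] using hv
    obtain ⟨hS, hc, hx⟩ := hS
    refine (stat_F3 (p := p) (S := (· ∈ S)) c hc x hx 1 1 (by omega) (by omega)).congr (fun w => ?_)
    show _ = ((evalP (prep c (pmul (powS S 1) (prep x (powS S 1)))) w : ℤ) : ZMod p)
    rw [evalP_prep, cast_posSum]
    refine posSum_congr c (fun w' => ?_) w
    rw [evalP_pmul, evalP_prep]
    push_cast
    rw [cast_posSum, cast_evalP_powS S hS 1]
    congr 1
    exact posSum_congr x (fun w'' => (cast_evalP_powS S hS 1 w'').symm) w'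

/-- The polynomial of a list of scaled codes. -/
def certPoly (terms : List (ℤ × Code α)) : Pol α :=
  terms.flatMap fun t => scaleP t.1 t.2.poly

/-- The check of a certificate: `k` times the word `v` is the given combination of known statistics. -/
def checkCert (k : ℤ) (v : List α) (terms : List (ℤ × Code α)) : Bool :=
  terms.all (fun t => t.2.valid) && cancel 4096 ((-k, v) :: certPoly terms)

theorem known_certPoly (terms : List (ℤ × Code α)) (h : terms.all (fun t => t.2.valid) = true) :
    CNZ (fun w : List α => ((evalP (certPoly terms) w : ℤ) : ZMod p)) := by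
  have : NeZero p := ⟨hp.out.ne_zero⟩
  induction terms with
  | nil => exact (CNZ.const (0 : ZMod p)).congr (fun w => by simp [certPoly])
  | cons t terms ih =>
    simp only [List.all_cons, Bool.and_eq_true] at h
    refine ((CNZ.const ((t.1 : ℤ) : ZMod p)).mul (known_code t.2 h.1) |>.add (ih h.2)).congr
      (fun w => ?_)
    simp only [certPoly, List.flatMap_cons, evalP_append, evalP_scale]
    push_cast
    rfl

/-- **Soundness of certificates.** -/
theorem cert_sound {k : ℤ} {v : List α} {terms : List (ℤ × Code α)}
    (h : checkCert k v terms = true) (hk : ((k : ℤ) : ZMod p) ≠ 0) :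
    CNZ (fun w : List α => (((subCount v w : ℕ) : ℤ) : ZMod p)) := by
  have : NeZero p := ⟨hp.out.ne_zero⟩
  simp only [checkCert, Bool.and_eq_true] at h
  have h1 := known_certPoly (p := p) terms h.1
  refine (h1.map (fun x => ((k : ℤ) : ZMod p)⁻¹ * x)).congr (fun w => ?_)
  have h2 := evalP_zero_of_cancel _ _ h.2 w
  rw [evalP_cons] at h2
  have h3 : evalP (certPoly terms) w = k * (subCount v w : ℤ) := by linarith
  rw [h3]
  push_cast
  rw [inv_mul_cancel_left₀ hk]

end Known

/-! ### Change of alphabet -/

omit [DecidableEq α] in
theorem CNZ.comap {β R : Type} [Finite β] (ρ : β → α) {f : List α → R} (hf : CNZ f) :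
    CNZ (fun w : List β => f (w.map ρ)) :=
  fun r => (hf r).comap ρ

theorem subCount_map {β : Type} [DecidableEq β] (ρ : β → α) (u w : List β)
    (hu : ∀ a ∈ u, ∀ b, ρ a = ρ b → a = b) :
    subCount (u.map ρ) (w.map ρ) = subCount u w := by
  induction w generalizing u with
  | nil =>
    cases u with
    | nil => simp
    | cons a u => rfl
  | cons x w ih =>
    cases u with
    | nil => simp
    | cons a u =>
      simp only [List.map_cons]
      rw [subCount_cons_cons, subCount_cons_cons]
      have h1 := ih (a :: u) hu
      simp only [List.map_cons] at h1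
      rw [h1]
      by_cases hax : a = x
      · subst hax
        simp only [if_true]
        rw [ih u (fun c hc b => hu c (List.mem_cons_of_mem _ hc) b)]
      · have : ¬ ρ a = ρ x := fun e => hax (hu a (by simp) x e)
        simp only [hax, this, if_false]

end Vale.Agent.Lib.P329
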