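import Vale.Agent.Lib.P329.PolyCert

/-!
A cancellation test for formal combinations of words by big integer arithmetic: every word gets a
number, and a combination with small coefficients vanishes as soon as the sum of its coefficients
times a power of a large base vanishes.
-/

namespace Vale.Agent.Lib.P329

variable {α : Type}

/-- The key of a word, in bijective numeration. -/
def wkey (enc : α → ℕ) : List α → ℕ
  | [] => 0
  | a :: z => enc a + 1 + 7 * wkey enc z

theorem wkey_inj (enc : α → ℕ) (h6 : ∀ a, enc a < 6) (hi : Function.Injective enc) :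
    Function.Injective (wkey enc) := by
  intro u
  induction u with
  | nil =>
    intro v h
    cases v with
    | nil => rfl
    | cons b v =>
      simp only [wkey] at h
      omega
  | cons a u ih =>
    intro v h
    cases v with
    | nil =>
      simp only [wkey] at h
      omega
    | cons b v =>
      simp only [wkey] at h
      have ha := h6 a
      have hb := h6 b
      have h1 : enc a = enc b := by omega
      have h2 : wkey enc u = wkey enc v := by omega
      rw [hi h1, ih h2]

/-- The sum of the absolute values of the coefficients. -/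
def fpBound : List (ℤ × List α) → ℕ
  | [] => 0
  | t :: P => t.1.natAbs + fpBound P

/-- The big integer of a combination. -/
def fpSum (enc : α → ℕ) (B : ℕ) : List (ℤ × List α) → ℤ
  | [] => 0
  | t :: P => t.1 * ((B ^ wkey enc t.2 : ℕ) : ℤ) + fpSum enc B P

/-- Signed digits in a large base are unique. -/
theorem digits_zero (B : ℕ) (hB : 0 < B) : ∀ (K : ℕ) (d : ℕ → ℤ), (∀ n, (d n).natAbs < B) →
    (∑ n ∈ Finset.range K, d n * (B : ℤ) ^ n) = 0 → ∀ n < K, d n = 0 := by
  intro K
  induction K with
  | zero => intro d _ _ n hn; omega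
  | succ K ih =>
    intro d hd h n hn
    rw [Finset.sum_range_succ'] at h
    have h1 : (∑ k ∈ Finset.range K, d (k + 1) * (B : ℤ) ^ (k + 1)) =
        (B : ℤ) * ∑ k ∈ Finset.range K, d (k + 1) * (B : ℤ) ^ k := by
      rw [Finset.mul_sum]
      refine Finset.sum_congr rfl (fun k _ => ?_)
      ring
    rw [h1] at h
    simp only [pow_zero, mul_one] at h
    have h2 : (B : ℤ) ∣ d 0 := ⟨-∑ k ∈ Finset.range K, d (k + 1) * (B : ℤ) ^ k, by linarith⟩
    have h3 : d 0 = 0 := by
      refine Int.eq_zero_of_abs_lt_dvd h2 ?_
      have := hd 0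
      rw [Int.abs_eq_natAbs]
      exact_mod_cast this
    rw [h3, add_zero] at h
    have hB' : (B : ℤ) ≠ 0 := by exact_mod_cast hB.ne'
    have h4 := (mul_eq_zero.1 h).resolve_left hB'
    cases n with
    | zero => exact h3
    | succ n => exact ih (fun m => d (m + 1)) (fun m => hd (m + 1)) h4 n (by omega)

/-- The digit at a position. -/
def fpDigit (κ : List α → ℕ) (P : List (ℤ × List α)) (n : ℕ) : ℤ :=
  (P.map fun t => if κ t.2 = n then t.1 else 0).sum

theorem fpDigit_natAbs (κ : List α → ℕ) (P : List (ℤ × List α)) (n : ℕ) :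
    (fpDigit κ P n).natAbs ≤ fpBound P := by
  induction P with
  | nil => simp [fpDigit, fpBound]
  | cons t P ih =>
    have e : fpDigit κ (t :: P) n = (if κ t.2 = n then t.1 else 0) + fpDigit κ P n := rfl
    rw [e]
    simp only [fpBound]
    refine (Int.natAbs_add_le _ _).trans ?_
    have h1 : (if κ t.2 = n then t.1 else 0).natAbs ≤ t.1.natAbs := by
      split_ifs <;> simp
    omega

theorem fpDigit_sum (κ : List α → ℕ) (x : ℕ → ℤ) (K : ℕ) (P : List (ℤ × List α))
    (hK : ∀ t ∈ P, κ t.2 < K) :
    (∑ n ∈ Finset.range K, fpDigit κ P n * x n) = (P.map fun t => t.1 * x (κ t.2)).sum := by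
  induction P with
  | nil => simp [fpDigit]
  | cons t P ih =>
    have e : ∀ n, fpDigit κ (t :: P) n = (if κ t.2 = n then t.1 else 0) + fpDigit κ P n :=
      fun n => rfl
    simp only [e, add_mul, Finset.sum_add_distrib, List.map_cons, List.sum_cons]
    rw [ih (fun s hs => hK s (List.mem_cons_of_mem _ hs))]
    congr 1
    have hin : κ t.2 ∈ Finset.range K := Finset.mem_range.2 (hK t (by simp))
    simp only [ite_mul, zero_mul, Finset.sum_ite_eq, hin, if_true]

theorem fpSum_eq (enc : α → ℕ) (B : ℕ) (P : List (ℤ × List α)) :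
    fpSum enc B P = (P.map fun t => t.1 * (B : ℤ) ^ wkey enc t.2).sum := by
  induction P with
  | nil => rfl
  | cons t P ih =>
    simp only [fpSum, List.map_cons, List.sum_cons, ih]
    push_cast
    rfl

/-- **The test is sound.** -/
theorem fp_sound (enc : α → ℕ) (h6 : ∀ a, enc a < 6) (hi : Function.Injective enc) (B : ℕ)
    (P : List (ℤ × List α)) (hb : fpBound P < B) (h0 : fpSum enc B P = 0) (f : List α → ℤ) :
    (P.map fun t => t.1 * f t.2).sum = 0 := by
  have hB : 0 < B := by omega
  set κ := wkey enc with hκ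
  have hinj : Function.Injective κ := wkey_inj enc h6 hi
  obtain ⟨K, hK⟩ : ∃ K, ∀ t ∈ P, κ t.2 < K := by
    clear h0 hb
    induction P with
    | nil => exact ⟨0, by simp⟩
    | cons t P ih =>
      obtain ⟨K, hK⟩ := ih
      refine ⟨K + κ t.2 + 1, fun s hs => ?_⟩
      rcases List.mem_cons.1 hs with rfl | hs
      · omega
      · have := hK s hs
        omega
  have hd : ∀ n, (fpDigit κ P n).natAbs < B := fun n =>
    lt_of_le_of_lt (fpDigit_natAbs κ P n) hb
  have h1 : (∑ n ∈ Finset.range K, fpDigit κ P n * (B : ℤ) ^ n) = 0 := by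
    rw [fpDigit_sum κ (fun n => (B : ℤ) ^ n) K P hK, ← fpSum_eq, h0]
  have h2 := digits_zero B hB K _ hd h1
  -- a left inverse of the key
  have hne : Nonempty (List α) := ⟨[]⟩
  let g : ℕ → ℤ := fun n => f (Function.invFun κ n)
  have hg : ∀ z, g (κ z) = f z := fun z => by
    show f (Function.invFun κ (κ z)) = f z
    rw [Function.leftInverse_invFun hinj z]
  have h3 := fpDigit_sum κ g K P hK
  simp only [hg] at h3
  rw [← h3]
  exact Finset.sum_eq_zero (fun n hn => by rw [h2 n (Finset.mem_range.1 hn), zero_mul])

end Vale.Agent.Lib.P329
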