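import Vale.Agent.Lib.P329.Stat5
import Vale.Agent.Lib.P329.Class4
import Vale.Agent.Lib.P329.Finger

/-!
Codes for the statistics used for the scattered subword counts of length five modulo a prime `p ≥ 5`,
and the soundness of certificates made of them.  A certificate may use freely the words of length at
most four and the words with fewer distinct letters.
-/

namespace Vale.Agent.Lib.P329

variable {α : Type} [DecidableEq α]

/-! ### Reading one more letter -/

/-- The tails of the words starting with a given letter. -/
def tailIf (a : α) : Pol α → Pol α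
  | [] => []
  | (_, []) :: P => tailIf a P
  | (k, b :: z) :: P => if a = b then (k, z) :: tailIf a P else tailIf a P

/-- The combination whose value on `w` is the value of `P` on `a :: w`. -/
def shiftP (a : α) (P : Pol α) : Pol α := P ++ tailIf a P

theorem evalP_shiftP (a : α) (P : Pol α) (w : List α) :
    evalP (shiftP a P) w = evalP P (a :: w) := by
  unfold shiftP
  rw [evalP_append]
  induction P with
  | nil => simp [tailIf]
  | cons t P ih =>
    obtain ⟨k, z⟩ := t
    cases z with
    | nil =>
      simp only [tailIf, evalP_cons, subCount_nil_left]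
      rw [← ih]
      ring
    | cons b z =>
      simp only [tailIf, evalP_cons]
      rw [subCount_cons_cons]
      by_cases h : a = b
      · subst h
        simp only [if_true, evalP_cons]
        push_cast
        rw [← ih]
        ring
      · have h' : ¬ b = a := fun e => h e.symm
        simp only [h, h', if_false]
        push_cast
        rw [← ih]
        ring

/-! ### Merging two letters -/

/-- All the words that become `z` when the letter `j` is replaced by `i`. -/
def preim (i j : α) : List α → Pol α
  | [] => [(1, [])]
  | a :: z => if a = i then prep i (preim i j z) ++ prep j (preim i j z) else prep a (preim i j z)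

/-- The replacement of `j` by `i`. -/
def mergeMap (i j x : α) : α := if x = j then i else x

theorem evalP_preim (i j : α) (hij : i ≠ j) (z : List α) (hz : j ∉ z) (w : List α) :
    evalP (preim i j z) w = (subCount z (w.map (mergeMap i j)) : ℤ) := by
  induction w generalizing z with
  | nil =>
    cases z with
    | nil => simp [preim]
    | cons a z =>
      simp only [preim, List.map_nil, subCount_cons_nil]
      split_ifs <;> simp [evalP_append, evalP_prep_nil]
  | cons x w ih =>
    cases z with
    | nil => simp [preim]
    | cons a z =>
      have hz' : j ∉ z := fun h => hz (List.mem_cons_of_mem _ h)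
      have haj : a ≠ j := fun h => hz (by simp [h])
      have e0 := ih (a :: z) hz
      have e1 := ih z hz'
      simp only [List.map_cons]
      rw [subCount_cons_cons]
      by_cases ha : a = i
      · subst ha
        simp only [preim, if_true] at e0 ⊢
        rw [evalP_append] at e0 ⊢
        rw [evalP_prep_cons, evalP_prep_cons, e1]
        push_cast
        by_cases hxa : x = a
        · subst hxa
          have h2 : mergeMap x j x = x := by simp [mergeMap, hij]
          simp only [h2, if_true]
          have h3 : ¬ x = j := hij
          simp only [h3, if_false]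
          linear_combination e0
        · by_cases hxj : x = j
          · subst hxj
            have h2 : mergeMap a x x = a := by simp [mergeMap]
            simp only [h2, if_true, hxa, if_false]
            linear_combination e0
          · have h2 : mergeMap a j x = x := by simp [mergeMap, hxj]
            have h3 : ¬ a = x := fun e => hxa e.symm
            simp only [h2, hxa, hxj, h3, if_false]
            linear_combination e0
      · simp only [preim, ha, if_false] at e0 ⊢
        rw [evalP_prep_cons, e1]
        push_cast
        by_cases hxj : x = j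
        · subst hxj
          have h2 : mergeMap i x x = i := by simp [mergeMap]
          have h3 : ¬ x = a := fun e => haj e.symm
          simp only [h2, ha, h3, if_false]
          linear_combination e0
        · have h2 : mergeMap i j x = x := by simp [mergeMap, hxj]
          simp only [h2]
          by_cases hxa : x = a
          · subst hxa
            simp only [if_true]
            linear_combination e0
          · have h3 : ¬ a = x := fun e => hxa e.symm
            simp only [hxa, h3, if_false]
            linear_combination e0

/-! ### Distinct letters -/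

/-- The list of distinct letters of a word. -/
def distinctL : List α → List α
  | [] => []
  | a :: z => if a ∈ distinctL z then distinctL z else a :: distinctL z

/-- The number of distinct letters of a word. -/
def dcount (z : List α) : ℕ := (distinctL z).length

theorem mem_distinctL (z : List α) : ∀ x : α, x ∈ distinctL z ↔ x ∈ z := by
  induction z with
  | nil => simp [distinctL]
  | cons a z ih =>
    intro x
    simp only [distinctL]
    split_ifs with h
    · rw [ih] at h ⊢
      simp only [List.mem_cons]
      constructor
      · exact fun h' => Or.inr h'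
      · rintro (rfl | h')
        · exact h
        · exact h'
    · simp [ih]

theorem distinctL_map {β : Type} [DecidableEq β] (ρ : β → α) (z : List β)
    (h : ∀ x ∈ z, ∀ y, ρ x = ρ y → x = y) : distinctL (z.map ρ) = (distinctL z).map ρ := by
  induction z with
  | nil => rfl
  | cons a z ih =>
    have h' : ∀ x ∈ z, ∀ y, ρ x = ρ y → x = y := fun x hx => h x (List.mem_cons_of_mem _ hx)
    simp only [List.map_cons, distinctL, ih h']
    by_cases ha : a ∈ distinctL z
    · have : ρ a ∈ (distinctL z).map ρ := List.mem_map_of_mem ha
      simp only [ha, this, if_true]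
    · have : ρ a ∉ (distinctL z).map ρ := by
        intro hm
        obtain ⟨y, hy, hya⟩ := List.mem_map.1 hm
        have := h a (by simp) y hya.symm
        subst this
        exact ha hy
      simp only [ha, this, if_false, List.map_cons]

theorem dcount_map {β : Type} [DecidableEq β] (ρ : β → α) (z : List β)
    (h : ∀ x ∈ z, ∀ y, ρ x = ρ y → x = y) : dcount (z.map ρ) = dcount z := by
  unfold dcount
  rw [distinctL_map ρ z h, List.length_map]

/-! ### Codes -/

/-- A code for a statistic. -/
inductive Code5 (α : Type) where
  | PP (u v : List α)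
  | Mrg (i j : α) (z : List α)
  | Ar (S : List α) (i : ℕ) (ms : List (α × ℕ))
  | Nt (c : α) (S : List α) (i : ℕ) (ms : List (α × ℕ))

/-- The product of digits. -/
def prodK (S : List α) : List (α × ℕ) → Pol α
  | [] => [(1, [])]
  | m :: ms => pmul (prep m.1 (powS S m.2)) (prodK S ms)

/-- A binomial coefficient of the number of letters of `S` times a product of digits. -/
def statP (S : List α) (i : ℕ) (ms : List (α × ℕ)) : Pol α := pmul (powS S i) (prodK S ms)

/-- The combination encoded. -/
def Code5.poly : Code5 α → Pol α
  | .PP u v => infil u v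
  | .Mrg i j z => preim i j z
  | .Ar S i ms => S.flatMap fun a => prep a (shiftP a (statP S i ms))
  | .Nt c S i ms => prep c (statP S i ms)

/-- The conditions under which the combination is known; `b` bounds the distinct letters of words
already known. -/
def Code5.valid (b : ℕ) : Code5 α → Bool
  | .PP u v => decide (u.length ≤ 4) && decide (v.length ≤ 4)
  | .Mrg i j z => decide (i ≠ j) && decide (j ∉ z) && decide (z.length ≤ 5) && decide (dcount z < b)
  | .Ar S i ms => decide S.Nodup && decide (i ≤ 4) && decide (ms.length ≤ 4) &&
      ms.all fun m => decide (m.1 ∈ S) && decide (m.2 ≤ 4)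
  | .Nt c S i ms => decide (c ∉ S) && decide S.Nodup && decide (i ≤ 4) && decide (ms.length ≤ 4) &&
      ms.all fun m => decide (m.1 ∈ S) && decide (m.2 ≤ 4)

/-- The known words. -/
def isKnown (b : ℕ) (z : List α) : Bool :=
  decide (z.length ≤ 4) || (decide (z.length ≤ 5) && decide (dcount z < b))

section Known

variable {p : ℕ} [hp : Fact p.Prime]

theorem cast_evalP_prodK (S : List α) (hS : S.Nodup) (ms : List (α × ℕ)) (w : List α) :
    ((evalP (prodK S ms) w : ℤ) : ZMod p) = (ms.map fun m => Kval (· ∈ S) p m w).prod := by
  induction ms with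
  | nil => simp [prodK]
  | cons m ms ih =>
    simp only [prodK, evalP_pmul, List.map_cons, List.prod_cons]
    push_cast
    rw [ih, evalP_prep, cast_posSum]
    congr 1
    exact posSum_congr m.1 (fun w' => cast_evalP_powS S hS m.2 w') w

theorem cast_evalP_statP (S : List α) (hS : S.Nodup) (i : ℕ) (ms : List (α × ℕ)) (w : List α) :
    ((evalP (statP S i ms) w : ℤ) : ZMod p) =
      ((nS (· ∈ S) w).choose i : ZMod p) * (ms.map fun m => Kval (· ∈ S) p m w).prod := by
  simp only [statP, evalP_pmul]
  push_cast
  rw [cast_evalP_prodK S hS, cast_evalP_powS S hS]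

/-- The sum over the positions of the letters of a list. -/
theorem sum_posSum_shift {R : Type} [AddCommMonoid R] (S : List α) (hS : S.Nodup) (f : List α → R)
    (w : List α) :
    (S.map fun a => posSum a (fun w' => f (a :: w')) w).sum = posS (· ∈ S) f w := by
  induction w with
  | nil =>
    have : ∀ L : List α, (L.map fun a => posSum a (fun w' => f (a :: w')) ([] : List α)).sum = 0 := by
      intro L
      induction L with
      | nil => rfl
      | cons b L ih => simp [posSum, ih]
    rw [this]
    rfl
  | cons x w ih =>
    simp only [posSum, posS]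
    have h1 : ∀ L : List α, L.Nodup → (L.map fun a => (if x = a then f (a :: w) else 0)
        + posSum a (fun w' => f (a :: w')) w).sum =
        (if x ∈ L then f (x :: w) else 0) +
          (L.map fun a => posSum a (fun w' => f (a :: w')) w).sum := by
      intro L
      induction L with
      | nil => simp
      | cons b L ihL =>
        intro hL
        have hb := (List.nodup_cons.1 hL).1
        have := ihL (List.nodup_cons.1 hL).2
        simp only [List.map_cons, List.sum_cons, this, List.mem_cons]
        by_cases hxb : x = b
        · subst hxb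
          simp only [if_true, true_or, hb, if_false, zero_add]
          abel
        · simp only [hxb, if_false, false_or, zero_add]
          abel
    rw [h1 S hS, ih]

variable [Finite α]

theorem known_Nt (h24 : (24 : ZMod p) ≠ 0) (h5 : 5 ≤ p) (c : α) (S : List α) (i : ℕ)
    (ms : List (α × ℕ)) (hc : c ∉ S) (hS : S.Nodup) (hi : i ≤ 4) (hms : ms.length ≤ 4)
    (hm : ∀ m ∈ ms, m.1 ∈ S ∧ m.2 ≤ 4) :
    CNZ (fun w : List α => ((evalP (prep c (statP S i ms)) w : ℤ) : ZMod p)) := by
  have hp1 : p ^ 1 = p := pow_one p
  have h1 := stat_list (S := (· ∈ S)) (p := p) h24 (outer_posSum c hc) 1 i (by omega) ms hms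
    (fun m hm' => ⟨(hm m hm').1, by have := (hm m hm').2; omega⟩)
  refine h1.congr (fun w => ?_)
  rw [evalP_prep, cast_posSum]
  exact posSum_congr c (fun w' => (cast_evalP_statP S hS i ms w').symm) w

theorem known_Ar (h24 : (24 : ZMod p) ≠ 0) (h5 : 5 ≤ p) (S : List α) (i : ℕ)
    (ms : List (α × ℕ)) (hS : S.Nodup) (hi : i ≤ 4) (hms : ms.length ≤ 4)
    (hm : ∀ m ∈ ms, m.1 ∈ S ∧ m.2 ≤ 4) :
    CNZ (fun w : List α => ((evalP (S.flatMap fun a => prep a (shiftP a (statP S i ms))) w : ℤ) :
      ZMod p)) := by
  have hp1 : p ^ 1 = p := pow_one p
  have h1 := stat_list (S := (· ∈ S)) (p := p) h24 outer_posS 1 i (by omega) ms hms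
    (fun m hm' => ⟨(hm m hm').1, by have := (hm m hm').2; omega⟩)
  refine h1.congr (fun w => ?_)
  rw [evalP_flatMap]
  have h2 : ((S.map fun a => evalP (prep a (shiftP a (statP S i ms))) w).sum : ℤ) =
      (S.map fun a => posSum a (fun w' => evalP (statP S i ms) (a :: w')) w).sum := by
    congr 1
    refine List.map_congr_left (fun a _ => ?_)
    rw [evalP_prep]
    exact posSum_congr a (fun w' => evalP_shiftP a _ w') w
  rw [h2, sum_posSum_shift S hS]
  have h3 : ∀ (f : List α → ℤ) (w : List α), ((posS (· ∈ S) f w : ℤ) : ZMod p) =
      posS (· ∈ S) (fun w => ((f w : ℤ) : ZMod p)) w := by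
    intro f w
    induction w with
    | nil => simp [posS]
    | cons a w ih =>
      simp only [posS]
      push_cast
      rw [ih]
  rw [h3]
  exact posS_congr (fun w' => (cast_evalP_statP S hS i ms w').symm) w

/-- The hypotheses on what is already known. -/
theorem known_code5 (h24 : (24 : ZMod p) ≠ 0) (h5 : 5 ≤ p) (b : ℕ)
    (H : ∀ z : List α, isKnown b z = true → CNZ (fun w : List α => (((subCount z w : ℕ) : ℤ) : ZMod p)))
    (HL : ∀ z : List α, z.length ≤ 4 → CNZ (fun w : List α => (((subCount z w : ℕ) : ℤ) : ZMod p)))
    (C : Code5 α) (hv : C.valid b = true) :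
    CNZ (fun w : List α => ((evalP C.poly w : ℤ) : ZMod p)) := by
  have : NeZero p := ⟨hp.out.ne_zero⟩
  cases C with
  | PP u v =>
    have hu : u.length ≤ 4 ∧ v.length ≤ 4 := by simpa [Code5.valid] using hv
    refine ((HL u hu.1).mul (HL v hu.2)).congr (fun w => ?_)
    simp [Code5.poly, evalP_infil]
  | Mrg i j z =>
    have hu : ((i ≠ j ∧ j ∉ z) ∧ z.length ≤ 5) ∧ dcount z < b := by
      simpa [Code5.valid] using hv
    obtain ⟨⟨⟨h1, h2⟩, h3⟩, h4⟩ := hu
    have h6 := H z (by simp [isKnown, h3, h4])
    refine (h6.comap (mergeMap i j)).congr (fun w => ?_)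
    simp only [Code5.poly]
    rw [evalP_preim i j h1 z h2]
  | Ar S i ms =>
    simp only [Code5.valid, Bool.and_eq_true, decide_eq_true_eq, List.all_eq_true] at hv
    obtain ⟨⟨⟨h1, h2⟩, h3⟩, h4⟩ := hv
    exact known_Ar h24 h5 S i ms h1 h2 h3 (fun m hm => h4 m hm)
  | Nt c S i ms =>
    simp only [Code5.valid, Bool.and_eq_true, decide_eq_true_eq, List.all_eq_true] at hv
    obtain ⟨⟨⟨⟨h0, h1⟩, h2⟩, h3⟩, h4⟩ := hv
    exact known_Nt h24 h5 c S i ms h0 h1 h2 h3 (fun m hm => h4 m hm)

/-- The polynomial of a list of scaled codes. -/
def certPoly5 (terms : List (ℤ × Code5 α)) : Pol α :=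
  terms.flatMap fun t => scaleP t.1 t.2.poly

/-- The check of a certificate; `enc` numbers the letters. -/
def checkCert5 (enc : α → ℕ) (k : ℤ) (v : List α) (terms : List (ℤ × Code5 α)) : Bool :=
  terms.all (fun t => t.2.valid (dcount v)) &&
    (decide (fpBound (((-k, v) :: certPoly5 terms).filter fun t => !isKnown (dcount v) t.2) < 2 ^ 24) &&
      decide (fpSum enc (2 ^ 24)
        (((-k, v) :: certPoly5 terms).filter fun t => !isKnown (dcount v) t.2) = 0))

omit [Finite α] in
/-- A combination of known words is known. -/
theorem cnz_evalP_known [Finite (ZMod p)] (kn : List α → Bool)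
    (H : ∀ z : List α, kn z = true → CNZ (fun w : List α => (((subCount z w : ℕ) : ℤ) : ZMod p)))
    (P : Pol α) :
    CNZ (fun w : List α => ((evalP (P.filter fun t => kn t.2) w : ℤ) : ZMod p)) := by
  induction P with
  | nil => exact (CNZ.const (0 : ZMod p)).congr (fun w => by simp)
  | cons t P ih =>
    by_cases h : kn t.2 = true
    · have e : ((t :: P).filter fun t => kn t.2) = t :: P.filter fun t => kn t.2 :=
        List.filter_cons_of_pos h
      rw [e]
      refine ((CNZ.const ((t.1 : ℤ) : ZMod p)).mul (H _ h) |>.add ih).congr (fun w => ?_)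
      obtain ⟨k, z⟩ := t
      simp only [evalP_cons]
      push_cast
      rfl
    · have e : ((t :: P).filter fun t => kn t.2) = P.filter fun t => kn t.2 :=
        List.filter_cons_of_neg h
      rw [e]
      exact ih

omit hp [Finite α] in
/-- A combination is its known part plus the rest. -/
theorem evalP_filter_split (kn : List α → Bool) (P : Pol α) (w : List α) :
    evalP P w = evalP (P.filter fun t => kn t.2) w + evalP (P.filter fun t => !kn t.2) w := by
  induction P with
  | nil => simp
  | cons t P ih =>
    by_cases h : kn t.2 = true
    · have e : ((t :: P).filter fun t => kn t.2) = t :: P.filter fun t => kn t.2 :=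
        List.filter_cons_of_pos h
      have e' : ((t :: P).filter fun t => !kn t.2) = P.filter fun t => !kn t.2 :=
        List.filter_cons_of_neg (by simp [h])
      rw [e, e']
      obtain ⟨k, z⟩ := t
      simp only [evalP_cons]
      rw [ih]
      ring
    · have e : ((t :: P).filter fun t => kn t.2) = P.filter fun t => kn t.2 :=
        List.filter_cons_of_neg h
      have e' : ((t :: P).filter fun t => !kn t.2) = t :: P.filter fun t => !kn t.2 :=
        List.filter_cons_of_pos (by simpa using h)
      rw [e, e']
      obtain ⟨k, z⟩ := t
      simp only [evalP_cons]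
      rw [ih]
      ring

theorem known_certPoly5 (h24 : (24 : ZMod p) ≠ 0) (h5 : 5 ≤ p) (b : ℕ)
    (H : ∀ z : List α, isKnown b z = true → CNZ (fun w : List α => (((subCount z w : ℕ) : ℤ) : ZMod p)))
    (HL : ∀ z : List α, z.length ≤ 4 → CNZ (fun w : List α => (((subCount z w : ℕ) : ℤ) : ZMod p)))
    (terms : List (ℤ × Code5 α)) (h : terms.all (fun t => t.2.valid b) = true) :
    CNZ (fun w : List α => ((evalP (certPoly5 terms) w : ℤ) : ZMod p)) := by
  have : NeZero p := ⟨hp.out.ne_zero⟩
  induction terms with
  | nil => exact (CNZ.const (0 : ZMod p)).congr (fun w => by simp [certPoly5])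
  | cons t terms ih =>
    simp only [List.all_cons, Bool.and_eq_true] at h
    refine ((CNZ.const ((t.1 : ℤ) : ZMod p)).mul (known_code5 h24 h5 b H HL t.2 h.1) |>.add (ih h.2)).congr
      (fun w => ?_)
    simp only [certPoly5, List.flatMap_cons, evalP_append, evalP_scale]
    push_cast
    rfl

/-- **Soundness of certificates.** -/
theorem cert_sound5 (h24 : (24 : ZMod p) ≠ 0) (h5 : 5 ≤ p) (enc : α → ℕ) (h6 : ∀ a, enc a < 6)
    (hi : Function.Injective enc) {k : ℤ} {v : List α}
    {terms : List (ℤ × Code5 α)} (h : checkCert5 enc k v terms = true) (hk : ((k : ℤ) : ZMod p) ≠ 0)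
    (H : ∀ z : List α, isKnown (dcount v) z = true →
      CNZ (fun w : List α => (((subCount z w : ℕ) : ℤ) : ZMod p)))
    (HL : ∀ z : List α, z.length ≤ 4 → CNZ (fun w : List α => (((subCount z w : ℕ) : ℤ) : ZMod p))) :
    CNZ (fun w : List α => (((subCount v w : ℕ) : ℤ) : ZMod p)) := by
  have : NeZero p := ⟨hp.out.ne_zero⟩
  simp only [checkCert5, Bool.and_eq_true, List.all_eq_true, decide_eq_true_eq] at h
  obtain ⟨h0, hb, hs⟩ := h
  have h1 := known_certPoly5 h24 h5 _ H HL terms (List.all_eq_true.2 h0)
  have h2 := cnz_evalP_known (p := p) (isKnown (dcount v)) H ((-k, v) :: certPoly5 terms)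
  refine CNZ.of_mul_const hk ((h1.sub h2).congr (fun w => ?_))
  have h3 := fp_sound enc h6 hi _ _ hb hs (fun z => (subCount z w : ℤ))
  have h4 := evalP_filter_split (isKnown (dcount v)) ((-k, v) :: certPoly5 terms) w
  have h5' : evalP (((-k, v) :: certPoly5 terms).filter fun t => !isKnown (dcount v) t.2) w = 0 := h3
  rw [h5', add_zero, evalP_cons] at h4
  rw [← h4]
  push_cast
  ring

end Known

end Vale.Agent.Lib.P329
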