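import Vale.Agent.Lib.P329.QuadSum

/-!
In a group of nilpotency class at most 3, the product of a word is determined by its subword counts
of length at most 3 (modulo the order of the group).
-/

namespace Vale.Agent.Lib.P329

open scoped commutatorElement

section GroupFacts

variable {G : Type*} [Group G]

/-- Class at most 3: the derived subgroup is abelian. -/
theorem derived_comm (hc : (⊤ : Subgroup G).lowerCentralSeries 3 = ⊥) {a b : G}
    (ha : a ∈ commutator G) (hb : b ∈ commutator G) : a * b = b * a := by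
  have h3 : ⁅⁅commutator G, (⊤ : Subgroup G)⁆, (⊤ : Subgroup G)⁆ = ⊥ := hc
  have h3' : ⁅⁅(⊤ : Subgroup G), commutator G⁆, (⊤ : Subgroup G)⁆ = ⊥ := by
    rw [Subgroup.commutator_comm (⊤ : Subgroup G) (commutator G)]; exact h3
  have key : ⁅⁅(⊤ : Subgroup G), (⊤ : Subgroup G)⁆, commutator G⁆ = ⊥ :=
    Subgroup.commutator_commutator_eq_bot_of_rotate h3' h3
  have h1 : ⁅a, b⁆ ∈ (⊥ : Subgroup G) := by
    rw [← key]
    exact Subgroup.commutator_mem_commutator ha hb
  rw [Subgroup.mem_bot, commutatorElement_eq_one_iff_mul_comm] at h1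
  exact h1

/-- `zv a u = a⁻¹ u⁻¹ a u`. -/
def zv (a u : G) : G := a⁻¹ * u⁻¹ * a * u

/-- `yv h S = h⁻¹ S⁻¹ h S`. -/
def yv (h S : G) : G := h⁻¹ * S⁻¹ * h * S

theorem zv_eq (a u : G) : zv a u = ⁅a⁻¹, u⁻¹⁆ := by
  simp [zv, commutatorElement_def]

theorem yv_eq (a u : G) : yv a u = ⁅a⁻¹, u⁻¹⁆ := by
  simp [yv, commutatorElement_def]

theorem zv_mem (a u : G) : zv a u ∈ commutator G := by
  rw [zv_eq]; exact Subgroup.commutator_mem_commutator (Subgroup.mem_top _) (Subgroup.mem_top _)

theorem yv_mem (a u : G) : yv a u ∈ commutator G := by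
  rw [yv_eq]; exact Subgroup.commutator_mem_commutator (Subgroup.mem_top _) (Subgroup.mem_top _)

/-- For `a` in the derived subgroup, `zv a u` is central when the class is at most 3. -/
theorem zv_central (hc : (⊤ : Subgroup G).lowerCentralSeries 3 = ⊥) {a : G}
    (ha : a ∈ commutator G) (u g : G) : zv a u * g = g * zv a u := by
  have h3 : ⁅⁅commutator G, (⊤ : Subgroup G)⁆, (⊤ : Subgroup G)⁆ = ⊥ := hc
  have h1 : ⁅zv a u, g⁆ ∈ (⊥ : Subgroup G) := by
    rw [← h3, zv_eq]
    exact Subgroup.commutator_mem_commutator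
      (Subgroup.commutator_mem_commutator ((commutator G).inv_mem ha) (Subgroup.mem_top _))
      (Subgroup.mem_top _)
  rw [Subgroup.mem_bot, commutatorElement_eq_one_iff_mul_comm] at h1
  exact h1

theorem conj_eq (a T : G) : T⁻¹ * a * T = a * zv a T := by
  simp [zv, mul_assoc]

theorem yv_mul (h S T : G) : yv h (S * T) = yv h T * (yv h S * zv (yv h S) T) := by
  rw [← conj_eq]; simp [yv, mul_assoc]

theorem zv_mul_right (hc : (⊤ : Subgroup G).lowerCentralSeries 3 = ⊥) {a : G}
    (ha : a ∈ commutator G) (u v : G) : zv a (u * v) = zv a u * zv a v := by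
  have h1 : (u * v)⁻¹ * a * (u * v) = v⁻¹ * (u⁻¹ * a * u) * v := by group
  have h2 : zv a (u * v) = a⁻¹ * ((u * v)⁻¹ * a * (u * v)) := by simp [zv, mul_assoc]
  have h4 : v⁻¹ * (a * zv a u) * v = (v⁻¹ * a * v) * zv a u := by
    have := zv_central hc ha u v
    calc v⁻¹ * (a * zv a u) * v = v⁻¹ * a * (zv a u * v) := by group
      _ = v⁻¹ * a * (v * zv a u) := by rw [this]
      _ = _ := by group
  rw [h2, h1, conj_eq a u, h4, conj_eq a v]
  have h5 := zv_central hc ha u (zv a v)
  rw [h5]; simp [mul_assoc]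

theorem zv_one_right (a : G) : zv a 1 = 1 := by simp [zv]

theorem zv_pow_right (hc : (⊤ : Subgroup G).lowerCentralSeries 3 = ⊥) {a : G}
    (ha : a ∈ commutator G) (u : G) (k : ℕ) : zv a (u ^ k) = zv a u ^ k := by
  induction k with
  | zero => simp [zv]
  | succ k ih => rw [pow_succ, zv_mul_right hc ha, ih, pow_succ]

theorem zv_mul_left (hc : (⊤ : Subgroup G).lowerCentralSeries 3 = ⊥) {a b : G}
    (ha : a ∈ commutator G) (hb : b ∈ commutator G) (u : G) :
    zv (a * b) u = zv a u * zv b u := by
  have h1 : zv (a * b) u = b⁻¹ * (zv a u * (u⁻¹ * b * u)) := by simp [zv, mul_assoc]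
  rw [h1, ← mul_assoc, ← zv_central hc ha u b⁻¹, mul_assoc]
  simp [zv, mul_assoc]

theorem zv_one_left (u : G) : zv (1 : G) u = 1 := by simp [zv]

theorem zv_pow_left (hc : (⊤ : Subgroup G).lowerCentralSeries 3 = ⊥) {a : G}
    (ha : a ∈ commutator G) (u : G) (k : ℕ) : zv (a ^ k) u = zv a u ^ k := by
  induction k with
  | zero => simp [zv]
  | succ k ih =>
    rw [pow_succ, zv_mul_left hc ((commutator G).pow_mem ha k) ha, ih, pow_succ]

/-- `zv` of a central element vanishes. -/
theorem zv_of_central {b : G} (hb : ∀ g, b * g = g * b) (u : G) : zv b u = 1 := by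
  have : b * u = u * b := hb u
  simp only [zv, mul_assoc]
  rw [this]; simp

/-- `zv a u` is central, so `zv (zv a u) v = 1`. -/
theorem zv_zv (hc : (⊤ : Subgroup G).lowerCentralSeries 3 = ⊥) {a : G}
    (ha : a ∈ commutator G) (u v : G) : zv (zv a u) v = 1 :=
  zv_of_central (fun g => zv_central hc ha u g) v

theorem yv_pow (hc : (⊤ : Subgroup G).lowerCentralSeries 3 = ⊥) (h g : G) (k : ℕ) :
    yv h (g ^ k) = yv h g ^ k * zv (yv h g) g ^ k.choose 2 := by
  have hy := yv_mem h g
  have hcomm : ∀ {a b : G}, a ∈ commutator G → b ∈ commutator G → a * b = b * a :=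
    fun ha hb => derived_comm hc ha hb
  induction k with
  | zero => simp [yv]
  | succ k ih =>
    rw [pow_succ, yv_mul, ih,
      zv_mul_left hc ((commutator G).pow_mem hy k) ((commutator G).pow_mem (zv_mem _ _) _) g,
      zv_pow_left hc hy g k]
    have hz : zv (zv (yv h g) g ^ k.choose 2) g = 1 := by
      rw [zv_pow_left hc (zv_mem _ _), zv_zv hc hy]; simp
    rw [hz, mul_one]
    set a := yv h g
    set b := zv a g
    have hb : b ∈ commutator G := zv_mem _ _
    have hab : ∀ n m : ℕ, a ^ n * b ^ m = b ^ m * a ^ n := fun n m =>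
      hcomm ((commutator G).pow_mem hy n) ((commutator G).pow_mem hb m)
    have hpow : (k + 1).choose 2 = k.choose 2 + k := by
      rw [Nat.choose_succ_succ' k 1, Nat.choose_one_right, add_comm]
    rw [hpow, pow_add b, pow_succ a]
    -- a * (a^k * b^C * b^k) = a^k * a * (b^C * b^k)
    have h1 : a * a ^ k = a ^ k * a := (pow_succ' a k).symm.trans (pow_succ a k)
    simp only [mul_assoc]
    rw [← mul_assoc a (a ^ k), h1, mul_assoc]

end GroupFacts

section Main

variable {α : Type*} {G : Type*} [Group G]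

/-- The derived subgroup as a commutative group, when the class is at most 3. -/
@[reducible] def derivedCommGroup (hc : (⊤ : Subgroup G).lowerCentralSeries 3 = ⊥) :
    CommGroup (commutator G) :=
  { (inferInstance : Group (commutator G)) with
    mul_comm := fun a b => Subtype.ext (derived_comm hc a.2 b.2) }

/-- A `G`-valued function which is a quadratic function valued in the derived subgroup. -/
def QuadG (hc : (⊤ : Subgroup G).lowerCentralSeries 3 = ⊥) (H : (α → ℕ) → G) : Prop :=
  ∃ F : (α → ℕ) → commutator G, @IsQuad α (commutator G) (derivedCommGroup hc) F ∧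
    ∀ x, (F x : G) = H x

variable {hc : (⊤ : Subgroup G).lowerCentralSeries 3 = ⊥}

theorem QuadG.congr {H H' : (α → ℕ) → G} (h : QuadG hc H) (e : ∀ x, H x = H' x) : QuadG hc H' := by
  obtain ⟨F, hF, hx⟩ := h
  exact ⟨F, hF, fun x => (hx x).trans (e x)⟩

theorem QuadG.const {a : G} (ha : a ∈ commutator G) : QuadG hc (fun _ : α → ℕ => a) :=
  letI := derivedCommGroup hc
  ⟨fun _ => ⟨a, ha⟩, IsQuad.const _, fun _ => rfl⟩

theorem QuadG.lin {a : G} (ha : a ∈ commutator G) (i : α) :
    QuadG hc (fun x : α → ℕ => a ^ x i) :=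
  letI := derivedCommGroup hc
  ⟨fun x => (⟨a, ha⟩ : commutator G) ^ x i, IsQuad.lin _ i, fun _ => rfl⟩

theorem QuadG.binom {a : G} (ha : a ∈ commutator G) (i : α) :
    QuadG hc (fun x : α → ℕ => a ^ (x i).choose 2) :=
  letI := derivedCommGroup hc
  ⟨fun x => (⟨a, ha⟩ : commutator G) ^ (x i).choose 2, IsQuad.binom _ i, fun _ => rfl⟩

theorem QuadG.bilin {a : G} (ha : a ∈ commutator G) (i j : α) :
    QuadG hc (fun x : α → ℕ => a ^ (x i * x j)) :=
  letI := derivedCommGroup hc
  ⟨fun x => (⟨a, ha⟩ : commutator G) ^ (x i * x j), IsQuad.bilin _ i j, fun _ => rfl⟩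

theorem QuadG.mul {H H' : (α → ℕ) → G} (h : QuadG hc H) (h' : QuadG hc H') :
    QuadG hc (fun x => H x * H' x) := by
  let _ := derivedCommGroup hc
  obtain ⟨F, hF, hx⟩ := h
  obtain ⟨F', hF', hx'⟩ := h'
  exact ⟨fun x => F x * F' x, IsQuad.mul hF hF', fun x => by
    show ((F x : G) * (F' x : G)) = _
    rw [hx, hx']⟩

/-- The ordered product of powers of the letters of `L`. -/
def SL (g : α → G) (L : List α) (x : α → ℕ) : G := (L.map fun i => g i ^ x i).prod

@[simp] theorem SL_nil (g : α → G) (x : α → ℕ) : SL g [] x = 1 := rfl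

theorem SL_cons (g : α → G) (i : α) (L : List α) (x : α → ℕ) :
    SL g (i :: L) x = g i ^ x i * SL g L x := by simp [SL]

theorem SL_append (g : α → G) (L L' : List α) (x : α → ℕ) :
    SL g (L ++ L') x = SL g L x * SL g L' x := by simp [SL]

variable (hc)

theorem Q1 (g : α → G) (L : List α) {a : G} (ha : a ∈ commutator G) (i : α) :
    QuadG hc (fun x => zv a (SL g L x) ^ x i) := by
  induction L with
  | nil =>
    refine (QuadG.const (hc := hc) (Subgroup.one_mem _)).congr fun x => ?_
    simp [zv_one_right]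
  | cons j L ih =>
    refine ((QuadG.bilin (hc := hc) (zv_mem a (g j)) j i).mul ih).congr fun x => ?_
    rw [SL_cons, zv_mul_right hc ha, zv_pow_right hc ha]
    rw [(show Commute (zv a (g j) ^ x j) (zv a (SL g L x)) from
      derived_comm hc ((commutator G).pow_mem (zv_mem _ _) _) (zv_mem _ _)).mul_pow, pow_mul]

/-- Expansion of `yv h (g^k * T)`. -/
theorem yv_cons_eq (hc : (⊤ : Subgroup G).lowerCentralSeries 3 = ⊥) (h gi T : G) (k : ℕ) :
    yv h (gi ^ k * T) = yv h T * ((yv h gi ^ k * zv (yv h gi) gi ^ k.choose 2) *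
      zv (yv h gi) T ^ k) := by
  have hy := yv_mem h gi
  rw [yv_mul, yv_pow hc,
    zv_mul_left hc ((commutator G).pow_mem hy k) ((commutator G).pow_mem (zv_mem _ _) _) T,
    zv_pow_left hc hy, zv_pow_left hc (zv_mem _ _), zv_zv hc hy]
  simp

theorem Q2 (g : α → G) (h : G) (L : List α) : QuadG hc (fun x => yv h (SL g L x)) := by
  induction L with
  | nil =>
    refine (QuadG.const (hc := hc) (Subgroup.one_mem _)).congr fun x => ?_
    simp [yv]
  | cons i L ih =>
    have hy := yv_mem h (g i)
    refine (ih.mul (((QuadG.lin (hc := hc) hy i).mul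
      (QuadG.binom (hc := hc) (zv_mem (yv h (g i)) (g i)) i)).mul (Q1 hc g L hy i))).congr fun x => ?_
    rw [SL_cons, yv_cons_eq hc]

theorem Q3 (g : α → G) (h u : G) (L : List α) (j : α) :
    QuadG hc (fun x => zv (yv h (SL g L x)) u ^ x j) := by
  induction L with
  | nil =>
    refine (QuadG.const (hc := hc) (Subgroup.one_mem _)).congr fun x => ?_
    have : yv h (SL g [] x) = 1 := by simp [yv]
    rw [this, zv_one_left]; simp
  | cons i L ih =>
    have hy := yv_mem h (g i)
    refine (ih.mul (QuadG.bilin (hc := hc) (zv_mem (yv h (g i)) u) i j)).congr fun x => ?_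
    rw [SL_cons, yv_cons_eq hc]
    set T := SL g L x
    set a := yv h (g i)
    set b := zv a (g i)
    have hbmem : b ^ (x i).choose 2 ∈ commutator G := (commutator G).pow_mem (zv_mem _ _) _
    have ham : a ^ x i ∈ commutator G := (commutator G).pow_mem hy _
    have hzm : zv a T ^ x i ∈ commutator G := (commutator G).pow_mem (zv_mem _ _) _
    have hYm : yv h T ∈ commutator G := yv_mem _ _
    rw [zv_mul_left hc hYm ((commutator G).mul_mem ((commutator G).mul_mem ham hbmem) hzm),
      zv_mul_left hc ((commutator G).mul_mem ham hbmem) hzm,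
      zv_mul_left hc ham hbmem, zv_pow_left hc hy, zv_pow_left hc (zv_mem _ _),
      zv_zv hc hy, zv_pow_left hc (zv_mem _ _), zv_zv hc hy]
    simp only [one_pow, mul_one]
    rw [(show Commute (zv (yv h T) u) (zv a u ^ x i) from
      derived_comm hc (zv_mem _ _) ((commutator G).pow_mem (zv_mem _ _) _)).mul_pow, pow_mul]

theorem Q4 (g : α → G) (h : G) (L L2 : List α) :
    QuadG hc (fun x => zv (yv h (SL g L x)) (SL g L2 x)) := by
  induction L2 with
  | nil =>
    refine (QuadG.const (hc := hc) (Subgroup.one_mem _)).congr fun x => ?_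
    simp [zv_one_right]
  | cons j L2 ih =>
    refine ((Q3 hc g h (g j) L j).mul ih).congr fun x => ?_
    rw [SL_cons, zv_mul_right hc (yv_mem _ _), zv_pow_right hc (yv_mem _ _)]

/-- The main identity for one letter. -/
theorem kappa_eq [DecidableEq α] (hc : (⊤ : Subgroup G).lowerCentralSeries 3 = ⊥) (g : α → G) (c : α) (L1 L2 : List α) (h1 : c ∉ L1) (h2 : c ∉ L2) (x : α → ℕ) :
    (SL g (L1 ++ c :: L2) (Function.update x c (x c + 1)))⁻¹ * g c * SL g (L1 ++ c :: L2) x
      = yv (g c) (SL g L1 x) * (zv (yv (g c) (SL g L1 x)) (g c) ^ x c *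
          zv (yv (g c) (SL g L1 x)) (SL g L2 x)) := by
  have e1 : SL g L1 (Function.update x c (x c + 1)) = SL g L1 x := by
    simp only [SL]; congr 1
    apply List.map_congr_left
    intro i hi
    have : i ≠ c := fun e => h1 (e ▸ hi)
    simp [Function.update_of_ne this]
  have e2 : SL g L2 (Function.update x c (x c + 1)) = SL g L2 x := by
    simp only [SL]; congr 1
    apply List.map_congr_left
    intro i hi
    have : i ≠ c := fun e => h2 (e ▸ hi)
    simp [Function.update_of_ne this]
  rw [SL_append, SL_append, SL_cons, SL_cons, e1, e2, Function.update_self]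
  set S := SL g L1 x
  set T := SL g L2 x
  set gc := g c
  set k := x c
  have hy := yv_mem gc S
  have hzz : zv (yv gc S) (gc ^ k * T) = zv (yv gc S) gc ^ k * zv (yv gc S) T := by
    rw [zv_mul_right hc hy, zv_pow_right hc hy]
  rw [← hzz, ← conj_eq]
  simp only [yv, pow_succ, mul_inv_rev]
  group

theorem Qkappa [DecidableEq α] (g : α → G) (L : List α) (hnd : L.Nodup) (c : α) (hcL : c ∈ L) :
    QuadG hc (fun x => (SL g L (Function.update x c (x c + 1)))⁻¹ * g c * SL g L x) := by
  obtain ⟨L1, L2, rfl⟩ := List.append_of_mem hcL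
  have hnd' := List.nodup_append.1 hnd
  have h1 : c ∉ L1 := fun h => hnd'.2.2 c h c (by simp) rfl
  have h2 : c ∉ L2 := (List.nodup_cons.1 hnd'.2.1).1
  refine ((Q2 hc g (g c) L1).mul (((Q3 hc g (g c) (g c) L1 c)).mul (Q4 hc g (g c) L1 L2))).congr
    fun x => (kappa_eq hc g c L1 L2 h1 h2 x).symm

theorem cnt_cons [DecidableEq α] (c : α) (w : List α) :
    cnt (c :: w) = Function.update (cnt w) c (cnt w c + 1) := by
  funext d
  by_cases h : d = c
  · subst h; simp [cnt]
  · rw [Function.update_of_ne h]
    have : (c == d) = false := by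
      simp only [beq_eq_false_iff_ne]; exact fun e => h e.symm
    simp [cnt, List.count_cons, this]

/-- In a finite group of class at most 3, two words with the same subword counts of length at most 3
modulo the order of the group have the same product. -/
theorem prod_eq_of_subCount_modEq [Fintype α] [DecidableEq α] [Finite G]
    (hc : (⊤ : Subgroup G).lowerCentralSeries 3 = ⊥) (g : α → G) {w w' : List α}
    (h : ∀ u : List α, u.length ≤ 3 → subCount u w ≡ subCount u w' [MOD Nat.card G]) :
    (w.map g).prod = (w'.map g).prod := by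
  classical
  let _ := derivedCommGroup hc
  set L : List α := Finset.univ.toList with hLdef
  have hnd : L.Nodup := Finset.nodup_toList _
  have hL : ∀ c, c ∈ L := fun c => by simp [hLdef]
  have hQ := fun c => Qkappa hc g L hnd c (hL c)
  choose F hF hFx using hQ
  have main : ∀ v : List α, (v.map g).prod = SL g L (cnt v) * (nProd F v : commutator G) := by
    intro v
    induction v with
    | nil =>
      have : SL g L (cnt ([] : List α)) = 1 := by
        simp only [SL]
        apply List.prod_eq_one
        intro y hy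
        obtain ⟨i, _, rfl⟩ := List.mem_map.1 hy
        simp [cnt]
      simp [this, nProd]
    | cons c v ih =>
      have e := hFx c (cnt v)
      have e' : ((nProd F (c :: v) : commutator G) : G)
          = ((F c (cnt v) : commutator G) : G) * ((nProd F v : commutator G) : G) := rfl
      rw [List.map_cons, List.prod_cons, ih, e', e, cnt_cons]
      group
  have hNG : ∀ a : commutator G, a ^ Nat.card G = 1 := fun a =>
    Subtype.ext (by
      show ((a : G)) ^ Nat.card G = 1
      exact pow_card_eq_one')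
  have hn : nProd F w = nProd F w' := nProd_congr hNG h hF
  have hS : SL g L (cnt w) = SL g L (cnt w') := by
    simp only [SL]
    congr 1
    apply List.map_congr_left
    intro i _
    have hi := h [i] (by simp)
    rw [subCount_singleton, subCount_singleton] at hi
    have := (pow_card_eq_one' (x := g i))
    show g i ^ w.count i = g i ^ w'.count i
    rw [pow_eq_pow_mod (w.count i) this, pow_eq_pow_mod (w'.count i) this, hi]
  rw [main w, main w', hS, hn]

end Main

end Vale.Agent.Lib.P329
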