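import Vale.Agent.Lib.P329.Monotone
import Vale.Agent.Lib.P329.Collect3

/-!
Countable functions: integer functions on words all of whose residue classes have generalized star
height at most one.  They form a ring.  Lamp counts given by odometer automata are countable,
hence all scattered subword counts of length at most three.
-/

namespace Vale.Agent.Lib.P329

variable {α : Type}

/-- All residue classes of `f` modulo `N` have generalized star height at most one. -/
def CNTat (N : ℕ) (f : List α → ℤ) : Prop :=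
  ∀ r : ZMod N, GSH 1 {w | ((f w : ℤ) : ZMod N) = r}

/-- All residue classes of `f`, for all moduli, have generalized star height at most one. -/
def CNT (f : List α → ℤ) : Prop := ∀ N : ℕ, 0 < N → CNTat N f

section Closure

variable {N : ℕ} {f g : List α → ℤ}

theorem CNTat.congr (hf : CNTat N f) (h : ∀ w, f w = g w) : CNTat N g := by
  intro r
  refine (hf r).of_ext (fun w => ?_)
  show ((f w : ℤ) : ZMod N) = r ↔ ((g w : ℤ) : ZMod N) = r
  rw [h]

theorem CNTat.const (N : ℕ) (c : ℤ) : CNTat N (fun _ : List α => c) := by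
  intro r
  by_cases h : ((c : ℤ) : ZMod N) = r
  · exact (GSH.univ 1).of_ext (fun w => ⟨fun _ => h, fun _ => trivial⟩)
  · refine (GSH.bot 1).of_ext (fun w => ?_)
    constructor
    · intro h0
      exact absurd h0 (Language.notMem_zero w)
    · intro h0
      exact absurd h0 h

theorem CNTat.add [NeZero N] (hf : CNTat N f) (hg : CNTat N g) :
    CNTat N (fun w => f w + g w) := by
  intro r
  refine (GSH.exists (ι := ZMod N)
    (P := fun s w => ((f w : ℤ) : ZMod N) = s ∧ ((g w : ℤ) : ZMod N) = r - s)
    (fun s => (hf s).and (hg _))).of_ext (fun w => ?_)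
  constructor
  · rintro ⟨s, h1, h2⟩
    show ((f w + g w : ℤ) : ZMod N) = r
    push_cast
    rw [h1, h2]
    ring
  · intro h
    have h' : ((f w + g w : ℤ) : ZMod N) = r := h
    push_cast at h'
    exact ⟨_, rfl, by rw [← h']; ring⟩

theorem CNTat.mul [NeZero N] (hf : CNTat N f) (hg : CNTat N g) :
    CNTat N (fun w => f w * g w) := by
  intro r
  refine (GSH.exists (ι := ZMod N × ZMod N)
    (P := fun s w => (((f w : ℤ) : ZMod N) = s.1 ∧ ((g w : ℤ) : ZMod N) = s.2) ∧ s.1 * s.2 = r)
    (fun s => ?_)).of_ext (fun w => ?_)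
  · by_cases hs : s.1 * s.2 = r
    · exact ((hf s.1).and (hg s.2)).of_ext (fun w => ⟨fun h => ⟨h, hs⟩, fun h => h.1⟩)
    · refine (GSH.bot 1).of_ext (fun w => ?_)
      constructor
      · intro h0
        exact absurd h0 (Language.notMem_zero w)
      · intro h0
        exact absurd h0.2 hs
  · constructor
    · rintro ⟨s, ⟨h1, h2⟩, h3⟩
      show ((f w * g w : ℤ) : ZMod N) = r
      push_cast
      rw [h1, h2, h3]
    · intro h
      have h' : ((f w * g w : ℤ) : ZMod N) = r := h
      push_cast at h'
      exact ⟨(_, _), ⟨rfl, rfl⟩, h'⟩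

theorem CNTat.neg [NeZero N] (hf : CNTat N f) : CNTat N (fun w => - f w) :=
  ((CNTat.const N (-1)).mul hf).congr (fun w => by ring)

theorem CNTat.sub [NeZero N] (hf : CNTat N f) (hg : CNTat N g) :
    CNTat N (fun w => f w - g w) :=
  (hf.add hg.neg).congr (fun w => by ring)

theorem CNTat.sum [NeZero N] {ι : Type} (s : Finset ι) (F : ι → List α → ℤ)
    (h : ∀ i ∈ s, CNTat N (F i)) : CNTat N (fun w => ∑ i ∈ s, F i w) := by
  classical
  induction s using Finset.induction_on with
  | empty => exact (CNTat.const N 0).congr (fun w => by simp)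
  | insert a s ha ih =>
    refine ((h a (Finset.mem_insert_self a s)).add
      (ih (fun i hi => h i (Finset.mem_insert_of_mem hi)))).congr (fun w => ?_)
    rw [Finset.sum_insert ha]

/-- Dividing by a factor, at the cost of multiplying the modulus. -/
theorem CNTat.of_mul (k : ℕ) (hk : 0 < k) (h : CNTat (k * N) (fun w => (k : ℤ) * f w)) :
    CNTat N f := by
  intro r
  obtain ⟨r', rfl⟩ := ZMod.intCast_surjective r
  refine (h (((k : ℤ) * r' : ℤ) : ZMod (k * N))).of_ext (fun w => ?_)
  show (((k : ℤ) * f w : ℤ) : ZMod (k * N)) = (((k : ℤ) * r' : ℤ) : ZMod (k * N)) ↔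
    ((f w : ℤ) : ZMod N) = (r' : ZMod N)
  rw [ZMod.intCast_eq_intCast_iff, ZMod.intCast_eq_intCast_iff]
  push_cast
  constructor
  · intro h1
    exact Int.ModEq.mul_left_cancel' (by exact_mod_cast hk.ne') h1
  · intro h1
    exact Int.ModEq.mul_left' h1

theorem CNT.congr (hf : CNT f) (h : ∀ w, f w = g w) : CNT g :=
  fun N hN => (hf N hN).congr h

theorem CNT.const (c : ℤ) : CNT (fun _ : List α => c) := fun N _ => CNTat.const N c

theorem CNT.add (hf : CNT f) (hg : CNT g) : CNT (fun w => f w + g w) := fun N hN => by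
  have : NeZero N := ⟨hN.ne'⟩
  exact (hf N hN).add (hg N hN)

theorem CNT.mul (hf : CNT f) (hg : CNT g) : CNT (fun w => f w * g w) := fun N hN => by
  have : NeZero N := ⟨hN.ne'⟩
  exact (hf N hN).mul (hg N hN)

theorem CNT.neg (hf : CNT f) : CNT (fun w => - f w) := fun N hN => by
  have : NeZero N := ⟨hN.ne'⟩
  exact (hf N hN).neg

theorem CNT.sub (hf : CNT f) (hg : CNT g) : CNT (fun w => f w - g w) := fun N hN => by
  have : NeZero N := ⟨hN.ne'⟩
  exact (hf N hN).sub (hg N hN)

/-- If `k f` is countable for a nonzero natural `k`, so is `f`. -/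
theorem CNT.of_mul (k : ℕ) (hk : 0 < k) (h : CNT (fun w => (k : ℤ) * f w)) : CNT f := fun N hN => by
  exact CNTat.of_mul k hk (h (k * N) (Nat.mul_pos hk hN))

end Closure

section Odometer

variable (S B : α → Prop) [DecidablePred S] [DecidablePred B]

/-- Number of letters of `w` in `S`. -/
def cntP : List α → ℤ
  | [] => 0
  | a :: w => cntP w + if S a then 1 else 0

/-- Number of positions of a letter in `B` whose suffix has `cntP` congruent to `s` modulo `m`. -/
def lamp (m : ℕ) (s : ℤ) : List α → ℤ
  | [] => 0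
  | a :: w => lamp m s w + if B a ∧ (m : ℤ) ∣ cntP S w - s then 1 else 0

/-- Odometer: the letters of `S` add one, the letters of `B` add `m` to multiples of `m`. -/
def odo (m M : ℕ) (a : α) (q : Fin M) : Fin M :=
  if S a then ⟨(q.val + 1) % M, Nat.mod_lt _ (by have := q.2; omega)⟩
  else if B a ∧ m ∣ q.val then ⟨(q.val + m) % M, Nat.mod_lt _ (by have := q.2; omega)⟩
  else q

theorem odo_monotone {m M : ℕ} (hM : 0 < M) (hm : m ∣ M) (a : α) (q : Fin M)
    (_hq : q ≠ ⟨0, hM⟩) : odo S B m M a q = ⟨0, hM⟩ ∨ q ≤ odo S B m M a q := by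
  unfold odo
  split_ifs with h1 h2
  · by_cases h : q.val + 1 < M
    · right
      rw [Fin.le_def]
      show q.val ≤ (q.val + 1) % M
      rw [Nat.mod_eq_of_lt h]
      omega
    · left
      have : q.val + 1 = M := by have := q.2; omega
      apply Fin.ext
      show (q.val + 1) % M = 0
      rw [this, Nat.mod_self]
  · have hle : q.val + m ≤ M := by
      obtain ⟨k, hk⟩ := h2.2
      obtain ⟨l, hl⟩ := hm
      have hq2 := q.2
      rw [hk, hl] at *
      have hm0 : 0 < m := by
        rcases Nat.eq_zero_or_pos m with h0 | h0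
        · subst h0; simp at hq2
        · exact h0
      have hkl : k < l := lt_of_mul_lt_mul_left hq2 (Nat.zero_le m)
      calc m * k + m = m * (k + 1) := by ring
        _ ≤ m * l := Nat.mul_le_mul_left m hkl
    by_cases h : q.val + m < M
    · right
      rw [Fin.le_def]
      show q.val ≤ (q.val + m) % M
      rw [Nat.mod_eq_of_lt h]
      omega
    · left
      have : q.val + m = M := by omega
      apply Fin.ext
      show (q.val + m) % M = 0
      rw [this, Nat.mod_self]
  · exact Or.inr le_rfl

theorem odo_invariant {m M : ℕ} (hm : m ∣ M) (hd : ∀ a, S a → ¬ B a) (s : ℤ) (p : Fin M)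
    (hp : ((p.val : ℕ) : ℤ) ≡ -s [ZMOD M]) (w : List α) :
    (((w.foldr (odo S B m M) p).val : ℕ) : ℤ) ≡ -s + cntP S w + m * lamp S B m s w [ZMOD M] := by
  induction w with
  | nil => simpa [cntP, lamp] using hp
  | cons a w ih =>
    rw [List.foldr_cons]
    set q := w.foldr (odo S B m M) p with hq
    have hmZ : (m : ℤ) ∣ (M : ℤ) := by exact_mod_cast hm
    have hdiv : (m : ℤ) ∣ ((q.val : ℕ) : ℤ) ↔ (m : ℤ) ∣ cntP S w - s := by
      have h1 : (m : ℤ) ∣ (((q.val : ℕ) : ℤ) - (-s + cntP S w + m * lamp S B m s w)) :=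
        dvd_trans hmZ (Int.ModEq.dvd ih.symm)
      have h2 : ((q.val : ℕ) : ℤ) = (((q.val : ℕ) : ℤ) - (-s + cntP S w + m * lamp S B m s w))
          + (cntP S w - s) + m * lamp S B m s w := by ring
      constructor
      · intro h3
        have h4 : (m : ℤ) ∣ (((q.val : ℕ) : ℤ) - (((q.val : ℕ) : ℤ) - (-s + cntP S w + m * lamp S B m s w))
            - m * lamp S B m s w) :=
          dvd_sub (dvd_sub h3 h1) (dvd_mul_right _ _)
        have h5 : ((q.val : ℕ) : ℤ) - (((q.val : ℕ) : ℤ) - (-s + cntP S w + m * lamp S B m s w))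
            - m * lamp S B m s w = cntP S w - s := by ring
        rwa [h5] at h4
      · intro h3
        rw [h2]
        exact dvd_add (dvd_add h1 h3) (dvd_mul_right _ _)
    have hnat : (m ∣ q.val) ↔ (m : ℤ) ∣ cntP S w - s := by
      rw [← hdiv]; exact Int.natCast_dvd_natCast.symm
    simp only [cntP, lamp]
    unfold odo
    by_cases hS : S a
    · have hB : ¬ B a := hd a hS
      simp only [hS, if_true, hB, false_and, if_false]
      have h1 : ((((q.val + 1) % M : ℕ)) : ℤ) ≡ ((q.val + 1 : ℕ) : ℤ) [ZMOD M] :=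
        (Int.natCast_modEq_iff).2 (Nat.mod_modEq _ _)
      refine h1.trans ?_
      push_cast
      have h2 := ih.add_right 1
      have h3 : -s + (cntP S w + 1) + m * (lamp S B m s w + 0) =
          -s + cntP S w + m * lamp S B m s w + 1 := by ring
      rw [h3]
      exact h2
    · simp only [hS, if_false]
      by_cases hB : B a
      · by_cases hc : (m : ℤ) ∣ cntP S w - s
        · have hc' : m ∣ q.val := hnat.2 hc
          simp only [hB, hc, hc', and_self, if_true]
          have h1 : ((((q.val + m) % M : ℕ)) : ℤ) ≡ ((q.val + m : ℕ) : ℤ) [ZMOD M] :=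
            (Int.natCast_modEq_iff).2 (Nat.mod_modEq _ _)
          refine h1.trans ?_
          push_cast
          have h2 := ih.add_right (m : ℤ)
          have h3 : -s + (cntP S w + 0) + m * (lamp S B m s w + 1) =
              -s + cntP S w + m * lamp S B m s w + m := by ring
          rw [h3]
          exact h2
        · have hc' : ¬ m ∣ q.val := fun h => hc (hnat.1 h)
          simp only [hB, true_and, hc, hc', if_false]
          simpa using ih
      · simp only [hB, false_and, if_false]
        simpa using ih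

/-- Existence of a starting state. -/
theorem exists_start {M : ℕ} (hM : 0 < M) (s : ℤ) :
    ∃ p : Fin M, ((p.val : ℕ) : ℤ) ≡ -s [ZMOD M] := by
  have hM' : (0 : ℤ) < M := by exact_mod_cast hM
  have h1 : 0 ≤ (-s) % (M : ℤ) := Int.emod_nonneg _ hM'.ne'
  have h2 : (-s) % (M : ℤ) < M := Int.emod_lt_of_pos _ hM'
  refine ⟨⟨((-s) % (M : ℤ)).toNat, by omega⟩, ?_⟩
  show ((((-s) % (M : ℤ)).toNat : ℕ) : ℤ) ≡ -s [ZMOD M]
  rw [Int.toNat_of_nonneg h1]
  exact Int.mod_modEq _ _

variable [Finite α]

theorem cntAt_odo {m M : ℕ} (hM : 0 < M) (hm : m ∣ M) (hd : ∀ a, S a → ¬ B a) (s : ℤ) :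
    CNTat M (fun w : List α => -s + cntP S w + m * lamp S B m s w) := by
  intro r
  obtain ⟨p, hp⟩ := exists_start hM s
  refine (GSH.exists (ι := Fin M) (P := fun q w => w.foldr (odo S B m M) p = q ∧
    (((q.val : ℕ) : ℤ) : ZMod M) = r) (fun q => ?_)).of_ext (fun w => ?_)
  · by_cases hq : (((q.val : ℕ) : ℤ) : ZMod M) = r
    · have := gsh_foldr (δ := odo S B m M) (z := ⟨0, hM⟩)
        (fun a q h => odo_monotone S B hM hm a q h) p q
      exact this.of_ext (fun w => ⟨fun h => ⟨h, hq⟩, fun h => h.1⟩)
    · refine (GSH.bot 1).of_ext (fun w => ?_)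
      constructor
      · intro h0
        exact absurd h0 (Language.notMem_zero w)
      · intro h0
        exact absurd h0.2 hq
  · have hinv := odo_invariant S B hm hd s p hp w
    have hinv' := (ZMod.intCast_eq_intCast_iff _ _ _).2 hinv
    constructor
    · rintro ⟨q, rfl, h2⟩
      show ((-s + cntP S w + m * lamp S B m s w : ℤ) : ZMod M) = r
      rw [← hinv', h2]
    · intro h
      have h' : ((-s + cntP S w + m * lamp S B m s w : ℤ) : ZMod M) = r := h
      exact ⟨_, rfl, by rw [hinv', h']⟩

omit [Finite α] in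
theorem lamp_false (m : ℕ) (s : ℤ) (w : List α) :
    lamp S (fun _ => False) m s w = 0 := by
  induction w with
  | nil => rfl
  | cons a w ih => simp [lamp, ih]

/-- Counting letters of `S`. -/
theorem cnt_cntP : CNT (cntP S : List α → ℤ) := by
  intro N hN
  have := cntAt_odo S (fun _ => False) (m := 1) hN (one_dvd _) (fun _ _ h => h) 0
  exact this.congr (fun w => by simp [lamp_false])

/-- Lamp counts are countable. -/
theorem cnt_lamp (hd : ∀ a, S a → ¬ B a) {m : ℕ} (hm : 0 < m) (s : ℤ) :
    CNT (lamp S B m s : List α → ℤ) := by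
  intro N hN
  refine CNTat.of_mul m hm ?_
  have hM : 0 < m * N := Nat.mul_pos hm hN
  have : NeZero (m * N) := ⟨hM.ne'⟩
  have h1 := cntAt_odo S B hM (dvd_mul_right m N) hd s
  have h2 := cnt_cntP (α := α) S (m * N) hM
  have h3 : CNTat (m * N) (fun w : List α => (m : ℤ) * lamp S B m s w) :=
    ((h1.sub h2).add (CNTat.const _ s)).congr (fun w => by ring)
  exact h3

/-- Sum over the positions of letters in `B` of a function of the count of `S` in the suffix. -/
def lampSum (h : ℤ → ℤ) : List α → ℤ
  | [] => 0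
  | a :: w => lampSum h w + if B a then h (cntP S w) else 0

omit [Finite α] in
theorem lampSum_modEq (h : ℤ → ℤ) (hper : ∀ (N : ℕ) (x y : ℤ), x ≡ y [ZMOD N] → h x ≡ h y [ZMOD N])
    {N : ℕ} (hN : 0 < N) (w : List α) :
    lampSum S B h w ≡ ∑ s ∈ Finset.range N, h s * lamp S B N s w [ZMOD N] := by
  induction w with
  | nil => simp [lampSum, lamp, Int.ModEq.refl]
  | cons a w ih =>
    simp only [lampSum, lamp, mul_add, Finset.sum_add_distrib]
    refine ih.add ?_
    by_cases hB : B a
    · simp only [hB, if_true, true_and]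
      have hN' : (0 : ℤ) < N := by exact_mod_cast hN
      set x := cntP S w with hx
      have h1 : 0 ≤ x % (N : ℤ) := Int.emod_nonneg _ hN'.ne'
      have h2 : x % (N : ℤ) < N := Int.emod_lt_of_pos _ hN'
      have hs : (x % (N : ℤ)).toNat ∈ Finset.range N := by
        rw [Finset.mem_range]; omega
      rw [Finset.sum_eq_single_of_mem _ hs]
      · have hcast : (((x % (N : ℤ)).toNat : ℕ) : ℤ) = x % (N : ℤ) := Int.toNat_of_nonneg h1
        have hd : (N : ℤ) ∣ x - (((x % (N : ℤ)).toNat : ℕ) : ℤ) := by
          rw [hcast]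
          exact Int.dvd_self_sub_emod
        rw [if_pos hd, mul_one]
        apply hper
        rw [hcast]
        exact (Int.mod_modEq _ _).symm
      · intro t ht hne
        have hnd : ¬ (N : ℤ) ∣ x - (t : ℤ) := by
          intro hd
          apply hne
          have ht' : (t : ℤ) < N := by
            have := Finset.mem_range.1 ht
            exact_mod_cast this
          have h3 : x % (N : ℤ) = (t : ℤ) := by
            have h4 : x % (N : ℤ) = (t : ℤ) % (N : ℤ) :=
              (Int.emod_eq_emod_iff_emod_sub_eq_zero).2 (Int.emod_eq_zero_of_dvd hd)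
            rw [h4, Int.emod_eq_of_lt (by positivity) ht']
          rw [h3]
          simp
        rw [if_neg hnd, mul_zero]
    · simp [hB]

/-- Sums over positions of letters in `B`, of a polynomial function of the count of `S` in the
suffix, are countable when `B` and `S` are disjoint. -/
theorem cnt_lampSum (hd : ∀ a, S a → ¬ B a) (h : ℤ → ℤ)
    (hper : ∀ (N : ℕ) (x y : ℤ), x ≡ y [ZMOD N] → h x ≡ h y [ZMOD N]) :
    CNT (lampSum S B h : List α → ℤ) := by
  intro N hN
  have : NeZero N := ⟨hN.ne'⟩
  have h1 : CNTat N (fun w : List α => ∑ s ∈ Finset.range N, h s * lamp S B N s w) :=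
    CNTat.sum _ _ (fun s _ => (CNTat.const N (h s)).mul (cnt_lamp S B hd hN s N hN))
  intro r
  refine (h1 r).of_ext (fun w => ?_)
  show ((∑ s ∈ Finset.range N, h s * lamp S B N s w : ℤ) : ZMod N) = r ↔
    ((lampSum S B h w : ℤ) : ZMod N) = r
  rw [(ZMod.intCast_eq_intCast_iff _ _ _).2 (lampSum_modEq S B h hper hN w)]

end Odometer

end Vale.Agent.Lib.P329
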