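import Vale.Agent.Lib.P329.Good

/-!
Counting extension of a good automaton.  A new digit modulo `M` counts arrivals at the base by
non-neutral letters, and the reading at the base of the letters of a set `E` of neutral letters.
-/

namespace Vale.Agent.Lib.P329

variable {α Q : Type}

section Ext

variable (δ : α → Q → Q) (z : Q) (E : α → Prop)

/-- A neutral letter acts as the identity. -/
def Neutral (a : α) : Prop := ∀ q, δ a q = q

open Classical in
/-- The increment of the new digit. -/
noncomputable def inc (a : α) (q : Q) : ℕ :=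
  if δ a q = z ∧ (¬ Neutral δ a ∨ E a) then 1 else 0

/-- The extended automaton. -/
noncomputable def extδ (M : ℕ) (a : α) (s : Q × ZMod M) : Q × ZMod M :=
  (δ a s.1, s.2 + (inc δ z E a s.1 : ℕ))

/-- The number of increments along a run. -/
noncomputable def cntL : Q → List α → ℕ
  | _, [] => 0
  | q, a :: w => inc δ z E a q + cntL (δ a q) w

variable {δ z E}

theorem runL_ext (M : ℕ) (q : Q) (e : ZMod M) (w : List α) :
    runL (extδ δ z E M) (q, e) w = (runL δ q w, e + (cntL δ z E q w : ℕ)) := by
  induction w generalizing q e with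
  | nil => simp [cntL]
  | cons a w ih =>
    simp only [runL_cons, cntL]
    show runL (extδ δ z E M) (δ a q, e + (inc δ z E a q : ℕ)) w = _
    rw [ih]
    simp [add_assoc]

theorem cntL_append (q : Q) (x y : List α) :
    cntL δ z E q (x ++ y) = cntL δ z E q x + cntL δ z E (runL δ q x) y := by
  induction x generalizing q with
  | nil => simp [cntL]
  | cons a x ih =>
    simp only [List.cons_append, cntL, runL_cons, ih]
    omega

/-- A prefix with an exact positive number of increments ends at the base. -/
theorem exists_prefix_cnt (q : Q) (w : List α) (l : ℕ) (hl : 0 < l)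
    (h : l ≤ cntL δ z E q w) :
    ∃ x y, w = x ++ y ∧ cntL δ z E q x = l ∧ runL δ q x = z := by
  induction w generalizing q l with
  | nil => simp only [cntL] at h; omega
  | cons a w ih =>
    simp only [cntL] at h
    by_cases hi : inc δ z E a q = 1
    · by_cases hl1 : l = 1
      · subst hl1
        refine ⟨[a], w, rfl, ?_, ?_⟩
        · simp [cntL, hi]
        · unfold inc at hi
          by_contra hne
          simp only [runL_cons, runL_nil] at hne
          rw [if_neg (fun hh => hne hh.1)] at hi
          omega
      · obtain ⟨x, y, rfl, h1, h2⟩ := ih (δ a q) (l - 1) (by omega) (by omega)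
        refine ⟨a :: x, y, rfl, ?_, h2⟩
        simp only [cntL, hi, h1]
        omega
    · have hi0 : inc δ z E a q = 0 := by
        unfold inc at hi ⊢
        split_ifs at hi ⊢ <;> simp_all
      obtain ⟨x, y, rfl, h1, h2⟩ := ih (δ a q) l hl (by omega)
      refine ⟨a :: x, y, rfl, ?_, h2⟩
      simp only [cntL, hi0, h1]
      omega

/-- If no increment happens and the run ends at the base, then the run stays there and only uses
neutral letters outside `E`. -/
theorem of_cnt_zero (q : Q) (w : List α) (h0 : cntL δ z E q w = 0) (hz : runL δ q w = z) :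
    q = z ∧ ∀ a ∈ w, Neutral δ a ∧ ¬ E a := by
  induction w generalizing q with
  | nil => exact ⟨hz, by simp⟩
  | cons a w ih =>
    simp only [cntL] at h0
    have h1 : inc δ z E a q = 0 := by omega
    have h2 : cntL δ z E (δ a q) w = 0 := by omega
    obtain ⟨h3, h4⟩ := ih (δ a q) h2 hz
    have h5 : Neutral δ a ∧ ¬ E a := by
      unfold inc at h1
      by_contra hcon
      rw [if_pos ⟨h3, by tauto⟩] at h1
      omega
    refine ⟨?_, ?_⟩
    · rw [← h3, h5.1 q]
    · intro b hb
      rcases List.mem_cons.1 hb with rfl | hb
      · exact h5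
      · exact h4 b hb

theorem runL_of_neutral (M : ℕ) (s : Q × ZMod M) (u : List α)
    (hu : ∀ a ∈ u, Neutral δ a ∧ ¬ E a) : runL (extδ δ z E M) s u = s := by
  induction u generalizing s with
  | nil => rfl
  | cons a u ih =>
    have h1 := hu a (by simp)
    have h2 : extδ δ z E M a s = s := by
      unfold extδ
      have : inc δ z E a s.1 = 0 := by
        unfold inc
        rw [if_neg]
        tauto
      rw [this, h1.1 s.1]
      simp
    simp only [runL_cons, h2]
    exact ih s (fun b hb => hu b (List.mem_cons_of_mem _ hb))

theorem cntL_wpow_of_fix {q : Q} {u : List α} {m : ℕ} (hq : runL δ q (wpow u m) = q) (j : ℕ) :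
    cntL δ z E q (wpow u (m * j)) = j * cntL δ z E q (wpow u m) ∧
      runL δ q (wpow u (m * j)) = q := by
  induction j with
  | zero => simp [cntL]
  | succ j ih =>
    rw [Nat.mul_succ, Nat.add_comm, wpow_add, cntL_append, runL_append, hq, ih.1, ih.2]
    refine ⟨?_, rfl⟩
    rw [Nat.succ_mul]
    omega

/-- **Counting extension**: the extension of a good automaton with injective letters is good, for
any modulus and any value of the new digit at the base. -/
theorem good_ext [Finite Q] (hG : Good δ z) (hb : ∀ a, Function.Injective (δ a)) (M : ℕ)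
    [NeZero M] (ρ : ZMod M) : Good (extδ δ z E M) (z, ρ) := by
  rintro u ⟨q, e⟩ hne hA
  obtain ⟨m, hm, hq⟩ := exists_wpow_fix hb u q
  obtain ⟨mm, rfl⟩ : ∃ mm, m = mm + 1 := ⟨m - 1, by omega⟩
  by_cases hI : cntL δ z E q (wpow u (mm + 1)) = 0
  · -- no increments along the period
    have hall : ∀ j, cntL δ z E q (wpow u ((mm + 1) * j)) = 0 := by
      intro j
      rw [(cntL_wpow_of_fix hq j).1, hI, Nat.mul_zero]
    have hpre : ∀ k x y, wpow u k = x ++ y → cntL δ z E q x = 0 := by
      intro k x y hxy
      have h1 : wpow u ((mm + 1) * k) = x ++ (y ++ wpow u (mm * k)) := by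
        rw [show (mm + 1) * k = k + mm * k by ring, wpow_add, hxy, List.append_assoc]
      have h2 := hall k
      rw [h1, cntL_append] at h2
      omega
    by_cases hqz : q = z
    · subst hqz
      have h1 := (of_cnt_zero q _ hI hq).2
      refine runL_of_neutral M _ u (fun a ha => h1 a ?_)
      rw [wpow_succ]
      exact List.mem_append_left _ ha
    · have hav : ∀ k, Avoid δ z q (wpow u k) := by
        intro k
        rcases avoid_or_hit δ z q (wpow u k) with h | ⟨y, b, v, hw, _, h2⟩
        · exact h
        · exfalso
          have h3 : wpow u k = (y ++ [b]) ++ v := by simp [hw]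
          have h4 := hpre k _ _ h3
          have h5 : runL δ q (y ++ [b]) = z := by
            rw [runL_append]
            exact h2
          exact hqz (of_cnt_zero q _ h4 h5).1
      have h1 := hG u q hqz hav
      have h2 : cntL δ z E q u = 0 := hpre 1 u [] (by simp [wpow])
      rw [runL_ext, h1, h2]
      simp
  · -- there are increments: the digit runs through all residues at the base
    exfalso
    have hMpos : 0 < M := Nat.pos_of_ne_zero (NeZero.ne M)
    obtain ⟨l, hl1, hl2, hl3⟩ : ∃ l : ℕ, 0 < l ∧ l ≤ M ∧ e + (l : ZMod M) = ρ := by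
      by_cases h0 : ρ - e = 0
      · refine ⟨M, hMpos, le_rfl, ?_⟩
        simp only [ZMod.natCast_self, add_zero]
        exact (sub_eq_zero.1 h0).symm
      · refine ⟨(ρ - e).val, Nat.pos_of_ne_zero (fun hh => h0 ((ZMod.val_eq_zero _).1 hh)),
          (ZMod.val_lt _).le, ?_⟩
        rw [ZMod.natCast_zmod_val]
        ring
    have hc := (cntL_wpow_of_fix (E := E) (z := z) hq M).1
    have hge : l ≤ cntL δ z E q (wpow u ((mm + 1) * M)) := by
      rw [hc]
      have : 1 ≤ cntL δ z E q (wpow u (mm + 1)) := Nat.pos_of_ne_zero hI
      nlinarith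
    obtain ⟨x, y, hxy, h1, h2⟩ := exists_prefix_cnt q _ l hl1 hge
    have hav := hA ((mm + 1) * M)
    rw [hxy, avoid_append] at hav
    have h3 := runL_ne_of_avoid hne hav.1
    rw [runL_ext, h1, h2, hl3] at h3
    exact h3 rfl

/-- The letters of the extension are injective. -/
theorem ext_injective (hb : ∀ a, Function.Injective (δ a)) (M : ℕ) (a : α) :
    Function.Injective (extδ δ z E M a) := by
  rintro ⟨q, e⟩ ⟨q', e'⟩ h
  simp only [extδ, Prod.mk.injEq] at h
  have h1 := hb a h.1
  subst h1
  have h2 := add_right_cancel h.2
  rw [h2]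

end Ext

end Vale.Agent.Lib.P329
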