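import Mathlib

/-!
Generalized regular expressions over an alphabet `α`, as in the generalized star-height problem:
built from `0`, `1`, letters, union, concatenation, complement in `α*`, and Kleene star.
-/

namespace Vale.Agent.Lib.P329

/-- Generalized regular expressions: `0`, `1`, a letter, union, concatenation, complement, star. -/
inductive GRE (α : Type) where
  | zero : GRE α
  | one : GRE α
  | letter : α → GRE α
  | union : GRE α → GRE α → GRE α
  | conc : GRE α → GRE α → GRE α
  | compl : GRE α → GRE α
  | star : GRE α → GRE α

namespace GRE

variable {α : Type}

/-- The star height: only the Kleene star adds one, complement adds nothing. -/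
def height : GRE α → ℕ
  | zero => 0
  | one => 0
  | letter _ => 0
  | union P Q => max P.height Q.height
  | conc P Q => max P.height Q.height
  | compl P => P.height
  | star P => P.height + 1

/-- The language denoted: `zero` is empty, `one` is the empty word, `union` is union,
`conc` is concatenation, `compl` is the complement in the set of all words, `star` is Kleene star. -/
def lang : GRE α → Language α
  | zero => 0
  | one => 1
  | letter a => {[a]}
  | union P Q => P.lang + Q.lang
  | conc P Q => P.lang * Q.lang
  | compl P => P.langᶜ
  | star P => KStar.kstar P.lang

end GRE

/-- `L` has generalized star height at most `k`: some generalized regular expression of star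
height at most `k` denotes `L`. -/
def GSH {α : Type} (k : ℕ) (L : Language α) : Prop :=
  ∃ e : GRE α, e.height ≤ k ∧ e.lang = L

end Vale.Agent.Lib.P329
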