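import Vale.Agent.Lib.P329.Monotone

/-!
Good automata: a word whose run from a non-base state never meets the base, however often the word
is repeated, must fix that state.
-/

namespace Vale.Agent.Lib.P329

variable {α Q : Type}

/-- The `k`-th power of a word. -/
def wpow (u : List α) : ℕ → List α
  | 0 => []
  | k + 1 => u ++ wpow u k

@[simp] theorem wpow_zero (u : List α) : wpow u 0 = [] := rfl

theorem wpow_succ (u : List α) (k : ℕ) : wpow u (k + 1) = u ++ wpow u k := rfl

theorem wpow_add (u : List α) (a b : ℕ) : wpow u (a + b) = wpow u a ++ wpow u b := by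
  induction a with
  | zero => simp
  | succ a ih =>
    rw [show a + 1 + b = (a + b) + 1 by omega, wpow_succ, wpow_succ, ih, List.append_assoc]

theorem wpow_mul (u : List α) (a b : ℕ) : wpow u (a * b) = wpow (wpow u a) b := by
  induction b with
  | zero => simp
  | succ b ih =>
    rw [Nat.mul_succ, Nat.add_comm, wpow_add, wpow_succ, ih]

/-- The automaton is good with base `z`. -/
def Good (δ : α → Q → Q) (z : Q) : Prop :=
  ∀ (u : List α) (q : Q), q ≠ z → (∀ k, Avoid δ z q (wpow u k)) → runL δ q u = q

theorem avoid_append {δ : α → Q → Q} {z : Q} (q : Q) (x y : List α) :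
    Avoid δ z q (x ++ y) ↔ Avoid δ z q x ∧ Avoid δ z (runL δ q x) y := by
  induction x generalizing q with
  | nil => simp [Avoid]
  | cons a x ih =>
    simp only [List.cons_append, Avoid, runL_cons, ih]
    tauto

/-- Powers of a word act as iterates. -/
theorem runL_wpow (δ : α → Q → Q) (u : List α) (q : Q) (k : ℕ) :
    runL δ q (wpow u k) = (fun s => runL δ s u)^[k] q := by
  induction k generalizing q with
  | zero => rfl
  | succ k ih =>
    rw [wpow_succ, runL_append, ih, Function.iterate_succ_apply]

/-- If all letters act injectively on a finite set of states, each word has a power fixing a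
given state. -/
theorem exists_wpow_fix [Finite Q] {δ : α → Q → Q} (hb : ∀ a, Function.Injective (δ a))
    (u : List α) (q : Q) : ∃ m, 0 < m ∧ runL δ q (wpow u m) = q := by
  have hinj : Function.Injective (fun s => runL δ s u) := by
    induction u with
    | nil => exact fun _ _ h => h
    | cons a u ih => exact fun x y h => hb a (ih h)
  have hbij := Finite.injective_iff_bijective.1 hinj
  let σ : Equiv.Perm Q := Equiv.ofBijective _ hbij
  refine ⟨orderOf σ, orderOf_pos σ, ?_⟩
  rw [runL_wpow]
  have h1 : (⇑σ)^[orderOf σ] q = (σ ^ orderOf σ) q := by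
    rw [Equiv.Perm.iterate_eq_pow]
  have h2 : (fun s => runL δ s u) = ⇑σ := rfl
  rw [h2, h1, pow_orderOf_eq_one]
  rfl

end Vale.Agent.Lib.P329
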