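import Vale.Agent.Lib.P329.PartialAct

/-!
All runs of a good automaton have generalized star height at most one: the words avoiding the base
are star-free by the theorem on partial actions, the words from the base to the base are a star of
first returns.
-/

namespace Vale.Agent.Lib.P329

variable {α Q : Type}

open Classical in
/-- The partial action of the letters on the non-base states. -/
noncomputable def tGood (δ : α → Q → Q) (z : Q) (a : α) (q : {q : Q // q ≠ z}) :
    Option {q : Q // q ≠ z} :=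
  if h : δ a q.1 = z then none else some ⟨δ a q.1, h⟩

theorem prun_tGood_some (δ : α → Q → Q) (z : Q) (w : List α) (q r : {q : Q // q ≠ z}) :
    prun (tGood δ z) q w = some r ↔ Avoid δ z q.1 w ∧ runL δ q.1 w = r.1 := by
  induction w generalizing q with
  | nil =>
    simp only [prun, Option.some.injEq, Avoid, runL_nil, true_and]
    exact ⟨fun h => by rw [h], fun h => Subtype.ext h⟩
  | cons a w ih =>
    simp only [prun, tGood, Avoid, runL_cons]
    by_cases h : δ a q.1 = z
    · simp [h]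
    · simp only [h, dif_neg, not_false_eq_true, Option.bind_some, ih, ne_eq, true_and]

theorem prun_tGood_none (δ : α → Q → Q) (z : Q) (w : List α) (q : {q : Q // q ≠ z}) :
    prun (tGood δ z) q w = none ↔ ¬ Avoid δ z q.1 w := by
  induction w generalizing q with
  | nil => simp [prun, Avoid]
  | cons a w ih =>
    simp only [prun, tGood, Avoid]
    by_cases h : δ a q.1 = z
    · simp [h]
    · simp only [h, dif_neg, not_false_eq_true, Option.bind_some, ih, ne_eq, true_and]

theorem ap_tGood {δ : α → Q → Q} {z : Q} (hG : Good δ z) : Ap (tGood δ z) := by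
  intro u p h
  have h1 : ∀ k, Avoid δ z p.1 (wpow u k) := by
    intro k
    by_contra hk
    exact h k ((prun_tGood_none δ z _ p).2 hk)
  have h2 := hG u p.1 p.2 h1
  exact (prun_tGood_some δ z u p p).2 ⟨by simpa [wpow] using h1 1, h2⟩

variable [Finite α] [Finite Q]

/-- The words avoiding the base are star-free. -/
theorem gsh_avoid_good {δ : α → Q → Q} {z : Q} (hG : Good δ z) (r q : Q) (hq : q ≠ z) :
    GSH 0 {w | Avoid δ z q w ∧ runL δ q w = r} := by
  classical
  by_cases hr : r = z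
  · refine (GSH.bot 0).of_ext (fun w => ?_)
    constructor
    · intro h0
      exact absurd h0 (Language.notMem_zero w)
    · rintro ⟨h1, h2⟩
      exact absurd (h2.trans hr) (runL_ne_of_avoid hq h1)
  · cases nonempty_fintype α
    have h := gsh_prun (α := α) (P := {q : Q // q ≠ z}) (Nat.card {q : Q // q ≠ z}) (tGood δ z)
      le_rfl (ap_tGood hG) Finset.univ ⟨q, hq⟩ ⟨r, hr⟩
    refine h.of_ext (fun w => ?_)
    constructor
    · rintro ⟨-, h2⟩
      exact (prun_tGood_some δ z w ⟨q, hq⟩ ⟨r, hr⟩).1 h2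
    · intro h2
      exact ⟨by simp, (prun_tGood_some δ z w ⟨q, hq⟩ ⟨r, hr⟩).2 h2⟩

section Runs

variable {δ : α → Q → Q} {z : Q} (hA : ∀ r q, q ≠ z → GSH 0 {w | Avoid δ z q w ∧ runL δ q w = r})

include hA

theorem gsh_firstRet_of : GSH 0 {w | FirstRet δ z w} := by
  classical
  have h1 : GSH 0 {w : List α | ∃ a : {a : α // δ a z = z}, w = [a.1]} :=
    GSH.exists (fun a => GSH.letter 0 a.1)
  have h2 : GSH 0 {w : List α | ∃ a : {a : α // δ a z ≠ z}, ∃ y,
      (∃ r : {r : Q // r ≠ z}, ∃ y1 y2, (Avoid δ z (δ a.1 z) y1 ∧ runL δ (δ a.1 z) y1 = r.1) ∧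
        (∃ b : {b : α // δ b r.1 = z}, y2 = [b.1]) ∧ y = y1 ++ y2) ∧ w = a.1 :: y} := by
    refine GSH.exists (fun a => GSH.cons_letter a.1 (GSH.exists (fun r => ?_)))
    exact (hA r.1 _ a.2).conc (GSH.exists (fun b => GSH.letter 0 b.1))
  refine (h1.or h2).of_ext (fun w => ?_)
  constructor
  · rintro (⟨⟨a, ha⟩, rfl⟩ | ⟨⟨a, ha⟩, y, ⟨⟨r, hr⟩, y1, y2, ⟨h3, h4⟩, ⟨⟨b, hb⟩, rfl⟩, rfl⟩, rfl⟩)
    · exact ⟨a, [], rfl, Or.inl ⟨ha, rfl⟩⟩
    · refine ⟨a, _, rfl, Or.inr ⟨ha, y1, b, rfl, h3, ?_⟩⟩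
      rw [h4]; exact hb
  · rintro ⟨a, y, rfl, ⟨h3, rfl⟩ | ⟨h3, y', b, rfl, h4, h5⟩⟩
    · exact Or.inl ⟨⟨a, h3⟩, rfl⟩
    · refine Or.inr ⟨⟨a, h3⟩, _, ⟨⟨_, runL_ne_of_avoid h3 h4⟩, y', [b], ⟨h4, rfl⟩, ⟨⟨b, h5⟩, rfl⟩,
        rfl⟩, rfl⟩

theorem gsh_base_of : GSH 1 {w | runL δ z w = z} := by
  refine (GSH.kstar (gsh_firstRet_of hA)).of_ext (fun w => ?_)
  constructor
  · rintro ⟨S, rfl, hS⟩
    show runL δ z S.flatten = z
    induction S with
    | nil => rfl
    | cons y S ih =>
      rw [List.flatten_cons, runL_append, runL_of_firstRet (hS y (by simp))]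
      exact ih (fun t ht => hS t (List.mem_cons_of_mem _ ht))
  · intro hw
    exact exists_flatten_of_runL δ z _ w le_rfl hw

theorem gsh_from_base_of (q : Q) : GSH 1 {w | runL δ z w = q} := by
  classical
  by_cases hq : q = z
  · subst hq; exact gsh_base_of hA
  · have hS : GSH 1 {w : List α | ∃ a : {a : α // δ a z ≠ z}, ∃ y,
        (Avoid δ z (δ a.1 z) y ∧ runL δ (δ a.1 z) y = q) ∧ w = a.1 :: y} :=
      GSH.exists (fun a => GSH.cons_letter a.1 ((hA q _ a.2).mono (Nat.zero_le _)))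
    refine ((gsh_base_of hA).conc hS).of_ext (fun w => ?_)
    constructor
    · rintro ⟨x, y, h1, ⟨⟨a, ha⟩, y', ⟨h2, h3⟩, rfl⟩, rfl⟩
      show runL δ z (x ++ a :: y') = q
      have h1' : runL δ z x = z := h1
      rw [runL_append, h1']
      exact h3
    · intro hw
      obtain ⟨u, a, y, rfl, h1, h2, h3, h4⟩ := exists_lastExit δ z q hq _ w le_rfl hw
      exact ⟨u, a :: y, h1, ⟨⟨a, h2⟩, y, ⟨h3, h4⟩, rfl⟩, rfl⟩

theorem gsh_runL_of (p q : Q) : GSH 1 {w | runL δ p w = q} := by
  classical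
  by_cases hp : p = z
  · subst hp; exact gsh_from_base_of hA q
  · have h1 : GSH 1 {w : List α | Avoid δ z p w ∧ runL δ p w = q} :=
      (hA q p hp).mono (Nat.zero_le _)
    have h2 : GSH 1 {w : List α | ∃ r : Q, ∃ x y, (Avoid δ z p x ∧ runL δ p x = r) ∧
        (∃ b : {b : α // δ b r = z}, ∃ v, runL δ z v = q ∧ y = b.1 :: v) ∧ w = x ++ y} := by
      refine GSH.exists (fun r => ?_)
      refine ((hA r p hp).mono (Nat.zero_le _)).conc
        (GSH.exists (fun b => GSH.cons_letter b.1 (gsh_from_base_of hA q)))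
    refine (h1.or h2).of_ext (fun w => ?_)
    constructor
    · rintro (⟨_, h3⟩ | ⟨r, x, y, ⟨_, h4⟩, ⟨⟨b, hb⟩, v, h5, rfl⟩, rfl⟩)
      · exact h3
      · show runL δ p (x ++ b :: v) = q
        rw [runL_append, runL_cons, h4, hb]
        exact h5
    · intro hw
      have hw' : runL δ p w = q := hw
      rcases avoid_or_hit δ z p w with h3 | ⟨y, b, v, rfl, h3, h4⟩
      · exact Or.inl ⟨h3, hw'⟩
      · refine Or.inr ⟨_, y, b :: v, ⟨h3, rfl⟩, ⟨⟨b, h4⟩, v, ?_, rfl⟩, rfl⟩
        rw [runL_append, runL_cons, h4] at hw'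
        exact hw'

end Runs

/-- All runs of a good automaton have generalized star height at most one. -/
theorem gsh_runL_good {δ : α → Q → Q} {z : Q} (hG : Good δ z) (p q : Q) :
    GSH 1 {w | runL δ p w = q} :=
  gsh_runL_of (fun r q hq => gsh_avoid_good hG r q hq) p q

/-- The same for the run reading the word from the right. -/
theorem gsh_foldr_good {δ : α → Q → Q} {z : Q} (hG : Good δ z) (p q : Q) :
    GSH 1 {w : List α | w.foldr δ p = q} := by
  refine (gsh_runL_good hG p q).reverse.of_ext (fun w => ?_)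
  refine Language.mem_reverse.trans ?_
  show runL δ p w.reverse = q ↔ w.foldr δ p = q
  rw [runL_eq_foldl, List.foldl_reverse]

end Vale.Agent.Lib.P329
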