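import Vale.Agent.Lib.P329.Marks

/-!
Levels in `ZMod p`, `p` prime.  Every letter has a shift, the level of a position is the sum of the
shifts of the letters before it.  The number of occurrences of a letter at a given level is
countable.  For a letter with nonzero shift this uses the pairs of consecutive moving letters: the
automaton with all arrivals at a level `t` marked, except those by `y` preceded by a given letter
different from `y`, is aperiodic, since `p` is prime.
-/

namespace Vale.Agent.Lib.P329

open Classical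

variable {α Q : Type} {p : ℕ}

theorem not_mark_of_alive {δ : α → Q → Q} {M : α → Q → Prop} {q : Q} {u y y' : List α} {x : α}
    (hu : ∀ k, mcnt δ M q (wpow u k) = 0) (hs : u = y ++ x :: y') (k : ℕ) :
    ¬ M x (runL δ q (wpow u k ++ y)) := by
  intro hM
  have h1 := hu (k + 1)
  have h2 : wpow u (k + 1) = (wpow u k ++ y) ++ x :: y' := by
    have h3 : wpow u 1 = u := by simp [wpow]
    calc wpow u (k + 1) = wpow u k ++ wpow u 1 := wpow_add u k 1
      _ = wpow u k ++ u := by rw [h3]
      _ = wpow u k ++ (y ++ x :: y') := congrArg (wpow u k ++ ·) hs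
      _ = _ := by simp
  rw [h2, mcnt_append, mcnt_cons] at h1
  simp [hM] at h1

theorem mem_of_mem_wpow {u : List α} {k : ℕ} {x : α} (h : x ∈ wpow u k) : x ∈ u := by
  induction k with
  | zero => simp at h
  | succ k ih =>
    rw [wpow_succ, List.mem_append] at h
    rcases h with h | h
    · exact h
    · exact ih h

section Level

variable (s : α → ZMod p)

/-- Plain automaton: the level and the last moving letter. -/
noncomputable def pδ (x : α) (q : ZMod p × Option α) : ZMod p × Option α :=
  if s x = 0 then q else (q.1 + s x, some x)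

/-- The automaton with the last letter forgotten at the level `t`. -/
noncomputable def dδ (t : ZMod p) (x : α) (q : ZMod p × Option α) : ZMod p × Option α :=
  if s x = 0 then q else (q.1 + s x, if q.1 + s x = t then none else some x)

/-- Total shift of a word. -/
def lvl (w : List α) : ZMod p := (w.map s).sum

theorem lvl_append (x y : List α) : lvl s (x ++ y) = lvl s x + lvl s y := by
  simp [lvl]

theorem lvl_cons (a : α) (y : List α) : lvl s (a :: y) = s a + lvl s y := by
  simp [lvl]

theorem lvl_wpow (u : List α) (k : ℕ) : lvl s (wpow u k) = (k : ZMod p) * lvl s u := by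
  induction k with
  | zero => simp [lvl]
  | succ k ih =>
    rw [wpow_succ, lvl_append, ih]
    push_cast
    ring

variable (t : ZMod p)

theorem dδ_fst (x : α) (q : ZMod p × Option α) : (dδ s t x q).1 = q.1 + s x := by
  unfold dδ
  by_cases h : s x = 0
  · simp [h]
  · rw [if_neg h]

theorem run_fst (q : ZMod p × Option α) (w : List α) :
    (runL (dδ s t) q w).1 = q.1 + lvl s w := by
  induction w generalizing q with
  | nil => simp [lvl]
  | cons a w ih =>
    rw [runL_cons, ih, dδ_fst, lvl_cons]
    ring

theorem run_of_neutral (q : ZMod p × Option α) (u : List α) (h : ∀ x ∈ u, s x = 0) :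
    runL (dδ s t) q u = q := by
  induction u generalizing q with
  | nil => rfl
  | cons a u ih =>
    have h1 : dδ s t a q = q := by
      unfold dδ
      rw [if_pos (h a (by simp))]
    rw [runL_cons, h1]
    exact ih q (fun x hx => h x (List.mem_cons_of_mem _ hx))

theorem run_eq_of_moving {q q' : ZMod p × Option α} (hq : q.1 = q'.1) (u : List α)
    (h : ∃ x ∈ u, s x ≠ 0) : runL (dδ s t) q u = runL (dδ s t) q' u := by
  induction u generalizing q q' with
  | nil =>
    obtain ⟨x, hx, _⟩ := h
    simp at hx
  | cons a u ih =>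
    rw [runL_cons, runL_cons]
    by_cases ha : s a = 0
    · have h1 : ∀ r, dδ s t a r = r := fun r => by
        unfold dδ
        rw [if_pos ha]
      rw [h1, h1]
      apply ih hq
      obtain ⟨x, hx, hx2⟩ := h
      rcases List.mem_cons.1 hx with rfl | hx
      · exact absurd ha hx2
      · exact ⟨x, hx, hx2⟩
    · have h1 : dδ s t a q = dδ s t a q' := by
        unfold dδ
        rw [if_neg ha, if_neg ha, hq]
      rw [h1]

/-- A word of total shift zero is stable after one round. -/
theorem run_stable (q : ZMod p × Option α) (u : List α) (h0 : lvl s u = 0) :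
    runL (dδ s t) (runL (dδ s t) q u) u = runL (dδ s t) q u := by
  by_cases h : ∃ x ∈ u, s x ≠ 0
  · apply run_eq_of_moving s t _ u h
    rw [run_fst, h0, add_zero]
  · have h' : ∀ x ∈ u, s x = 0 := fun x hx => by_contra (fun hne => h ⟨x, hx, hne⟩)
    rw [run_of_neutral s t q u h', run_of_neutral s t q u h']

theorem exists_moving {u : List α} (h : lvl s u ≠ 0) :
    ∃ y x y', u = y ++ x :: y' ∧ s x ≠ 0 := by
  induction u with
  | nil => simp [lvl] at h
  | cons a u ih =>
    by_cases ha : s a = 0
    · rw [lvl_cons, ha, zero_add] at h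
      obtain ⟨y, x, y', rfl, hx⟩ := ih h
      exact ⟨a :: y, x, y', rfl, hx⟩
    · exact ⟨[], a, u, rfl, ha⟩

theorem hit [Fact p.Prime] {σ : ZMod p} (h : σ ≠ 0) (c : ZMod p) :
    ∃ k : ℕ, 1 ≤ k ∧ (k : ZMod p) * σ = c := by
  refine ⟨(c / σ).val + p, ?_, ?_⟩
  · have := (Fact.out : p.Prime).pos
    omega
  · push_cast
    rw [ZMod.natCast_val, ZMod.cast_id', id, CharP.cast_eq_zero, add_zero]
    field_simp

/-- All arrivals at `t`. -/
def Mall (x : α) (q : ZMod p × Option α) : Prop := s x ≠ 0 ∧ q.1 + s x = t

/-- All arrivals at `t`, except those by `y` with previous letter `b`. -/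
def Mbad (y : α) (b : Option α) (x : α) (q : ZMod p × Option α) : Prop :=
  Mall s t x q ∧ ¬ (x = y ∧ q.2 = b)

/-- All arrivals at `t`, and the reading of a letter `a` at the base. -/
def Mneu (a : α) (x : α) (q : ZMod p × Option α) : Prop :=
  Mall s t x q ∨ (x = a ∧ q = (t, none))

theorem Mall_base (x : α) (q : ZMod p × Option α) (h : Mall s t x q) :
    dδ s t x q = (t, none) := by
  unfold dδ
  rw [if_neg h.1, if_pos h.2, h.2]

theorem Mneu_base {a : α} (ha : s a = 0) (x : α) (q : ZMod p × Option α) (h : Mneu s t a x q) :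
    dδ s t x q = (t, none) := by
  rcases h with h | ⟨rfl, rfl⟩
  · exact Mall_base s t x q h
  · unfold dδ
    rw [if_pos ha]

theorem ap_Mall [Fact p.Prime] : Ap' (tMark (dδ s t) (Mall s t)) := by
  refine ap'_tMark (fun u q hu => ⟨1, ?_⟩)
  have h0 : lvl s u = 0 := by
    by_contra hne
    obtain ⟨y, x, y', hs, hx⟩ := exists_moving s hne
    obtain ⟨k, _, hk⟩ := hit hne (t - s x - q.1 - lvl s y)
    apply not_mark_of_alive hu hs k
    refine ⟨hx, ?_⟩
    rw [run_fst, lvl_append, lvl_wpow]
    linear_combination hk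
  have h1 : wpow u (1 + 1) = u ++ (u ++ []) := rfl
  have h2 : wpow u 1 = u ++ [] := rfl
  rw [h1, h2, runL_append, runL_append, List.append_nil]
  exact run_stable s t q u h0

theorem last_letter_aux {y : α} (v : List α) (hv : ∀ x ∈ v, s x ≠ 0 → x = y)
    (q : ZMod p × Option α) (hq : q.1 ≠ t → q.2 = some y) :
    (runL (dδ s t) q v).1 ≠ t → (runL (dδ s t) q v).2 = some y := by
  induction v generalizing q with
  | nil => exact hq
  | cons a v ih =>
    rw [runL_cons]
    apply ih (fun x hx => hv x (List.mem_cons_of_mem _ hx))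
    by_cases ha : s a = 0
    · have h1 : dδ s t a q = q := by
        unfold dδ
        rw [if_pos ha]
      rw [h1]
      exact hq
    · have h1 := hv a (by simp) ha
      subst h1
      intro h2
      rw [dδ_fst] at h2
      unfold dδ
      rw [if_neg ha]
      simp [h2]

theorem last_letter {y : α} (v : List α) (hv : ∀ x ∈ v, s x ≠ 0 → x = y) (hv2 : ∃ x ∈ v, s x ≠ 0)
    (q : ZMod p × Option α) :
    (runL (dδ s t) q v).1 ≠ t → (runL (dδ s t) q v).2 = some y := by
  induction v generalizing q with
  | nil =>
    obtain ⟨x, hx, _⟩ := hv2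
    simp at hx
  | cons a v ih =>
    rw [runL_cons]
    by_cases ha : s a = 0
    · apply ih (fun x hx => hv x (List.mem_cons_of_mem _ hx))
      obtain ⟨x, hx, hx2⟩ := hv2
      rcases List.mem_cons.1 hx with rfl | hx
      · exact absurd ha hx2
      · exact ⟨x, hx, hx2⟩
    · apply last_letter_aux s t v (fun x hx => hv x (List.mem_cons_of_mem _ hx))
      have h1 := hv a (by simp) ha
      subst h1
      intro h2
      rw [dδ_fst] at h2
      unfold dδ
      rw [if_neg ha]
      simp [h2]

/-- The key aperiodicity. -/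
theorem ap_Mbad [Fact p.Prime] {y : α} (hy : s y ≠ 0) {b : Option α} (hb : b ≠ some y) :
    Ap' (tMark (dδ s t) (Mbad s t y b)) := by
  refine ap'_tMark (fun u q hu => ⟨1, ?_⟩)
  have h0 : lvl s u = 0 := by
    by_contra hne
    -- an arrival by the letter at any position
    have harr : ∀ (y₁ : List α) (x : α) (y₂ : List α), u = y₁ ++ x :: y₂ → s x ≠ 0 →
        ∃ k, 1 ≤ k ∧ x = y ∧ (runL (dδ s t) q (wpow u k ++ y₁)).2 = b ∧
          (runL (dδ s t) q (wpow u k ++ y₁)).1 + s x = t := by
      intro y₁ x y₂ hs hx
      obtain ⟨k, hk1, hk⟩ := hit hne (t - s x - q.1 - lvl s y₁)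
      refine ⟨k, hk1, ?_⟩
      have h1 := not_mark_of_alive hu hs k
      have h2 : (runL (dδ s t) q (wpow u k ++ y₁)).1 + s x = t := by
        rw [run_fst, lvl_append, lvl_wpow]
        linear_combination hk
      have h3 : x = y ∧ (runL (dδ s t) q (wpow u k ++ y₁)).2 = b := by
        by_contra h4
        exact h1 ⟨⟨hx, h2⟩, h4⟩
      exact ⟨h3.1, h3.2, h2⟩
    have hall : ∀ x ∈ u, s x ≠ 0 → x = y := by
      intro x hx hx2
      obtain ⟨y₁, y₂, hs⟩ := List.append_of_mem hx
      obtain ⟨k, _, h1, _⟩ := harr y₁ x y₂ hs hx2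
      exact h1
    obtain ⟨y₁, x, y₂, hs, hx⟩ := exists_moving s hne
    obtain ⟨k, hk1, h1, h2, h3⟩ := harr y₁ x y₂ hs hx
    subst h1
    have hv : ∀ c ∈ wpow u k ++ y₁, s c ≠ 0 → c = x := by
      intro c hc hc2
      rcases List.mem_append.1 hc with hc | hc
      · exact hall c (mem_of_mem_wpow hc) hc2
      · exact hall c (by rw [hs]; exact List.mem_append_left _ hc) hc2
    have hv2 : ∃ c ∈ wpow u k ++ y₁, s c ≠ 0 := by
      refine ⟨x, ?_, hx⟩
      obtain ⟨k', rfl⟩ : ∃ k', k = k' + 1 := ⟨k - 1, by omega⟩
      rw [wpow_succ, List.append_assoc]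
      apply List.mem_append_left
      rw [hs]
      simp
    have h4 := last_letter s t (wpow u k ++ y₁) hv hv2 q (by
      intro h5
      rw [h5] at h3
      exact hx (by linear_combination h3))
    rw [h2] at h4
    exact hb h4
  have h1 : wpow u (1 + 1) = u ++ (u ++ []) := rfl
  have h2 : wpow u 1 = u ++ [] := rfl
  rw [h1, h2, runL_append, runL_append, List.append_nil]
  exact run_stable s t q u h0

/-- Relation between the automaton with forgetting and the plain one. -/
def RelD (qd qp : ZMod p × Option α) : Prop := qd.1 = qp.1 ∧ (qd.1 ≠ t → qd.2 = qp.2)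

theorem relD_step (x : α) {qd qp : ZMod p × Option α} (h : RelD t qd qp) :
    RelD t (dδ s t x qd) (pδ s x qp) := by
  unfold dδ pδ
  by_cases hx : s x = 0
  · rw [if_pos hx, if_pos hx]
    exact h
  · rw [if_neg hx, if_neg hx]
    refine ⟨by simp [h.1], ?_⟩
    intro h2
    simp only at h2 ⊢
    rw [if_neg h2]

theorem relD_run (w : List α) {qd qp : ZMod p × Option α} (h : RelD t qd qp) :
    RelD t (runL (dδ s t) qd w) (runL (pδ s) qp w) := by
  induction w generalizing qd qp with
  | nil => exact h
  | cons a w ih => exact ih (relD_step s t a h)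

theorem relD_start (t : ZMod p) : RelD t ((0, none) : ZMod p × Option α) (0, none) :=
  ⟨rfl, fun _ => rfl⟩

/-- Weight of the pair: the letter `y` read at the level `h`, with previous moving letter `b`. -/
noncomputable def pw (h : ZMod p) (b : Option α) (y x : α) (q : ZMod p × Option α) : ℤ :=
  if s x ≠ 0 ∧ x = y ∧ q.2 = b ∧ q.1 = h then 1 else 0

/-- Number of pairs. -/
noncomputable def pc (h : ZMod p) (b : Option α) (y : α) (w : List α) : ℤ :=
  eSum (pδ s) (pw s h b y) (0, none) w

theorem pc_eq_mcnt (h : ZMod p) (b : Option α) (y : α) (hy : s y ≠ 0) (w : List α) :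
    pc s h b y w = (mcnt (dδ s (h + s y)) (Mall s (h + s y)) (0, none) w : ℤ) -
      (mcnt (dδ s (h + s y)) (Mbad s (h + s y) y b) (0, none) w : ℤ) := by
  rw [mcnt_eq_eSum, mcnt_eq_eSum, ← eSum_sub]
  symm
  refine eSum_eq_of_rel (RelD (h + s y)) (fun a q q' hq => relD_step s _ a hq) ?_
    (relD_start _) w
  intro x qd qp hq
  unfold pw
  by_cases hall : Mall s (h + s y) x qd
  · by_cases hxy : x = y ∧ qd.2 = b
    · have hbad : ¬ Mbad s (h + s y) y b x qd := fun hh => hh.2 hxy
      rw [if_pos hall, if_neg hbad, if_pos]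
      · simp
      · obtain ⟨rfl, h2⟩ := hxy
        have h3 : qd.1 = h := by
          have := hall.2
          exact add_right_cancel this
        refine ⟨hall.1, rfl, ?_, by rw [← hq.1]; exact h3⟩
        rw [← hq.2 ?_, h2]
        rw [h3]
        intro h4
        exact hy (by linear_combination -h4)
    · have hbad : Mbad s (h + s y) y b x qd := ⟨hall, hxy⟩
      rw [if_pos hall, if_pos hbad, if_neg]
      · simp
      · rintro ⟨_, rfl, h2, h3⟩
        apply hxy
        refine ⟨rfl, ?_⟩
        rw [hq.2 ?_, h2]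
        rw [hq.1, h3]
        intro h4
        exact hy (by linear_combination -h4)
  · have hbad : ¬ Mbad s (h + s y) y b x qd := fun hh => hall hh.1
    rw [if_neg hall, if_neg hbad, if_neg]
    · simp
    · rintro ⟨h1, rfl, h2, h3⟩
      exact hall ⟨h1, by rw [hq.1, h3]⟩

theorem pc_of_neutral (h : ZMod p) (b : Option α) (y : α) (hy : s y = 0) (w : List α) :
    pc s h b y w = 0 := by
  have key : ∀ (w : List α) (q : ZMod p × Option α), eSum (pδ s) (pw s h b y) q w = 0 := by
    intro w
    induction w with
    | nil => simp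
    | cons a w ih =>
      intro q
      rw [eSum_cons, ih]
      unfold pw
      rw [if_neg]
      · simp
      · rintro ⟨h1, rfl, _⟩
        exact h1 hy
  exact key w _

variable [Finite α] [Fact p.Prime]

theorem cnt_pc (h : ZMod p) (b : Option α) (y : α) (hb : b ≠ some y) : CNT (pc s h b y) := by
  by_cases hy : s y = 0
  · exact (CNT.const 0).congr (fun w => (pc_of_neutral s h b y hy w).symm)
  · have hM : ∀ (x : α) (q : ZMod p × Option α), Mall s (h + s y) x q →
        dδ s (h + s y) x q = (h + s y, none) := fun x q hh => Mall_base s _ x q hh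
    have hM2 : ∀ (x : α) (q : ZMod p × Option α), Mbad s (h + s y) y b x q →
        dδ s (h + s y) x q = (h + s y, none) := fun x q hh => Mall_base s _ x q hh.1
    have h1 := cnt_mcnt (ap_Mall s (h + s y)) hM (0, none)
    have h2 := cnt_mcnt (ap_Mbad s (h + s y) hy hb) hM2 (0, none)
    exact (h1.sub h2).congr (fun w => (pc_eq_mcnt s h b y hy w).symm)

/-- Weight of the letter `a` at the level `τ`. -/
noncomputable def ew (a : α) (τ : ZMod p) (x : α) (q : ZMod p × Option α) : ℤ :=
  if x = a ∧ q.1 = τ then 1 else 0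

/-- Number of occurrences of the letter `a` at the level `τ`. -/
noncomputable def EL (a : α) (τ : ZMod p) (w : List α) : ℤ :=
  eSum (pδ s) (ew a τ) (0, none) w

omit [Finite α] [Fact p.Prime] in
theorem sum_eq_add_sum_ite {ι : Type} [Fintype ι] (f : ι → ℤ) (i₀ : ι) :
    ∑ i, f i = f i₀ + ∑ i, (if i = i₀ then 0 else f i) := by
  have h1 : ∀ i, f i = (if i = i₀ then f i₀ else 0) + (if i = i₀ then 0 else f i) := by
    intro i
    by_cases h : i = i₀
    · simp [h]
    · simp [h]
  calc ∑ i, f i = ∑ i, ((if i = i₀ then f i₀ else 0) + (if i = i₀ then 0 else f i)) :=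
        Finset.sum_congr rfl (fun i _ => h1 i)
    _ = _ := by
      rw [Finset.sum_add_distrib]
      simp

omit [Finite α] [Fact p.Prime] in
theorem sum_ite_and {ι : Type} [Fintype ι] (i₀ : ι) (P : Prop) [∀ i, Decidable (i₀ = i ∧ P)]
    [Decidable P] : ∑ i, (if i₀ = i ∧ P then (1 : ℤ) else 0) = if P then 1 else 0 := by
  by_cases hP : P
  · simp [hP]
  · simp [hP]

theorem EL_eq_sum_prev [Fintype α] (a : α) (ha : s a ≠ 0) (h : ZMod p) (w : List α) :
    EL s a h w = ∑ b : Option α, pc s h b a w := by
  unfold EL pc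
  rw [← eSum_sum]
  refine eSum_congr _ (fun x q => ?_) _ _
  unfold ew pw
  by_cases hx : x = a
  · subst hx
    simp only [ne_eq, ha, not_false_eq_true, true_and]
    rw [sum_ite_and]
  · simp [hx]

/-- Last letter is `a`, read at the level `τ`. -/
noncomputable def lastw (a : α) (h : ZMod p) (q : ZMod p × Option α) : ℤ :=
  if q.2 = some a ∧ q.1 = h then 1 else 0

theorem EL_eq_sum_next [Fintype α] (a : α) (ha : s a ≠ 0) (τ : ZMod p) (w : List α) :
    EL s a τ w = ∑ y : α, pc s (τ + s a) (some a) y w +
      lastw a (τ + s a) (runL (pδ s) (0, none) w) := by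
  have h0 := eSum_pot (δ := pδ s) (g := ew a τ)
    (g' := fun x q => ∑ y : α, pw s (τ + s a) (some a) y x q)
    (lastw a (τ + s a)) ?_ (0, none) w
  · unfold EL pc
    rw [h0, eSum_sum]
    simp [lastw]
  · intro x q
    unfold ew pw pδ lastw
    by_cases hx : s x = 0
    · have hxa : x ≠ a := fun e => ha (e ▸ hx)
      simp [hx, hxa]
    · simp only [hx, if_false, ne_eq, not_false_eq_true, true_and, Option.some.injEq]
      rw [sum_ite_and]
      by_cases hxa : x = a
      · subst hxa
        by_cases hq : q.1 = τ <;> simp [hq]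
      · simp [hxa]

theorem cnt_lastw (a : α) (ha : s a ≠ 0) (τ : ZMod p) :
    CNT (fun w => lastw a (τ + s a) (runL (pδ s) (0, none) w)) := by
  have h1 := cnt_state (ap_Mall s τ) (fun x q hh => Mall_base s τ x q hh) (0, none)
    (lastw a (τ + s a))
  refine h1.congr (fun w => ?_)
  have h2 := relD_run s τ w (relD_start (α := α) τ)
  unfold lastw
  by_cases h3 : (runL (pδ s) (0, none) w).1 = τ + s a
  · have h4 : (runL (dδ s τ) (0, none) w).1 ≠ τ := by
      rw [h2.1, h3]
      intro h5
      exact ha (by linear_combination h5)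
    rw [h2.2 h4, h2.1, h3]
  · rw [h2.1]
    simp [h3]

/-- The occurrences at two levels differing by the shift of the letter. -/
theorem cnt_EL_step (a : α) (ha : s a ≠ 0) (τ : ZMod p) :
    CNT (fun w => EL s a (τ + s a) w - EL s a τ w) := by
  cases nonempty_fintype α
  have h1 : CNT (fun w => ∑ b : Option α, (if b = some a then 0 else pc s (τ + s a) b a w)) :=
    CNT.sum _ _ (fun b _ => by
      by_cases hb : b = some a
      · simp only [hb, if_true]
        exact CNT.const 0
      · simp only [hb, if_false]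
        exact cnt_pc s _ b a hb)
  have h2 : CNT (fun w => ∑ y : α, (if y = a then 0 else pc s (τ + s a) (some a) y w)) :=
    CNT.sum _ _ (fun y _ => by
      by_cases hy : y = a
      · simp only [hy, if_true]
        exact CNT.const 0
      · simp only [hy, if_false]
        exact cnt_pc s _ (some a) y (fun e => hy (Option.some.inj e).symm))
  refine ((h1.sub h2).sub (cnt_lastw s a ha τ)).congr (fun w => ?_)
  rw [EL_eq_sum_prev s a ha, EL_eq_sum_next s a ha,
    sum_eq_add_sum_ite (fun b : Option α => pc s (τ + s a) b a w) (some a),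
    sum_eq_add_sum_ite (fun y : α => pc s (τ + s a) (some a) y w) a]
  ring_nf

theorem cnt_EL_diff (a : α) (ha : s a ≠ 0) (τ t : ZMod p) :
    CNT (fun w => EL s a t w - EL s a τ w) := by
  have h1 : ∀ k : ℕ, CNT (fun w => EL s a (τ + (k : ZMod p) * s a) w - EL s a τ w) := by
    intro k
    induction k with
    | zero =>
      refine (CNT.const 0).congr (fun w => ?_)
      simp
    | succ k ih =>
      refine ((cnt_EL_step s a ha (τ + (k : ZMod p) * s a)).add ih).congr (fun w => ?_)
      have e : τ + (k : ZMod p) * s a + s a = τ + ((k + 1 : ℕ) : ZMod p) * s a := by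
        push_cast
        ring
      rw [e]
      ring
  obtain ⟨k, _, hk⟩ := hit ha (t - τ)
  refine (h1 k).congr (fun w => ?_)
  rw [hk]
  simp

/-- Number of occurrences of a letter. -/
theorem EL_sum [Fintype α] (a : α) (w : List α) :
    ∑ τ : ZMod p, EL s a τ w = cntP (fun x => x = a) w := by
  have h0 : ∀ (w : List α) (q : ZMod p × Option α),
      ∑ τ : ZMod p, eSum (pδ s) (ew a τ) q w = cntP (fun x => x = a) w := by
    intro w
    induction w with
    | nil => simp [cntP]
    | cons x w ih =>
      intro q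
      simp only [eSum_cons, cntP]
      rw [Finset.sum_add_distrib, ih]
      rw [add_comm]
      congr 1
      unfold ew
      by_cases hx : x = a
      · simp [hx]
      · simp [hx]
  exact h0 w _

/-- **Level theorem**, moving letters. -/
theorem cnt_EL_moving (a : α) (ha : s a ≠ 0) (t : ZMod p) : CNT (EL s a t) := by
  cases nonempty_fintype α
  have hp : 0 < p := (Fact.out : p.Prime).pos
  apply CNT.of_mul p hp
  have h1 : CNT (fun w => ∑ τ : ZMod p, (EL s a t w - EL s a τ w)) :=
    CNT.sum _ _ (fun τ _ => cnt_EL_diff s a ha τ t)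
  have h2 : CNT (cntP (α := α) (fun x => x = a)) := cnt_cntP _
  refine (h1.add h2).congr (fun w => ?_)
  rw [← EL_sum s a w, Finset.sum_sub_distrib]
  simp [ZMod.card]

/-- Relation for neutral letters. -/
def RelN (qd qp : ZMod p × Option α) : Prop := qd.1 = qp.1 ∧ (qd.1 = t → qd.2 = none)

omit [Finite α] [Fact p.Prime] in
theorem relN_step (x : α) {qd qp : ZMod p × Option α} (h : RelN t qd qp) :
    RelN t (dδ s t x qd) (pδ s x qp) := by
  unfold dδ pδ
  by_cases hx : s x = 0
  · rw [if_pos hx, if_pos hx]
    exact h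
  · rw [if_neg hx, if_neg hx]
    refine ⟨by simp [h.1], ?_⟩
    intro h2
    simp only at h2 ⊢
    rw [if_pos h2]

/-- **Level theorem**, letters without shift. -/
theorem cnt_EL_neutral (a : α) (ha : s a = 0) (t : ZMod p) : CNT (EL s a t) := by
  have h1 := cnt_mcnt (ap_Mall s t) (fun x q hh => Mall_base s t x q hh) (0, none)
  have h2 := cnt_mcnt (Ap'.mono (M' := Mneu s t a) (fun x q hh => Or.inl hh) (ap_Mall s t))
    (fun x q hh => Mneu_base s t ha x q hh) (0, none)
  refine (h2.sub h1).congr (fun w => ?_)
  rw [mcnt_eq_eSum, mcnt_eq_eSum, ← eSum_sub]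
  unfold EL
  refine eSum_eq_of_rel (RelN t) (fun x q q' hq => relN_step s t x hq) ?_
    (⟨rfl, fun _ => rfl⟩ : RelN t ((0, none) : ZMod p × Option α) (0, none)) w
  intro x qd qp hq
  unfold ew
  by_cases hx : x = a
  · subst hx
    have h3 : ¬ Mall s t x qd := fun hh => hh.1 ha
    have h4 : Mneu s t x x qd ↔ qp.1 = t := by
      constructor
      · rintro (hh | ⟨_, hh⟩)
        · exact absurd hh h3
        · rw [← hq.1, hh]
      · intro hh
        refine Or.inr ⟨rfl, ?_⟩
        have h5 : qd.1 = t := by rw [hq.1, hh]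
        exact Prod.ext h5 (hq.2 h5)
    by_cases h5 : qp.1 = t
    · simp [h3, h4.2 h5, h5]
    · have h6 : ¬ Mneu s t x x qd := fun hh => h5 (h4.1 hh)
      simp [h3, h6, h5]
  · have h4 : Mneu s t a x qd ↔ Mall s t x qd := by
      constructor
      · rintro (hh | ⟨hh, _⟩)
        · exact hh
        · exact absurd hh hx
      · exact Or.inl
    simp [h4, hx]

/-- **Level theorem.** -/
theorem cnt_EL (a : α) (t : ZMod p) : CNT (EL s a t) := by
  by_cases ha : s a = 0
  · exact cnt_EL_neutral s a ha t
  · exact cnt_EL_moving s a ha t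

end Level

end Vale.Agent.Lib.P329
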