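import Vale.Agent.Lib.P329.Ridge

/-!
Magnus embedding in words: if `f : G → M` is a homomorphism onto an abelian group with abelian
kernel, then the value in `G` of a word is determined by the numbers modulo the order of `G` of the
edges of the Cayley graph of `M` that its path traverses.  Consequently all languages recognized by
a group with an abelian normal subgroup with elementary abelian quotient have generalized star
height at most one.
-/

namespace Vale.Agent.Lib.P329

open Classical

variable {α G M : Type} [Group G] [AddCommGroup M]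

/-- The edges traversed by a word. -/
def edges (s : α → M) : M → List α → List (M × α)
  | _, [] => []
  | h, x :: w => (h, x) :: edges s (h + s x) w

theorem lc_eq_count (s : α → M) (a : α) (τ h : M) (w : List α) :
    lc s a τ h w = ((edges s h w).count (τ, a) : ℤ) := by
  unfold lc
  induction w generalizing h with
  | nil => simp [edges]
  | cons x w ih =>
    rw [eSum_cons, ih, edges, List.count_cons]
    by_cases hx : x = a ∧ h = τ
    · obtain ⟨rfl, rfl⟩ := hx
      simp
      ring
    · have : ¬ ((h, x) = (τ, a)) := by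
        intro e
        obtain ⟨h1, h2⟩ := Prod.mk.inj e
        exact hx ⟨h2, h1⟩
      simp [hx, this]

/-- In a commutative monoid of exponent dividing `N`, a product depends on the numbers of factors
modulo `N`. -/
theorem prod_map_eq_of_count_modEq {ι C : Type} [Fintype ι] [BEq ι] [LawfulBEq ι] [CommMonoid C]
    (N : ℕ) (hN : ∀ c : C, c ^ N = 1) (φ : ι → C) (e e' : List ι)
    (h : ∀ i, e.count i ≡ e'.count i [MOD N]) : (e.map φ).prod = (e'.map φ).prod := by
  have key : ∀ l : List ι, (l.map φ).prod = ∏ i, φ i ^ l.count i := by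
    intro l
    induction l with
    | nil => simp
    | cons a l ih =>
      rw [List.map_cons, List.prod_cons, ih]
      have h1 : ∀ i, φ i ^ (a :: l).count i = (if i = a then φ i else 1) * φ i ^ l.count i := by
        intro i
        rw [List.count_cons]
        by_cases hi : i = a
        · subst hi
          simp [pow_succ, mul_comm]
        · have : ¬ ((a == i) = true) := by
            intro h2
            exact hi (LawfulBEq.eq_of_beq h2).symm
          simp [hi, this]
      rw [Finset.prod_congr rfl (fun i _ => h1 i), Finset.prod_mul_distrib]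
      simp
  rw [key, key]
  refine Finset.prod_congr rfl (fun i _ => ?_)
  rw [pow_eq_pow_mod _ (hN (φ i)), pow_eq_pow_mod (e'.count i) (hN (φ i)), h i]

/-- The same for sums. -/
theorem sum_map_eq_of_count_modEq {ι C : Type} [Fintype ι] [BEq ι] [LawfulBEq ι] [AddCommMonoid C]
    (N : ℕ) (hN : ∀ c : C, N • c = 0) (φ : ι → C) (e e' : List ι)
    (h : ∀ i, e.count i ≡ e'.count i [MOD N]) : (e.map φ).sum = (e'.map φ).sum := by
  have := prod_map_eq_of_count_modEq (C := Multiplicative C) N
    (fun c => by
      show Multiplicative.ofAdd (N • Multiplicative.toAdd c) = 1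
      rw [hN]
      rfl) (fun i => Multiplicative.ofAdd (φ i)) e e' h
  have h2 : ∀ l : List ι, (l.map (fun i => Multiplicative.ofAdd (φ i))).prod =
      Multiplicative.ofAdd (l.map φ).sum := by
    intro l
    induction l with
    | nil => rfl
    | cons a l ih =>
      simp only [List.map_cons, List.prod_cons, List.sum_cons, ih, ofAdd_add]
  rw [h2, h2] at this
  exact Multiplicative.ofAdd.injective this

/-- The kernel of an additive-valued homomorphism. -/
def kerS (f : G → M) (hf : ∀ g h, f (g * h) = f g + f h) : Subgroup G where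
  carrier := {g | f g = 0}
  one_mem' := by
    have := hf 1 1
    simpa using this
  mul_mem' := by
    intro a b ha hb
    show f (a * b) = 0
    rw [hf, show f a = 0 from ha, show f b = 0 from hb, add_zero]
  inv_mem' := by
    intro a ha
    have h1 : f 1 = 0 := by
      have := hf 1 1
      simpa using this
    have h2 := hf a⁻¹ a
    rw [inv_mul_cancel, h1, show f a = 0 from ha, add_zero] at h2
    exact h2.symm

theorem prod_eq_of_count_modEq [Finite M] [Finite α] (f : G → M) (hf : ∀ g h, f (g * h) = f g + f h)
    (hs : Function.Surjective f) (hK : ∀ g h, f g = 0 → f h = 0 → g * h = h * g) (N : ℕ)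
    (hN : ∀ g : G, g ^ N = 1) (hMN : ∀ m : M, N • m = 0) (g : α → G) (w w' : List α)
    (h : ∀ e, (edges (fun x => f (g x)) 0 w).count e ≡ (edges (fun x => f (g x)) 0 w').count e
      [MOD N]) : (w.map g).prod = (w'.map g).prod := by
  cases nonempty_fintype M
  cases nonempty_fintype α
  set s : α → M := fun x => f (g x) with hsdef
  let σ : M → G := Function.surjInv hs
  have hσ : ∀ m, f (σ m) = m := Function.surjInv_eq hs
  have hinv : ∀ x : G, f x⁻¹ = - f x := by
    intro x
    have h1 : f 1 = 0 := by
      have := hf 1 1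
      simpa using this
    have h2 := hf x⁻¹ x
    rw [inv_mul_cancel, h1] at h2
    exact (eq_neg_of_add_eq_zero_left h2.symm)
  let cg : CommGroup (kerS f hf) :=
    { (inferInstance : Group (kerS f hf)) with
      mul_comm := fun a b => Subtype.ext (hK a.1 b.1 a.2 b.2) }
  let κ : M × α → kerS f hf := fun e => ⟨σ e.1 * g e.2 * (σ (e.1 + s e.2))⁻¹, by
    show f _ = 0
    rw [hf, hf, hinv, hσ, hσ]
    simp [hsdef]⟩
  have hκN : ∀ c : kerS f hf, c ^ N = 1 := fun c => Subtype.ext (by
    show (c.1) ^ N = 1
    exact hN c.1)
  have hlev : ∀ (w : List α) (h₀ : M), ((edges s h₀ w).map (fun e => s e.2)).sum = (w.map s).sum := by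
    intro w
    induction w with
    | nil => intro _; rfl
    | cons x w ih =>
      intro h₀
      simp only [edges, List.map_cons, List.sum_cons, ih]
  have hmain : ∀ (w : List α) (h₀ : M),
      σ h₀ * (w.map g).prod * (σ (h₀ + (w.map s).sum))⁻¹ =
        (((edges s h₀ w).map κ).prod : kerS f hf).1 := by
    intro w
    induction w with
    | nil =>
      intro h₀
      simp [edges]
    | cons x w ih =>
      intro h₀
      simp only [edges, List.map_cons, List.prod_cons, List.sum_cons]
      rw [Subgroup.coe_mul, ← ih]
      simp only [κ, ← add_assoc, mul_assoc, inv_mul_cancel_left]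
  have h1 : (w.map s).sum = (w'.map s).sum := by
    rw [← hlev w 0, ← hlev w' 0]
    exact sum_map_eq_of_count_modEq N hMN _ _ _ h
  have h2 : ((edges s 0 w).map κ).prod = ((edges s 0 w').map κ).prod :=
    prod_map_eq_of_count_modEq N hκN _ _ _ h
  have h3 := hmain w 0
  have h4 := hmain w' 0
  rw [h2, ← h4, h1] at h3
  exact mul_left_cancel (mul_right_cancel h3)

section Final

variable [Finite α]

/-- From a homomorphism onto an elementary abelian group with abelian kernel. -/
theorem gsh_of_elem_quot [Finite G] [Finite M] {p : ℕ} [Fact p.Prime] (f : G → M)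
    (hf : ∀ g h, f (g * h) = f g + f h) (hs : Function.Surjective f)
    (hK : ∀ g h, f g = 0 → f h = 0 → g * h = h * g) (hp : ∀ m : M, p • m = 0)
    (g : α → G) (T : Set G) : GSH 1 {w : List α | (w.map g).prod ∈ T} := by
  have hN : 0 < Nat.card G := Nat.card_pos
  have : NeZero (Nat.card G) := ⟨hN.ne'⟩
  have hf1 : f 1 = 0 := by
    have := hf 1 1
    simpa using this
  have hMN : ∀ m : M, Nat.card G • m = 0 := by
    intro m
    obtain ⟨x, rfl⟩ := hs m
    have h1 : ∀ n : ℕ, n • f x = f (x ^ n) := by
      intro n
      induction n with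
      | zero => simp [hf1]
      | succ n ih => rw [succ_nsmul, ih, pow_succ, hf]
    rw [h1, pow_card_eq_one', hf1]
  set s : α → M := fun x => f (g x) with hsdef
  let ι := M × α
  let σ : List α → ι → ZMod (Nat.card G) := fun w i => ((lc s i.2 i.1 0 w : ℤ) : ZMod (Nat.card G))
  have key : GSH 1 {w : List α | ∃ τ : ι → ZMod (Nat.card G),
      (∃ w0, σ w0 = τ ∧ (w0.map g).prod ∈ T) ∧ σ w = τ} := by
    refine GSH.exists (fun τ => ?_)
    by_cases hτ : ∃ w0, σ w0 = τ ∧ (w0.map g).prod ∈ T
    · have h1 : GSH 1 {w : List α | ∀ u : ι, σ w u = τ u} := by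
        refine GSH.forall (fun u => ?_)
        exact cnt_lc (p := p) hp s u.2 u.1 _ hN (τ u)
      refine h1.of_ext (fun w => ⟨fun h => ⟨hτ, funext h⟩, fun h u => congrFun h.2 u⟩)
    · refine (GSH.bot 1).of_ext (fun w => ?_)
      constructor
      · intro h0
        exact absurd h0 (Language.notMem_zero w)
      · intro h0
        exact absurd h0.1 hτ
  refine key.of_ext (fun w => ?_)
  constructor
  · rintro ⟨τ, ⟨w0, h1, h2⟩, h3⟩
    have : (w.map g).prod = (w0.map g).prod := by
      apply prod_eq_of_count_modEq f hf hs hK (Nat.card G) (fun x => pow_card_eq_one') hMN g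
      intro e
      have h4 : σ w e = σ w0 e := by rw [h3, h1]
      simp only [σ, lc_eq_count, Int.cast_natCast] at h4
      exact (ZMod.natCast_eq_natCast_iff _ _ _).1 h4
    show (w.map g).prod ∈ T
    rw [this]
    exact h2
  · intro h
    exact ⟨_, ⟨w, rfl, h⟩, rfl⟩

/-- **Main theorem.** A finite group with an abelian normal subgroup with elementary abelian
quotient. -/
theorem gsh_of_abelian_by_elem [Finite G] (p : ℕ) (hp : p.Prime) (V : Subgroup G) [V.Normal]
    (hV : ∀ x ∈ V, ∀ y ∈ V, x * y = y * x)
    (hc : ∀ x y : G, x * y * x⁻¹ * y⁻¹ ∈ V) (hpow : ∀ x : G, x ^ p ∈ V)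
    (g : α → G) (T : Set G) : GSH 1 {w : List α | (w.map g).prod ∈ T} := by
  haveI : Fact p.Prime := ⟨hp⟩
  letI cq : CommGroup (G ⧸ V) :=
    { (inferInstance : Group (G ⧸ V)) with
      mul_comm := by
        intro a b
        induction a using QuotientGroup.induction_on with
        | H x =>
          induction b using QuotientGroup.induction_on with
          | H y =>
            rw [← QuotientGroup.mk_mul, ← QuotientGroup.mk_mul, QuotientGroup.eq]
            have h1 := hc y⁻¹ x⁻¹
            have h2 : (x * y)⁻¹ * (y * x) = y⁻¹ * x⁻¹ * (y⁻¹)⁻¹ * (x⁻¹)⁻¹ := by group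
            rw [h2]
            exact h1 }
  let f : G → Additive (G ⧸ V) := fun x => Additive.ofMul (x : G ⧸ V)
  refine gsh_of_elem_quot (M := Additive (G ⧸ V)) (p := p) f (fun x y => rfl) ?_ ?_ ?_ g T
  · intro m
    obtain ⟨x, hx⟩ := QuotientGroup.mk_surjective (Additive.toMul m)
    refine ⟨x, ?_⟩
    show Additive.ofMul (x : G ⧸ V) = m
    rw [hx]
    rfl
  · intro x y hx hy
    have hx' : x ∈ V := (QuotientGroup.eq_one_iff x).1 hx
    have hy' : y ∈ V := (QuotientGroup.eq_one_iff y).1 hy
    exact hV x hx' y hy'
  · intro m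
    obtain ⟨x, hx⟩ := QuotientGroup.mk_surjective (Additive.toMul m)
    have h1 : m = f x := by
      show m = Additive.ofMul (x : G ⧸ V)
      rw [hx]
      rfl
    rw [h1]
    show Additive.ofMul ((x : G ⧸ V) ^ p) = 0
    rw [← QuotientGroup.mk_pow, (QuotientGroup.eq_one_iff (x ^ p)).2 (hpow x)]
    rfl

end Final

end Vale.Agent.Lib.P329
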