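import Vale.Agent.Lib.P329.AperAct
import Vale.Agent.Lib.P329.Count3

/-!
Mark theorem.  A deterministic automaton with marked edges, all leading to one base state, such that
the automaton with the marked edges removed is aperiodic: the number of marked edges along a run is
countable, in the sense of `CNT`, and so is every function of the final state.
-/

namespace Vale.Agent.Lib.P329

variable {α Q : Type}

section Defs

open Classical

/-- The partial action with the marked edges removed. -/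
noncomputable def tMark (δ : α → Q → Q) (M : α → Q → Prop) (a : α) (q : Q) : Option Q :=
  if M a q then none else some (δ a q)

/-- The number of marked edges along a run. -/
noncomputable def mcnt (δ : α → Q → Q) (M : α → Q → Prop) : Q → List α → ℕ
  | _, [] => 0
  | q, a :: w => (if M a q then 1 else 0) + mcnt δ M (δ a q) w

variable {δ : α → Q → Q} {M : α → Q → Prop}

@[simp] theorem mcnt_nil (q : Q) : mcnt δ M q [] = 0 := rfl

theorem mcnt_cons (q : Q) (a : α) (w : List α) :
    mcnt δ M q (a :: w) = (if M a q then 1 else 0) + mcnt δ M (δ a q) w := rfl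

theorem mcnt_append (q : Q) (x y : List α) :
    mcnt δ M q (x ++ y) = mcnt δ M q x + mcnt δ M (runL δ q x) y := by
  induction x generalizing q with
  | nil => simp
  | cons a x ih =>
    simp only [List.cons_append, mcnt_cons, runL_cons, ih]
    omega

theorem prun_tMark_some (p q : Q) (w : List α) :
    prun (tMark δ M) p w = some q ↔ mcnt δ M p w = 0 ∧ runL δ p w = q := by
  induction w generalizing p with
  | nil => simp [prun]
  | cons a w ih =>
    simp only [prun, tMark, mcnt_cons, runL_cons]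
    by_cases h : M a p
    · simp [h]
    · simp [h, ih]

theorem prun_tMark_ne_none (p : Q) (w : List α) :
    prun (tMark δ M) p w ≠ none ↔ mcnt δ M p w = 0 := by
  induction w generalizing p with
  | nil => simp [prun]
  | cons a w ih =>
    simp only [prun, tMark, mcnt_cons]
    by_cases h : M a p
    · simp [h]
    · simp [h, ih]

/-- Aperiodicity of the marked automaton, in terms of the total automaton. -/
theorem ap'_tMark (h : ∀ (u : List α) (p : Q), (∀ k, mcnt δ M p (wpow u k) = 0) →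
    ∃ n, runL δ p (wpow u (n + 1)) = runL δ p (wpow u n)) : Ap' (tMark δ M) := by
  intro u p hu
  have h0 : ∀ k, mcnt δ M p (wpow u k) = 0 := fun k => (prun_tMark_ne_none p _).1 (hu k)
  obtain ⟨n, hn⟩ := h u p h0
  refine ⟨n, ?_⟩
  rw [(prun_tMark_some p _ _).2 ⟨h0 (n + 1), rfl⟩, (prun_tMark_some p _ _).2 ⟨h0 n, rfl⟩, hn]

/-- More marks keep aperiodicity. -/
theorem Ap'.mono {M' : α → Q → Prop} (hM : ∀ a q, M a q → M' a q) (h : Ap' (tMark δ M)) :
    Ap' (tMark δ M') := by
  have key : ∀ (w : List α) (p : Q), mcnt δ M' p w = 0 → mcnt δ M p w = 0 := by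
    intro w
    induction w with
    | nil => simp
    | cons a w ih =>
      intro p h0
      rw [mcnt_cons] at h0 ⊢
      have h1 : ¬ M' a p := by
        intro h2
        simp [h2] at h0
      have h2 : ¬ M a p := fun h3 => h1 (hM _ _ h3)
      have h3 : mcnt δ M' (δ a p) w = 0 := by
        simp only [h1, if_false] at h0
        omega
      simp [h2, ih _ h3]
  refine ap'_tMark (fun u p hu => ?_)
  have h0 : ∀ k, mcnt δ M p (wpow u k) = 0 := fun k => key _ _ (hu k)
  obtain ⟨n, hn⟩ := h u p (fun k => (prun_tMark_ne_none p _).2 (h0 k))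
  refine ⟨n, ?_⟩
  rw [(prun_tMark_some p _ _).2 ⟨h0 (n + 1), rfl⟩, (prun_tMark_some p _ _).2 ⟨h0 n, rfl⟩] at hn
  exact Option.some.inj hn

/-- A prefix ending with the mark number `j + 1`. -/
theorem exists_split_mark (j : ℕ) (p : Q) (w : List α) (h : j < mcnt δ M p w) :
    ∃ x a y, w = x ++ a :: y ∧ mcnt δ M p x = j ∧ M a (runL δ p x) := by
  induction w generalizing p j with
  | nil => simp at h
  | cons b w ih =>
    rw [mcnt_cons] at h
    by_cases hb : M b p
    · simp only [hb, if_true] at h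
      cases j with
      | zero => exact ⟨[], b, w, rfl, rfl, hb⟩
      | succ j =>
        obtain ⟨x, a, y, rfl, h1, h2⟩ := ih j (δ b p) (by omega)
        refine ⟨b :: x, a, y, rfl, ?_, h2⟩
        rw [mcnt_cons, h1]
        simp only [hb, if_true]
        omega
    · simp only [hb, if_false] at h
      obtain ⟨x, a, y, rfl, h1, h2⟩ := ih j (δ b p) (by omega)
      refine ⟨b :: x, a, y, rfl, ?_, h2⟩
      rw [mcnt_cons, h1]
      simp [hb]

end Defs

section Main

open Classical

variable [Finite α] [Finite Q] {δ : α → Q → Q} {M : α → Q → Prop} {z : Q}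
  (hA : Ap' (tMark δ M)) (hM : ∀ a q, M a q → δ a q = z)

include hA

/-- No marks: star-free. -/
theorem gsh_W0 (p q : Q) : GSH 0 {w | mcnt δ M p w = 0 ∧ runL δ p w = q} := by
  cases nonempty_fintype α
  have h := gsh_prun' (Nat.card Q) (tMark δ M) le_rfl hA Finset.univ p q
  refine h.of_ext (fun w => ?_)
  constructor
  · rintro ⟨-, h2⟩
    exact (prun_tMark_some p q w).1 h2
  · intro h2
    exact ⟨by simp, (prun_tMark_some p q w).2 h2⟩

include hM

/-- Exactly `j` marks: star-free. -/
theorem gsh_WJ (j : ℕ) (p q : Q) : GSH 0 {w | mcnt δ M p w = j ∧ runL δ p w = q} := by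
  induction j generalizing q with
  | zero => exact gsh_W0 hA p q
  | succ j ih =>
    have h1 : GSH 0 {w : List α | ∃ e : {e : Q × α // M e.2 e.1}, ∃ x y,
        (mcnt δ M p x = j ∧ runL δ p x = e.1.1) ∧
        (∃ y', (mcnt δ M z y' = 0 ∧ runL δ z y' = q) ∧ y = e.1.2 :: y') ∧ w = x ++ y} :=
      GSH.exists (fun e => (ih e.1.1).conc (GSH.cons_letter e.1.2 (gsh_W0 hA z q)))
    refine h1.of_ext (fun w => ?_)
    constructor
    · rintro ⟨⟨⟨r, a⟩, he⟩, x, y, ⟨h2, h3⟩, ⟨y', ⟨h4, h5⟩, rfl⟩, rfl⟩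
      simp only at h2 h3 h4 h5 he
      have h6 : δ a r = z := hM _ _ he
      subst h3
      refine ⟨?_, ?_⟩
      · rw [mcnt_append, mcnt_cons, h6, h4, h2]
        simp [he]
      · rw [runL_append, runL_cons, h6]
        exact h5
    · rintro ⟨h2, h3⟩
      obtain ⟨x, a, y, rfl, h4, h5⟩ := exists_split_mark (δ := δ) (M := M) j p w (by omega)
      rw [mcnt_append, mcnt_cons, h4, hM _ _ h5] at h2
      simp only [h5, if_true] at h2
      rw [runL_append, runL_cons, hM _ _ h5] at h3
      exact ⟨⟨⟨runL δ p x, a⟩, h5⟩, x, a :: y, ⟨h4, rfl⟩, ⟨y, ⟨by omega, h3⟩, rfl⟩, rfl⟩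

/-- Ending with the mark number `j + 1`: star-free. -/
theorem gsh_LJ (j : ℕ) (p : Q) :
    GSH 0 {w | ∃ x a, w = x ++ [a] ∧ mcnt δ M p x = j ∧ M a (runL δ p x)} := by
  have h1 : GSH 0 {w : List α | ∃ e : {e : Q × α // M e.2 e.1}, ∃ y,
      (mcnt δ M p y = j ∧ runL δ p y = e.1.1) ∧ w = y ++ [e.1.2]} :=
    GSH.exists (fun e => GSH.snoc_letter e.1.2 (gsh_WJ hA hM j p e.1.1))
  refine h1.of_ext (fun w => ?_)
  constructor
  · rintro ⟨⟨⟨r, a⟩, he⟩, y, ⟨h2, h3⟩, rfl⟩
    simp only at h3 he
    subst h3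
    exact ⟨y, a, rfl, h2, he⟩
  · rintro ⟨x, a, rfl, h2, h3⟩
    exact ⟨⟨⟨runL δ p x, a⟩, h3⟩, x, ⟨h2, rfl⟩, rfl⟩

omit hA [Finite α] [Finite Q] in
theorem last_facts {j : ℕ} {p : Q} {x : List α} {a : α} (h1 : mcnt δ M p x = j)
    (h2 : M a (runL δ p x)) :
    mcnt δ M p (x ++ [a]) = j + 1 ∧ runL δ p (x ++ [a]) = z := by
  refine ⟨?_, ?_⟩
  · rw [mcnt_append, h1, mcnt_cons]
    simp [h2]
  · rw [runL_append, runL_cons]
    exact hM _ _ h2

/-- From the base: a star of words with exactly `n` marks, then a rest. -/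
theorem gsh_markBase (n : ℕ) (hn : 0 < n) (q : Q) (r : ℕ) (hr : r < n) :
    GSH 1 {w | runL δ z w = q ∧ mcnt δ M z w % n = r} := by
  have hY := gsh_LJ hA hM (n - 1) z
  have h1 := (GSH.kstar hY).conc ((gsh_WJ hA hM r z q).mono (Nat.zero_le 1))
  refine h1.of_ext (fun w => ?_)
  constructor
  · rintro ⟨x, y, ⟨S, rfl, hS⟩, ⟨h2, h3⟩, rfl⟩
    have h4 : runL δ z S.flatten = z ∧ n ∣ mcnt δ M z S.flatten := by
      induction S with
      | nil => simp
      | cons t S ih =>
        obtain ⟨x', a, rfl, h5, h6⟩ := hS t (by simp)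
        obtain ⟨h7, h8⟩ := last_facts hM h5 h6
        obtain ⟨h9, h10⟩ := ih (fun y hy => hS y (List.mem_cons_of_mem _ hy))
        rw [List.flatten_cons, runL_append, mcnt_append, h8, h9]
        refine ⟨rfl, ?_⟩
        rw [h7, show n - 1 + 1 = n by omega]
        exact Dvd.dvd.add (dvd_refl n) h10
    refine ⟨?_, ?_⟩
    · rw [runL_append, h4.1]
      exact h3
    · rw [mcnt_append, h4.1, h2, Nat.add_mod, Nat.mod_eq_zero_of_dvd h4.2, Nat.mod_eq_of_lt hr]
      simp [Nat.mod_eq_of_lt hr]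
  · rintro ⟨h2, h3⟩
    have key : ∀ (m : ℕ) (w : List α), mcnt δ M z w ≤ m → runL δ z w = q →
        mcnt δ M z w % n = r → ∃ S : List (List α), ∃ y, w = S.flatten ++ y ∧
          (∀ t ∈ S, ∃ x a, t = x ++ [a] ∧ mcnt δ M z x = n - 1 ∧ M a (runL δ z x)) ∧
          mcnt δ M z y = r ∧ runL δ z y = q := by
      intro m
      induction m with
      | zero =>
        intro w h4 h5 h6
        have h7 : mcnt δ M z w = 0 := by omega
        rw [h7, Nat.zero_mod] at h6
        exact ⟨[], w, rfl, by simp, by omega, h5⟩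
      | succ m ih =>
        intro w h4 h5 h6
        by_cases h7 : mcnt δ M z w < n
        · rw [Nat.mod_eq_of_lt h7] at h6
          exact ⟨[], w, rfl, by simp, h6, h5⟩
        · obtain ⟨x, a, y, rfl, h8, h9⟩ := exists_split_mark (δ := δ) (M := M) (n - 1) z w (by omega)
          obtain ⟨h10, h11⟩ := last_facts hM h8 h9
          have h12 : x ++ a :: y = (x ++ [a]) ++ y := by simp
          rw [h12, mcnt_append, h10, h11] at h4 h6 h7
          rw [h12, runL_append, h11] at h5
          rw [show n - 1 + 1 = n by omega] at h4 h6 h7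
          obtain ⟨S, y', h13, h14, h15, h16⟩ := ih y (by omega) h5
            (by rw [Nat.add_mod, Nat.mod_self, Nat.zero_add, Nat.mod_mod] at h6; exact h6)
          refine ⟨(x ++ [a]) :: S, y', ?_, ?_, h15, h16⟩
          · rw [h12, h13]
            simp
          · intro t ht
            rcases List.mem_cons.1 ht with rfl | ht
            · exact ⟨x, a, rfl, h8, h9⟩
            · exact h14 t ht
    obtain ⟨S, y, rfl, h4, h5, h6⟩ := key _ w le_rfl h2 h3
    exact ⟨_, y, ⟨S, rfl, h4⟩, ⟨h5, h6⟩, rfl⟩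

/-- **Mark theorem.** -/
theorem gsh_mark (n : ℕ) (hn : 0 < n) (p q : Q) (r : ℕ) (hr : r < n) :
    GSH 1 {w | runL δ p w = q ∧ mcnt δ M p w % n = r} := by
  have h1 : GSH 1 {w | mcnt δ M p w = r ∧ runL δ p w = q} :=
    (gsh_WJ hA hM r p q).mono (Nat.zero_le 1)
  have h2 := ((gsh_LJ hA hM (n - 1) p).mono (Nat.zero_le 1)).conc (gsh_markBase hA hM n hn q r hr)
  refine (h1.or h2).of_ext (fun w => ?_)
  constructor
  · rintro (⟨h3, h4⟩ | ⟨x, y, ⟨x', a, rfl, h5, h6⟩, ⟨h7, h8⟩, rfl⟩)
    · exact ⟨h4, by rw [h3, Nat.mod_eq_of_lt hr]⟩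
    · obtain ⟨h9, h10⟩ := last_facts hM h5 h6
      refine ⟨?_, ?_⟩
      · rw [runL_append, h10]
        exact h7
      · rw [mcnt_append, h9, h10, show n - 1 + 1 = n by omega, Nat.add_mod, Nat.mod_self,
          Nat.zero_add, Nat.mod_mod]
        exact h8
  · rintro ⟨h3, h4⟩
    by_cases h5 : mcnt δ M p w < n
    · rw [Nat.mod_eq_of_lt h5] at h4
      exact Or.inl ⟨h4, h3⟩
    · right
      obtain ⟨x, a, y, rfl, h8, h9⟩ := exists_split_mark (δ := δ) (M := M) (n - 1) p w (by omega)
      obtain ⟨h10, h11⟩ := last_facts hM h8 h9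
      have h12 : x ++ a :: y = (x ++ [a]) ++ y := by simp
      rw [h12, mcnt_append, h10, h11] at h4
      rw [h12, runL_append, h11] at h3
      rw [show n - 1 + 1 = n by omega, Nat.add_mod, Nat.mod_self, Nat.zero_add, Nat.mod_mod] at h4
      exact ⟨x ++ [a], y, ⟨x, a, rfl, h8, h9⟩, ⟨h3, h4⟩, by simp⟩

/-- The run itself. -/
theorem gsh_run (p q : Q) : GSH 1 {w | runL δ p w = q} := by
  refine (gsh_mark hA hM 1 one_pos p q 0 one_pos).of_ext (fun w => ?_)
  constructor
  · exact fun h => h.1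
  · exact fun h => ⟨h, Nat.mod_one _⟩

/-- The number of marks is countable. -/
theorem cnt_mcnt (p : Q) : CNT (fun w => (mcnt δ M p w : ℤ)) := by
  intro N hN r
  have : NeZero N := ⟨hN.ne'⟩
  have h1 : GSH 1 {w : List α | ∃ q : Q, runL δ p w = q ∧ mcnt δ M p w % N = r.val} :=
    GSH.exists (fun q => gsh_mark hA hM N hN p q r.val (ZMod.val_lt r))
  refine h1.of_ext (fun w => ?_)
  constructor
  · rintro ⟨_, _, h⟩
    show (((mcnt δ M p w : ℕ) : ℤ) : ZMod N) = r
    rw [Int.cast_natCast]
    apply ZMod.val_injective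
    rw [ZMod.val_natCast]
    exact h
  · intro h
    have h' : (((mcnt δ M p w : ℕ) : ℤ) : ZMod N) = r := h
    rw [Int.cast_natCast] at h'
    refine ⟨_, rfl, ?_⟩
    rw [← h', ZMod.val_natCast]

/-- Functions of the final state are countable. -/
theorem cnt_state (p : Q) (f : Q → ℤ) : CNT (fun w => f (runL δ p w)) := by
  intro N _ r
  have h1 : GSH 1 {w : List α | ∃ q : {q : Q // ((f q : ℤ) : ZMod N) = r}, runL δ p w = q.1} :=
    GSH.exists (fun q => gsh_run hA hM p q.1)
  refine h1.of_ext (fun w => ?_)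
  constructor
  · rintro ⟨⟨q, hq⟩, h⟩
    show ((f (runL δ p w) : ℤ) : ZMod N) = r
    rw [h]
    exact hq
  · intro h
    exact ⟨⟨_, h⟩, rfl⟩

end Main

section ESum

variable {Q' : Type}

/-- Sum of edge weights along a run. -/
def eSum (δ : α → Q → Q) (g : α → Q → ℤ) : Q → List α → ℤ
  | _, [] => 0
  | q, a :: w => g a q + eSum δ g (δ a q) w

@[simp] theorem eSum_nil (δ : α → Q → Q) (g : α → Q → ℤ) (q : Q) : eSum δ g q [] = 0 := rfl

theorem eSum_cons (δ : α → Q → Q) (g : α → Q → ℤ) (q : Q) (a : α) (w : List α) :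
    eSum δ g q (a :: w) = g a q + eSum δ g (δ a q) w := rfl

/-- Related runs have the same sums. -/
theorem eSum_eq_of_rel {δ : α → Q → Q} {δ' : α → Q' → Q'} {g : α → Q → ℤ} {g' : α → Q' → ℤ}
    (R : Q → Q' → Prop) (hR : ∀ a q q', R q q' → R (δ a q) (δ' a q'))
    (hg : ∀ a q q', R q q' → g a q = g' a q') {q : Q} {q' : Q'} (h : R q q') (w : List α) :
    eSum δ g q w = eSum δ' g' q' w := by
  induction w generalizing q q' with
  | nil => rfl
  | cons a w ih => rw [eSum_cons, eSum_cons, hg a q q' h, ih (hR a q q' h)]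

theorem eSum_congr (δ : α → Q → Q) {g g' : α → Q → ℤ} (h : ∀ a q, g a q = g' a q) (q : Q)
    (w : List α) : eSum δ g q w = eSum δ g' q w := by
  induction w generalizing q with
  | nil => rfl
  | cons a w ih => rw [eSum_cons, eSum_cons, h, ih]

theorem eSum_add (δ : α → Q → Q) (g g' : α → Q → ℤ) (q : Q) (w : List α) :
    eSum δ (fun a q => g a q + g' a q) q w = eSum δ g q w + eSum δ g' q w := by
  induction w generalizing q with
  | nil => simp
  | cons a w ih =>
    rw [eSum_cons, eSum_cons, eSum_cons, ih]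
    ring

theorem eSum_sub (δ : α → Q → Q) (g g' : α → Q → ℤ) (q : Q) (w : List α) :
    eSum δ (fun a q => g a q - g' a q) q w = eSum δ g q w - eSum δ g' q w := by
  induction w generalizing q with
  | nil => simp
  | cons a w ih =>
    rw [eSum_cons, eSum_cons, eSum_cons, ih]
    ring

theorem eSum_sum {ι : Type} (s : Finset ι) (δ : α → Q → Q) (g : ι → α → Q → ℤ) (q : Q)
    (w : List α) : eSum δ (fun a q => ∑ i ∈ s, g i a q) q w = ∑ i ∈ s, eSum δ (g i) q w := by
  induction w generalizing q with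
  | nil => simp
  | cons a w ih =>
    rw [eSum_cons, ih]
    simp only [eSum_cons]
    rw [Finset.sum_add_distrib]

/-- Exact weights telescope. -/
theorem eSum_pot {δ : α → Q → Q} {g g' : α → Q → ℤ} (φ : Q → ℤ)
    (h : ∀ a q, g a q = g' a q + φ (δ a q) - φ q) (q : Q) (w : List α) :
    eSum δ g q w = eSum δ g' q w + φ (runL δ q w) - φ q := by
  induction w generalizing q with
  | nil => simp
  | cons a w ih =>
    rw [eSum_cons, eSum_cons, ih, h, runL_cons]
    ring

open Classical in
theorem mcnt_eq_eSum (δ : α → Q → Q) (M : α → Q → Prop) (q : Q) (w : List α) :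
    (mcnt δ M q w : ℤ) = eSum δ (fun a q => if M a q then 1 else 0) q w := by
  induction w generalizing q with
  | nil => rfl
  | cons a w ih =>
    rw [mcnt_cons, eSum_cons, ← ih]
    by_cases h : M a q <;> simp [h]

end ESum

section CNTsum

theorem CNT.sum {ι : Type} (s : Finset ι) (F : ι → List α → ℤ) (h : ∀ i ∈ s, CNT (F i)) :
    CNT (fun w => ∑ i ∈ s, F i w) := fun N hN => by
  have : NeZero N := ⟨hN.ne'⟩
  exact CNTat.sum s F (fun i hi => h i hi N hN)

end CNTsum

end Vale.Agent.Lib.P329
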