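import Vale.Agent.Lib.P329.Basic

/-!
Monotone-return automata.  Let `Q` be a finite linear order with a base state `z`, and let every
letter either send a non-base state to the base or not decrease it.  Then all languages
`{w | run p w = q}` have generalized star height at most one.  The words that avoid the base are
star-free, hence so is the set of first-return words, and the words from `z` to `z` are the Kleene
star of the first-return words.
-/

namespace Vale.Agent.Lib.P329

variable {α Q : Type}

/-- The run of the automaton, reading the word from the left. -/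
def runL (δ : α → Q → Q) (p : Q) : List α → Q
  | [] => p
  | a :: w => runL δ (δ a p) w

/-- The run never visits `z` after the starting point. -/
def Avoid (δ : α → Q → Q) (z : Q) : Q → List α → Prop
  | _, [] => True
  | q, a :: w => δ a q ≠ z ∧ Avoid δ z (δ a q) w

@[simp] theorem runL_nil (δ : α → Q → Q) (p : Q) : runL δ p [] = p := rfl
@[simp] theorem runL_cons (δ : α → Q → Q) (p : Q) (a : α) (w : List α) :
    runL δ p (a :: w) = runL δ (δ a p) w := rfl

theorem runL_append (δ : α → Q → Q) (p : Q) (u v : List α) :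
    runL δ p (u ++ v) = runL δ (runL δ p u) v := by
  induction u generalizing p with
  | nil => rfl
  | cons a u ih => exact ih _

theorem runL_eq_foldl (δ : α → Q → Q) (p : Q) (w : List α) :
    runL δ p w = w.foldl (fun s a => δ a s) p := by
  induction w generalizing p with
  | nil => rfl
  | cons a w ih => exact ih _

theorem runL_ne_of_avoid {δ : α → Q → Q} {z q : Q} {w : List α} (hq : q ≠ z)
    (h : Avoid δ z q w) : runL δ q w ≠ z := by
  induction w generalizing q with
  | nil => exact hq
  | cons a w ih => exact ih h.1 h.2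

/-- First-hit decomposition. -/
theorem avoid_or_hit (δ : α → Q → Q) (z q : Q) (w : List α) :
    Avoid δ z q w ∨ ∃ y b v, w = y ++ b :: v ∧ Avoid δ z q y ∧ δ b (runL δ q y) = z := by
  classical
  induction w generalizing q with
  | nil => exact Or.inl trivial
  | cons a w ih =>
    by_cases ha : δ a q = z
    · exact Or.inr ⟨[], a, w, rfl, trivial, ha⟩
    · rcases ih (δ a q) with h | ⟨y, b, v, rfl, h1, h2⟩
      · exact Or.inl ⟨ha, h⟩
      · exact Or.inr ⟨a :: y, b, v, rfl, ⟨ha, h1⟩, h2⟩

section GSHletter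

variable {k : ℕ}

/-- Left multiplication by a letter. -/
theorem GSH.cons_letter (a : α) {P : List α → Prop} (h : GSH k {w | P w}) :
    GSH k {w | ∃ y, P y ∧ w = a :: y} :=
  (((GSH.letter k a : GSH k ({[a]} : Language α)).mul h)).of_ext (fun w => by
    constructor
    · intro hw
      obtain ⟨x, hx, y, hy, rfl⟩ := Language.mem_mul.1 hw
      have hx' : x = [a] := hx
      subst hx'
      exact ⟨y, hy, rfl⟩
    · rintro ⟨y, hy, rfl⟩
      exact Language.mem_mul.2 ⟨[a], rfl, y, hy, rfl⟩)

end GSHletter

variable [Finite α] [Finite Q] [LinearOrder Q]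

/-- The words avoiding the base are star-free. -/
theorem gsh_avoid {δ : α → Q → Q} {z : Q} (h : ∀ a q, q ≠ z → δ a q = z ∨ q ≤ δ a q) (r : Q)
    (q : Q) (hq : q ≠ z) : GSH 0 {w | Avoid δ z q w ∧ runL δ q w = r} := by
  classical
  induction q using WellFoundedGT.induction with
  | ind q ih =>
    have hLoop : GSH 0 {w : List α | ∀ x ∈ w, δ x q = q} := GSH.allIn 0 _
    have hStep : GSH 0 {w : List α | ∃ a : {a : α // δ a q ≠ q ∧ δ a q ≠ z},
        ∃ y, (Avoid δ z (δ a.1 q) y ∧ runL δ (δ a.1 q) y = r) ∧ w = a.1 :: y} := by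
      refine GSH.exists (fun a => GSH.cons_letter a.1 ?_)
      have hlt : q < δ a.1 q := by
        rcases h a.1 q hq with h1 | h1
        · exact absurd h1 a.2.2
        · exact lt_of_le_of_ne h1 (Ne.symm a.2.1)
      exact ih _ hlt a.2.2
    have hEmpty : GSH 0 {w : List α | (∀ x ∈ w, δ x q = q) ∧ q = r} := by
      by_cases hqr : q = r
      · exact hLoop.of_ext (fun w => by simp [hqr])
      · refine (GSH.bot 0).of_ext (fun w => ?_)
        constructor
        · intro h0
          exact absurd h0 (Language.notMem_zero w)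
        · rintro ⟨-, h0⟩
          exact absurd h0 hqr
    refine (hEmpty.or (hLoop.conc hStep)).of_ext (fun w => ?_)
    constructor
    · rintro (⟨h1, h2⟩ | ⟨x, y, hx, ⟨a, y', ⟨h3, h4⟩, rfl⟩, rfl⟩)
      · have hrun : ∀ w : List α, (∀ x ∈ w, δ x q = q) → Avoid δ z q w ∧ runL δ q w = q := by
          intro w
          induction w with
          | nil => intro _; exact ⟨trivial, rfl⟩
          | cons b w ih2 =>
            intro hb
            have hbq : δ b q = q := hb b (by simp)
            have := ih2 (fun x hx => hb x (List.mem_cons_of_mem _ hx))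
            refine ⟨⟨by rw [hbq]; exact hq, by rw [hbq]; exact this.1⟩, ?_⟩
            simp only [runL_cons, hbq]
            exact this.2
        have := hrun w h1
        exact ⟨this.1, this.2.trans h2⟩
      · have hrun : ∀ x : List α, (∀ t ∈ x, δ t q = q) →
            Avoid δ z q (x ++ a.1 :: y') ∧ runL δ q (x ++ a.1 :: y') = r := by
          intro x
          induction x with
          | nil =>
            intro _
            exact ⟨⟨a.2.2, h3⟩, h4⟩
          | cons b x ih2 =>
            intro hb
            have hbq : δ b q = q := hb b (by simp)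
            have := ih2 (fun t ht => hb t (List.mem_cons_of_mem _ ht))
            refine ⟨⟨by rw [hbq]; exact hq, by rw [hbq]; exact this.1⟩, ?_⟩
            simp only [List.cons_append, runL_cons, hbq]
            exact this.2
        exact hrun x hx
    · rintro ⟨h1, h2⟩
      induction w with
      | nil => exact Or.inl ⟨by simp, h2⟩
      | cons b w ih2 =>
        by_cases hb : δ b q = q
        · have h1' : Avoid δ z q w := by
            have := h1.2
            rwa [hb] at this
          have h2' : runL δ q w = r := by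
            have : runL δ (δ b q) w = r := h2
            rwa [hb] at this
          rcases ih2 h1' h2' with ⟨h3, h4⟩ | ⟨x, y, hx, hy, rfl⟩
          · refine Or.inl ⟨?_, h4⟩
            intro t ht
            rcases List.mem_cons.1 ht with rfl | ht
            · exact hb
            · exact h3 t ht
          · refine Or.inr ⟨b :: x, y, ?_, hy, rfl⟩
            intro t ht
            rcases List.mem_cons.1 ht with rfl | ht
            · exact hb
            · exact hx t ht
        · refine Or.inr ⟨[], b :: w, by simp, ⟨⟨b, hb, h1.1⟩, w, ⟨h1.2, h2⟩, rfl⟩, rfl⟩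

/-- First-return words. -/
def FirstRet (δ : α → Q → Q) (z : Q) (w : List α) : Prop :=
  ∃ a y, w = a :: y ∧ ((δ a z = z ∧ y = []) ∨
    (δ a z ≠ z ∧ ∃ y' b, y = y' ++ [b] ∧ Avoid δ z (δ a z) y' ∧ δ b (runL δ (δ a z) y') = z))

theorem gsh_firstRet {δ : α → Q → Q} {z : Q} (h : ∀ a q, q ≠ z → δ a q = z ∨ q ≤ δ a q) :
    GSH 0 {w | FirstRet δ z w} := by
  classical
  have h1 : GSH 0 {w : List α | ∃ a : {a : α // δ a z = z}, w = [a.1]} :=
    GSH.exists (fun a => GSH.letter 0 a.1)
  have h2 : GSH 0 {w : List α | ∃ a : {a : α // δ a z ≠ z}, ∃ y,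
      (∃ r : {r : Q // r ≠ z}, ∃ y1 y2, (Avoid δ z (δ a.1 z) y1 ∧ runL δ (δ a.1 z) y1 = r.1) ∧
        (∃ b : {b : α // δ b r.1 = z}, y2 = [b.1]) ∧ y = y1 ++ y2) ∧ w = a.1 :: y} := by
    refine GSH.exists (fun a => GSH.cons_letter a.1 (GSH.exists (fun r => ?_)))
    exact (gsh_avoid h r.1 _ a.2).conc (GSH.exists (fun b => GSH.letter 0 b.1))
  refine (h1.or h2).of_ext (fun w => ?_)
  constructor
  · rintro (⟨⟨a, ha⟩, rfl⟩ | ⟨⟨a, ha⟩, y, ⟨⟨r, hr⟩, y1, y2, ⟨h3, h4⟩, ⟨⟨b, hb⟩, rfl⟩, rfl⟩, rfl⟩)
    · exact ⟨a, [], rfl, Or.inl ⟨ha, rfl⟩⟩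
    · refine ⟨a, _, rfl, Or.inr ⟨ha, y1, b, rfl, h3, ?_⟩⟩
      rw [h4]; exact hb
  · rintro ⟨a, y, rfl, ⟨h3, rfl⟩ | ⟨h3, y', b, rfl, h4, h5⟩⟩
    · exact Or.inl ⟨⟨a, h3⟩, rfl⟩
    · refine Or.inr ⟨⟨a, h3⟩, _, ⟨⟨_, runL_ne_of_avoid h3 h4⟩, y', [b], ⟨h4, rfl⟩, ⟨⟨b, h5⟩, rfl⟩,
        rfl⟩, rfl⟩

omit [Finite α] [Finite Q] [LinearOrder Q] in
theorem runL_of_firstRet {δ : α → Q → Q} {z : Q} {w : List α} (h : FirstRet δ z w) :
    runL δ z w = z := by
  obtain ⟨a, y, rfl, ⟨h3, rfl⟩ | ⟨h3, y', b, rfl, h4, h5⟩⟩ := h
  · exact h3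
  · rw [runL_cons, runL_append]
    exact h5

omit [Finite α] [Finite Q] [LinearOrder Q] in
/-- Words returning to the base factor into first returns. -/
theorem exists_flatten_of_runL (δ : α → Q → Q) (z : Q) (n : ℕ) (w : List α) (hn : w.length ≤ n)
    (h : runL δ z w = z) : ∃ S : List (List α), w = S.flatten ∧ ∀ y ∈ S, FirstRet δ z y := by
  classical
  induction n generalizing w with
  | zero =>
    have : w = [] := List.length_eq_zero_iff.1 (by omega)
    subst this
    exact ⟨[], rfl, by simp⟩
  | succ n ih =>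
    cases w with
    | nil => exact ⟨[], rfl, by simp⟩
    | cons a w =>
      have hlen : w.length ≤ n := by simpa using hn
      by_cases ha : δ a z = z
      · have h' : runL δ z w = z := by
          have : runL δ (δ a z) w = z := h
          rwa [ha] at this
        obtain ⟨S, rfl, hS⟩ := ih w hlen h'
        refine ⟨[a] :: S, rfl, ?_⟩
        intro y hy
        rcases List.mem_cons.1 hy with rfl | hy
        · exact ⟨a, [], rfl, Or.inl ⟨ha, rfl⟩⟩
        · exact hS y hy
      · have h0 : runL δ (δ a z) w = z := h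
        rcases avoid_or_hit δ z (δ a z) w with h1 | ⟨y, b, v, rfl, h1, h2⟩
        · exact absurd h0 (runL_ne_of_avoid ha h1)
        · have hv : runL δ z v = z := by
            rw [runL_append, runL_cons, h2] at h0
            exact h0
          have hvlen : v.length ≤ n := by
            simp only [List.length_append, List.length_cons] at hlen
            omega
          obtain ⟨S, rfl, hS⟩ := ih v hvlen hv
          refine ⟨(a :: (y ++ [b])) :: S, by simp, ?_⟩
          intro t ht
          rcases List.mem_cons.1 ht with rfl | ht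
          · exact ⟨a, _, rfl, Or.inr ⟨ha, y, b, rfl, h1, h2⟩⟩
          · exact hS t ht

/-- The words from the base to the base have height at most one. -/
theorem gsh_base {δ : α → Q → Q} {z : Q} (h : ∀ a q, q ≠ z → δ a q = z ∨ q ≤ δ a q) :
    GSH 1 {w | runL δ z w = z} := by
  refine (GSH.kstar (gsh_firstRet h)).of_ext (fun w => ?_)
  constructor
  · rintro ⟨S, rfl, hS⟩
    show runL δ z S.flatten = z
    induction S with
    | nil => rfl
    | cons y S ih =>
      rw [List.flatten_cons, runL_append, runL_of_firstRet (hS y (by simp))]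
      exact ih (fun t ht => hS t (List.mem_cons_of_mem _ ht))
  · intro hw
    exact exists_flatten_of_runL δ z _ w le_rfl hw

omit [Finite α] [Finite Q] [LinearOrder Q] in
/-- Last-exit decomposition. -/
theorem exists_lastExit (δ : α → Q → Q) (z q : Q) (hq : q ≠ z) (n : ℕ) (w : List α)
    (hn : w.length ≤ n) (h : runL δ z w = q) :
    ∃ u a y, w = u ++ a :: y ∧ runL δ z u = z ∧ δ a z ≠ z ∧ Avoid δ z (δ a z) y ∧
      runL δ (δ a z) y = q := by
  classical
  induction n generalizing w with
  | zero =>
    have : w = [] := List.length_eq_zero_iff.1 (by omega)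
    subst this
    exact absurd h.symm hq
  | succ n ih =>
    cases w with
    | nil => exact absurd h.symm hq
    | cons a w =>
      have hlen : w.length ≤ n := by simpa using hn
      have h0 : runL δ (δ a z) w = q := h
      by_cases ha : δ a z = z
      · rw [ha] at h0
        obtain ⟨u, b, y, rfl, h1, h2, h3, h4⟩ := ih w hlen h0
        exact ⟨a :: u, b, y, rfl, by simpa [ha] using h1, h2, h3, h4⟩
      · rcases avoid_or_hit δ z (δ a z) w with h1 | ⟨y, b, v, rfl, h1, h2⟩
        · exact ⟨[], a, w, rfl, rfl, ha, h1, h0⟩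
        · have hv : runL δ z v = q := by
            rw [runL_append, runL_cons, h2] at h0
            exact h0
          have hvlen : v.length ≤ n := by
            simp only [List.length_append, List.length_cons] at hlen
            omega
          obtain ⟨u, c, t, rfl, h3, h4, h5, h6⟩ := ih v hvlen hv
          refine ⟨a :: y ++ b :: u, c, t, by simp, ?_, h4, h5, h6⟩
          simp only [List.cons_append, runL_cons, runL_append, h2]
          exact h3

/-- Runs starting at the base. -/
theorem gsh_from_base {δ : α → Q → Q} {z : Q} (h : ∀ a q, q ≠ z → δ a q = z ∨ q ≤ δ a q) (q : Q) :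
    GSH 1 {w | runL δ z w = q} := by
  classical
  by_cases hq : q = z
  · subst hq; exact gsh_base h
  · have hS : GSH 1 {w : List α | ∃ a : {a : α // δ a z ≠ z}, ∃ y,
        (Avoid δ z (δ a.1 z) y ∧ runL δ (δ a.1 z) y = q) ∧ w = a.1 :: y} :=
      GSH.exists (fun a => GSH.cons_letter a.1 ((gsh_avoid h q _ a.2).mono (Nat.zero_le _)))
    refine ((gsh_base h).conc hS).of_ext (fun w => ?_)
    constructor
    · rintro ⟨x, y, h1, ⟨⟨a, ha⟩, y', ⟨h2, h3⟩, rfl⟩, rfl⟩
      show runL δ z (x ++ a :: y') = q
      have h1' : runL δ z x = z := h1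
      rw [runL_append, h1']
      exact h3
    · intro hw
      obtain ⟨u, a, y, rfl, h1, h2, h3, h4⟩ := exists_lastExit δ z q hq _ w le_rfl hw
      exact ⟨u, a :: y, h1, ⟨⟨a, h2⟩, y, ⟨h3, h4⟩, rfl⟩, rfl⟩

/-- All runs of a monotone-return automaton have generalized star height at most one. -/
theorem gsh_runL {δ : α → Q → Q} {z : Q} (h : ∀ a q, q ≠ z → δ a q = z ∨ q ≤ δ a q) (p q : Q) :
    GSH 1 {w | runL δ p w = q} := by
  classical
  by_cases hp : p = z
  · subst hp; exact gsh_from_base h q
  · have h1 : GSH 1 {w : List α | Avoid δ z p w ∧ runL δ p w = q} :=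
      (gsh_avoid h q p hp).mono (Nat.zero_le _)
    have h2 : GSH 1 {w : List α | ∃ r : Q, ∃ x y, (Avoid δ z p x ∧ runL δ p x = r) ∧
        (∃ b : {b : α // δ b r = z}, ∃ v, runL δ z v = q ∧ y = b.1 :: v) ∧ w = x ++ y} := by
      refine GSH.exists (fun r => ?_)
      refine ((gsh_avoid h r p hp).mono (Nat.zero_le _)).conc
        (GSH.exists (fun b => GSH.cons_letter b.1 (gsh_from_base h q)))
    refine (h1.or h2).of_ext (fun w => ?_)
    constructor
    · rintro (⟨_, h3⟩ | ⟨r, x, y, ⟨_, h4⟩, ⟨⟨b, hb⟩, v, h5, rfl⟩, rfl⟩)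
      · exact h3
      · show runL δ p (x ++ b :: v) = q
        rw [runL_append, runL_cons, h4, hb]
        exact h5
    · intro hw
      have hw' : runL δ p w = q := hw
      rcases avoid_or_hit δ z p w with h3 | ⟨y, b, v, rfl, h3, h4⟩
      · exact Or.inl ⟨h3, hw'⟩
      · refine Or.inr ⟨_, y, b :: v, ⟨h3, rfl⟩, ⟨⟨b, h4⟩, v, ?_, rfl⟩, rfl⟩
        rw [runL_append, runL_cons, h4] at hw'
        exact hw'

/-- The run reading the word from the right. -/
theorem gsh_foldr {δ : α → Q → Q} {z : Q} (h : ∀ a q, q ≠ z → δ a q = z ∨ q ≤ δ a q) (p q : Q) :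
    GSH 1 {w : List α | w.foldr δ p = q} := by
  refine (gsh_runL h p q).reverse.of_ext (fun w => ?_)
  refine Language.mem_reverse.trans ?_
  show runL δ p w.reverse = q ↔ w.foldr δ p = q
  rw [runL_eq_foldl, List.foldl_reverse]

end Vale.Agent.Lib.P329
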