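import Vale.Agent.Lib.P329.Good

/-!
Partial actions with no periodic behaviour are star-free: a direct proof of the relevant case of
Schutzenberger's theorem, by induction on the number of states and on the set of letters.  A letter
`c` that is not the identity strictly shrinks the set of states; words are cut into blocks ending
with `c`, and the blocks become the letters of a partial action on the smaller set of states.
-/

namespace Vale.Agent.Lib.P329

section Prun

variable {α P : Type}

/-- The run of a partial action. -/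
def prun (t : α → P → Option P) : P → List α → Option P
  | p, [] => some p
  | p, a :: w => (t a p).bind fun q => prun t q w

theorem prun_append (t : α → P → Option P) (p : P) (x y : List α) :
    prun t p (x ++ y) = (prun t p x).bind fun q => prun t q y := by
  induction x generalizing p with
  | nil => rfl
  | cons a x ih =>
    simp only [List.cons_append, prun]
    cases t a p with
    | none => rfl
    | some q => simp [ih]

/-- No periodic behaviour: a word that can be repeated forever from a state fixes that state. -/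
def Ap (t : α → P → Option P) : Prop :=
  ∀ (u : List α) (p : P), (∀ k, prun t p (wpow u k) ≠ none) → prun t p u = some p

end Prun

section Block

variable {α P : Type} (t : α → P → Option P) (c : α) (A₀ : Finset α)

/-- The states reached by the letter `c`. -/
abbrev Img : Type := {p : P // ∃ s, t c s = some p}

/-- The letter `c`, with values in its image. -/
noncomputable def tc (s : P) : Option (Img t c) :=
  match h : t c s with
  | none => none
  | some r => some ⟨r, s, h⟩

theorem tc_some {s : P} {q : Img t c} : tc t c s = some q ↔ t c s = some q.1 := by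
  unfold tc
  split
  · next h => simp [h]
  · next r h =>
    simp only [Option.some.injEq, h]
    constructor
    · rintro rfl; rfl
    · intro e; exact Subtype.ext e

theorem tc_none {s : P} : tc t c s = none ↔ t c s = none := by
  unfold tc
  split
  · next h => simp [h]
  · next r h => simp [h]

/-- The action of a block `v c` on the image. -/
noncomputable def blockP (v : List α) (p : Img t c) : Option (Img t c) :=
  (prun t p.1 v).bind (tc t c)

/-- The new alphabet: the actions of the blocks with `v` over `A₀`. -/
abbrev BAlpha : Type :=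
  {g : Img t c → Option (Img t c) // ∃ v : List α, (∀ x ∈ v, x ∈ A₀) ∧ ∀ p, g p = blockP t c v p}

/-- The new partial action. -/
def t₂ (g : BAlpha t c A₀) (p : Img t c) : Option (Img t c) := g.1 p

/-- A word cut into blocks. -/
inductive BlockRel : List α → List (BAlpha t c A₀) → Prop
  | nil : BlockRel [] []
  | cons {w v w' : List α} {g : BAlpha t c A₀} {w₂ : List (BAlpha t c A₀)} :
      w = v ++ c :: w' → (∀ x ∈ v, x ∈ A₀) → (∀ p, g.1 p = blockP t c v p) → BlockRel w' w₂ →
        BlockRel w (g :: w₂)

variable {t c A₀}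

theorem BlockRel.append {x y : List α} {x₂ y₂ : List (BAlpha t c A₀)}
    (hx : BlockRel t c A₀ x x₂) (hy : BlockRel t c A₀ y y₂) :
    BlockRel t c A₀ (x ++ y) (x₂ ++ y₂) := by
  induction hx with
  | nil => exact hy
  | cons h0 h1 h2 _ ih =>
    subst h0
    rw [List.cons_append]
    exact BlockRel.cons (by simp) h1 h2 ih

theorem BlockRel.split {w : List α} {x₂ y₂ : List (BAlpha t c A₀)}
    (h : BlockRel t c A₀ w (x₂ ++ y₂)) :
    ∃ x y, w = x ++ y ∧ BlockRel t c A₀ x x₂ ∧ BlockRel t c A₀ y y₂ := by
  induction x₂ generalizing w with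
  | nil => exact ⟨[], w, rfl, BlockRel.nil, h⟩
  | cons g x₂ ih =>
    cases h with
    | cons h0 h1 h2 h3 =>
      obtain ⟨x, y, rfl, h4, h5⟩ := ih h3
      subst h0
      exact ⟨_ ++ c :: x, y, by simp, BlockRel.cons rfl h1 h2 h4, h5⟩

theorem split_first (hc : c ∉ A₀) {v v' w w' : List α} (e : v ++ c :: w = v' ++ c :: w')
    (hv : ∀ x ∈ v, x ∈ A₀) (hv' : ∀ x ∈ v', x ∈ A₀) : v = v' ∧ w = w' := by
  induction v generalizing v' with
  | nil =>
    cases v' with
    | nil => simpa using e
    | cons a v' =>
      simp only [List.nil_append, List.cons_append, List.cons.injEq] at e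
      exact absurd (hv' a (by simp)) (by rw [← e.1]; exact hc)
  | cons b v ih =>
    cases v' with
    | nil =>
      simp only [List.nil_append, List.cons_append, List.cons.injEq] at e
      exact absurd (hv b (by simp)) (by rw [e.1]; exact hc)
    | cons a v' =>
      simp only [List.cons_append, List.cons.injEq] at e
      obtain ⟨h1, h2⟩ := ih e.2 (fun x hx => hv x (List.mem_cons_of_mem _ hx))
        (fun x hx => hv' x (List.mem_cons_of_mem _ hx))
      rw [e.1, h1]
      exact ⟨rfl, h2⟩

theorem BlockRel.unique (hc : c ∉ A₀) {w : List α} {w₂ w₂' : List (BAlpha t c A₀)}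
    (h : BlockRel t c A₀ w w₂) (h' : BlockRel t c A₀ w w₂') : w₂ = w₂' := by
  induction h generalizing w₂' with
  | nil =>
    cases h' with
    | nil => rfl
    | cons h0 h1 h2 h3 => simp at h0
  | cons h0 h1 h2 _ ih =>
    cases h' with
    | nil => simp at h0
    | cons h0' h1' h2' h3' =>
      obtain ⟨hv, hw⟩ := split_first hc (h0.symm.trans h0') h1 h1'
      subst hv hw
      rw [ih h3']
      congr 1
      exact Subtype.ext (funext fun p => (h2 p).trans (h2' p).symm)

/-- Runs of the new partial action and of the old one. -/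
theorem BlockRel.run {w : List α} {w₂ : List (BAlpha t c A₀)} (h : BlockRel t c A₀ w w₂)
    (p : Img t c) : (prun (t₂ t c A₀) p w₂).map Subtype.val = prun t p.1 w := by
  induction h generalizing p with
  | nil => rfl
  | @cons w v w' g w₂ h0 h1 h2 _ ih =>
    subst h0
    rw [prun_append]
    simp only [prun, t₂, h2, blockP]
    cases prun t p.1 v with
    | none => rfl
    | some s =>
      simp only [Option.bind_some]
      cases ht : tc t c s with
      | none =>
        rw [(tc_none t c).1 ht]
        rfl
      | some q =>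
        rw [(tc_some t c).1 ht]
        exact ih q

theorem exists_blockRel (w₂ : List (BAlpha t c A₀)) : ∃ w, BlockRel t c A₀ w w₂ := by
  induction w₂ with
  | nil => exact ⟨[], BlockRel.nil⟩
  | cons g w₂ ih =>
    obtain ⟨w, hw⟩ := ih
    obtain ⟨v, hv, hg⟩ := g.2
    exact ⟨_, BlockRel.cons rfl hv hg hw⟩

theorem blockRel_wpow {u : List α} {u₂ : List (BAlpha t c A₀)} (h : BlockRel t c A₀ u u₂)
    (k : ℕ) : BlockRel t c A₀ (wpow u k) (wpow u₂ k) := by
  induction k with
  | zero => exact BlockRel.nil
  | succ k ih => exact h.append ih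

/-- The new partial action has no periodic behaviour. -/
theorem ap_t₂ (hA : Ap t) : Ap (t₂ t c A₀) := by
  intro u₂ p hu
  obtain ⟨u, hrel⟩ := exists_blockRel u₂
  have h1 : prun t p.1 u = some p.1 := by
    refine hA u p.1 (fun k => ?_)
    rw [← (blockRel_wpow hrel k).run p]
    intro h0
    exact hu k (Option.map_eq_none_iff.1 h0)
  rw [← hrel.run p] at h1
  obtain ⟨q, hq, hq2⟩ := Option.map_eq_some_iff.1 h1
  rw [hq, Subtype.ext hq2]

/-- The image is smaller when `c` is not the identity. -/
theorem card_img_lt [Finite P] (hA : Ap t) (hc : ¬ ∀ s, t c s = some s) :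
    Nat.card (Img t c) < Nat.card P := by
  by_contra hlt
  have hinj : Function.Injective (Subtype.val : Img t c → P) := Subtype.val_injective
  have hbij := hinj.bijective_of_nat_card_le (not_lt.1 hlt)
  have hsurj : ∀ p, ∃ s, t c s = some p := fun p => by
    obtain ⟨q, rfl⟩ := hbij.2 p
    exact q.2
  choose g hg using hsurj
  have hginj : Function.Injective g := fun a b hab => by
    have : some a = some b := by rw [← hg a, ← hg b, hab]
    exact Option.some.inj this
  have hgsurj := Finite.injective_iff_surjective.1 hginj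
  have htotal : ∀ s, ∃ p, t c s = some p := fun s => by
    obtain ⟨p, rfl⟩ := hgsurj s
    exact ⟨p, hg p⟩
  apply hc
  intro s
  have hk : ∀ (k : ℕ) (s : P), prun t s (wpow [c] k) ≠ none := by
    intro k
    induction k with
    | zero => intro s; simp [prun]
    | succ k ih =>
      intro s
      obtain ⟨p, hp⟩ := htotal s
      simp only [wpow_succ, List.singleton_append, prun, hp, Option.bind_some]
      exact ih p
  have := hA [c] s (fun k => hk k s)
  simpa [prun] using this

end Block

section Pull

variable {α P : Type} [Finite P] {t : α → P → Option P} {c : α} {A₀ : Finset α}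

/-- Right multiplication by a letter. -/
theorem GSH.snoc_letter {k : ℕ} (a : α) {R : List α → Prop} (h : GSH k {w | R w}) :
    GSH k {w | ∃ y, R y ∧ w = y ++ [a]} := by
  have h2 : GSH k {w : List α | w = [a]} := GSH.letter k a
  refine (h.conc h2).of_ext (fun w => ?_)
  constructor
  · rintro ⟨x, y, hx, rfl, rfl⟩
    exact ⟨x, hx, rfl⟩
  · rintro ⟨y, hy, rfl⟩
    exact ⟨y, [a], hy, rfl, rfl⟩

/-- Pull-back of star-free languages over the alphabet of blocks. -/
theorem gsh_pull (hc : c ∉ A₀)
    (hletter : ∀ g : BAlpha t c A₀, GSH 0 {w : List α | ∃ v, ((∀ x ∈ v, x ∈ A₀) ∧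
      ∀ p, g.1 p = blockP t c v p) ∧ w = v ++ [c]})
    (hY : GSH 0 {w : List α | ∃ w₂, BlockRel t c A₀ w w₂})
    (e : GRE (BAlpha t c A₀)) (he : e.height = 0) :
    ∃ F : List α → Prop, GSH 0 {w | F w} ∧
      (∀ w w₂, BlockRel t c A₀ w w₂ → (F w ↔ w₂ ∈ e.lang)) ∧
      (∀ w, F w → ∃ w₂, BlockRel t c A₀ w w₂) := by
  induction e with
  | zero =>
    refine ⟨fun _ => False, ?_, ?_, ?_⟩
    · exact (GSH.zero 0).of_ext (fun w => ⟨fun h => absurd h (Language.notMem_zero w), fun h => h.elim⟩)
    · intro w w₂ _
      exact ⟨fun h => h.elim, fun h => absurd h (Language.notMem_zero _)⟩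
    · exact fun _ h => h.elim
  | one =>
    refine ⟨fun w => w = [], ?_, ?_, ?_⟩
    · exact (GSH.one 0).of_ext (fun w => Language.mem_one _)
    · intro w w₂ h
      constructor
      · rintro rfl
        cases h with
        | nil => exact (Language.mem_one _).2 rfl
        | cons h0 _ _ _ => simp at h0
      · intro h2
        have h3 : w₂ = [] := (Language.mem_one _).1 h2
        subst h3
        cases h with
        | nil => rfl
    · rintro w rfl
      exact ⟨[], BlockRel.nil⟩
  | letter g =>
    refine ⟨fun w => ∃ v, ((∀ x ∈ v, x ∈ A₀) ∧ ∀ p, g.1 p = blockP t c v p) ∧ w = v ++ [c],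
      hletter g, ?_, ?_⟩
    · intro w w₂ h
      constructor
      · rintro ⟨v, ⟨h1, h2⟩, rfl⟩
        have h3 : BlockRel t c A₀ (v ++ [c]) [g] := BlockRel.cons rfl h1 h2 BlockRel.nil
        rw [h.unique hc h3]
        rfl
      · intro h2
        have h3 : w₂ = [g] := h2
        subst h3
        cases h with
        | cons h0 h1 h2' h3' =>
          cases h3' with
          | nil => exact ⟨_, ⟨h1, h2'⟩, h0⟩
    · rintro w ⟨v, ⟨h1, h2⟩, rfl⟩
      exact ⟨[g], BlockRel.cons rfl h1 h2 BlockRel.nil⟩
  | union P Q ihP ihQ =>
    have hP0 : P.height = 0 := by simp only [GRE.height] at he; omega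
    have hQ0 : Q.height = 0 := by simp only [GRE.height] at he; omega
    obtain ⟨F1, h1, h2, h3⟩ := ihP hP0
    obtain ⟨F2, h4, h5, h6⟩ := ihQ hQ0
    refine ⟨fun w => F1 w ∨ F2 w, h1.or h4, ?_, ?_⟩
    · intro w w₂ h
      show F1 w ∨ F2 w ↔ w₂ ∈ P.lang + Q.lang
      rw [h2 w w₂ h, h5 w w₂ h]
      exact (Language.mem_add _ _ _).symm
    · rintro w (h | h)
      · exact h3 w h
      · exact h6 w h
  | conc P Q ihP ihQ =>
    have hP0 : P.height = 0 := by simp only [GRE.height] at he; omega
    have hQ0 : Q.height = 0 := by simp only [GRE.height] at he; omega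
    obtain ⟨F1, h1, h2, h3⟩ := ihP hP0
    obtain ⟨F2, h4, h5, h6⟩ := ihQ hQ0
    refine ⟨fun w => ∃ x y, F1 x ∧ F2 y ∧ w = x ++ y, h1.conc h4, ?_, ?_⟩
    · intro w w₂ h
      constructor
      · rintro ⟨x, y, hx, hy, rfl⟩
        obtain ⟨x₂, hx₂⟩ := h3 x hx
        obtain ⟨y₂, hy₂⟩ := h6 y hy
        rw [h.unique hc (hx₂.append hy₂)]
        exact Language.append_mem_mul ((h2 x x₂ hx₂).1 hx) ((h5 y y₂ hy₂).1 hy)
      · intro hw
        obtain ⟨x₂, hx₂, y₂, hy₂, rfl⟩ := Language.mem_mul.1 hw
        obtain ⟨x, y, rfl, h7, h8⟩ := h.split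
        exact ⟨x, y, (h2 x x₂ h7).2 hx₂, (h5 y y₂ h8).2 hy₂, rfl⟩
    · rintro w ⟨x, y, hx, hy, rfl⟩
      obtain ⟨x₂, hx₂⟩ := h3 x hx
      obtain ⟨y₂, hy₂⟩ := h6 y hy
      exact ⟨_, hx₂.append hy₂⟩
  | compl P ih =>
    obtain ⟨F, h1, h2, _⟩ := ih he
    refine ⟨fun w => (∃ w₂, BlockRel t c A₀ w w₂) ∧ ¬ F w, hY.and h1.not, ?_, ?_⟩
    · intro w w₂ h
      constructor
      · rintro ⟨_, h4⟩
        intro h5
        exact h4 ((h2 w w₂ h).2 h5)
      · intro h4
        exact ⟨⟨w₂, h⟩, fun h5 => h4 ((h2 w w₂ h).1 h5)⟩
    · rintro w ⟨h, _⟩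
      exact h
  | star P _ =>
    simp [GRE.height] at he

end Pull

section Main

variable {α P : Type} {t : α → P → Option P} {c : α} {A₀ : Finset α}

theorem blockRel_letters {w : List α} {w₂ : List (BAlpha t c A₀)} (h : BlockRel t c A₀ w w₂) :
    (∀ x ∈ w, x ∈ A₀ ∨ x = c) ∧ (w = [] ∨ ∃ y, w = y ++ [c]) := by
  induction h with
  | nil => exact ⟨by simp, Or.inl rfl⟩
  | @cons w v w' g w₂ h0 h1 _ _ ih =>
    subst h0
    refine ⟨?_, Or.inr ?_⟩
    · intro x hx
      rcases List.mem_append.1 hx with hx | hx
      · exact Or.inl (h1 x hx)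
      · rcases List.mem_cons.1 hx with rfl | hx
        · exact Or.inr rfl
        · exact ih.1 x hx
    · rcases ih.2 with rfl | ⟨y, rfl⟩
      · exact ⟨v, rfl⟩
      · exact ⟨v ++ c :: y, by simp⟩

theorem exists_blockRel_of (hc : c ∉ A₀) (n : ℕ) (w : List α) (hn : w.length ≤ n)
    (h1 : ∀ x ∈ w, x ∈ A₀ ∨ x = c) (h2 : w = [] ∨ ∃ y, w = y ++ [c]) :
    ∃ w₂, BlockRel t c A₀ w w₂ := by
  classical
  induction n generalizing w with
  | zero =>
    have : w = [] := List.length_eq_zero_iff.1 (by omega)
    subst this
    exact ⟨[], BlockRel.nil⟩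
  | succ n ih =>
    rcases h2 with rfl | ⟨y, rfl⟩
    · exact ⟨[], BlockRel.nil⟩
    · have hmem : c ∈ y ++ [c] := by simp
      obtain ⟨as, bs, hab, has⟩ := List.eq_append_cons_of_mem hmem
      have hv : ∀ x ∈ as, x ∈ A₀ := by
        intro x hx
        have hxw : x ∈ y ++ [c] := by rw [hab]; exact List.mem_append_left _ hx
        rcases h1 x hxw with h | h
        · exact h
        · subst h; exact absurd hx has
      have hbs1 : ∀ x ∈ bs, x ∈ A₀ ∨ x = c := by
        intro x hx
        apply h1
        rw [hab]
        simp [hx]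
      have hbs2 : bs = [] ∨ ∃ y', bs = y' ++ [c] := by
        rcases List.eq_nil_or_concat' bs with h0 | ⟨b', e, h0⟩
        · exact Or.inl h0
        · right
          subst h0
          have h3 : y ++ [c] = (as ++ c :: b') ++ [e] := by rw [hab]; simp
          have h4 := (List.append_inj' h3 rfl).2
          have h5 : c = e := by simpa using h4
          exact ⟨b', by rw [h5]⟩
      have hlen : bs.length ≤ n := by
        have := congrArg List.length hab
        simp only [List.length_append, List.length_cons, List.length_nil] at this hn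
        omega
      obtain ⟨w₂, hw₂⟩ := ih bs hlen hbs1 hbs2
      exact ⟨⟨blockP t c as, as, hv, fun _ => rfl⟩ :: w₂,
        BlockRel.cons hab hv (fun _ => rfl) hw₂⟩

theorem split_last (w : List α) (h1 : ∀ x ∈ w, x ∈ A₀ ∨ x = c) :
    ∃ y z, w = y ++ z ∧ (y = [] ∨ ∃ y', y = y' ++ [c]) ∧ ∀ x ∈ z, x ∈ A₀ := by
  induction w with
  | nil => exact ⟨[], [], rfl, Or.inl rfl, by simp⟩
  | cons a w ih =>
    obtain ⟨y, z, rfl, h2, h3⟩ := ih (fun x hx => h1 x (List.mem_cons_of_mem _ hx))
    rcases h2 with rfl | ⟨y', rfl⟩
    · rcases h1 a (by simp) with h | h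
      · refine ⟨[], a :: z, rfl, Or.inl rfl, ?_⟩
        intro x hx
        rcases List.mem_cons.1 hx with rfl | hx
        · exact h
        · exact h3 x hx
      · subst h
        exact ⟨[a], z, rfl, Or.inr ⟨[], rfl⟩, h3⟩
    · exact ⟨a :: (y' ++ [c]), z, rfl, Or.inr ⟨a :: y', rfl⟩, h3⟩

/-- **Partial actions with no periodic behaviour are star-free.** -/
theorem gsh_prun (n : ℕ) : ∀ {α P : Type} [Finite α] [Finite P] (t : α → P → Option P),
    Nat.card P ≤ n → Ap t → ∀ (A : Finset α) (p r : P),
      GSH 0 {w : List α | (∀ x ∈ w, x ∈ A) ∧ prun t p w = some r} := by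
  induction n with
  | zero =>
    intro α P _ _ t hn _ A p r
    have hempty : Nat.card P = 0 := by omega
    have hpos : 0 < Nat.card P := Nat.card_pos_iff.2 ⟨⟨p⟩, inferInstance⟩
    omega
  | succ n ihn =>
    intro α P _ _ t hn hA A
    classical
    induction A using Finset.strongInduction with
    | H A ihA =>
      intro p r
      by_cases hid : ∀ c ∈ A, ∀ s, t c s = some s
      · have hrun : ∀ (w : List α), (∀ x ∈ w, x ∈ A) → ∀ s, prun t s w = some s := by
          intro w
          induction w with
          | nil => intro _ s; rfl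
          | cons a w ih =>
            intro hw s
            simp only [prun, hid a (hw a (by simp)) s, Option.bind_some]
            exact ih (fun x hx => hw x (List.mem_cons_of_mem _ hx)) s
        by_cases hpr : p = r
        · refine (GSH.allIn 0 (fun x => x ∈ A)).of_ext (fun w => ?_)
          constructor
          · intro hw
            refine ⟨hw, ?_⟩
            rw [hrun w hw p, hpr]
          · exact fun h => h.1
        · refine (GSH.bot 0).of_ext (fun w => ?_)
          constructor
          · intro h
            exact absurd h (Language.notMem_zero w)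
          · rintro ⟨hw, h⟩
            rw [hrun w hw p] at h
            exact absurd (Option.some.inj h) hpr
      · simp only [not_forall] at hid
        obtain ⟨c, hcA, hcid⟩ := hid
        have hcid' : ¬ ∀ s, t c s = some s := by
          intro h
          obtain ⟨s, hs⟩ := hcid
          exact hs (h s)
        set A₀ := A.erase c with hA₀def
        have hA₀ : A₀ ⊂ A := Finset.erase_ssubset hcA
        have hc₀ : c ∉ A₀ := Finset.notMem_erase c A
        have hmemA : ∀ x, x ∈ A ↔ x ∈ A₀ ∨ x = c := by
          intro x
          rw [hA₀def, Finset.mem_erase]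
          constructor
          · intro h
            by_cases hx : x = c
            · exact Or.inr hx
            · exact Or.inl ⟨hx, h⟩
          · rintro (h | rfl)
            · exact h.2
            · exact hcA
        have IH := ihA A₀ hA₀
        -- values of blocks
        have hallA₀ : GSH 0 {v : List α | ∀ x ∈ v, x ∈ A₀} := GSH.allIn 0 (fun x => x ∈ A₀)
        have hblockval : ∀ (s : P) (o : Option (Img t c)),
            GSH 0 {v : List α | (∀ x ∈ v, x ∈ A₀) ∧ (prun t s v).bind (tc t c) = o} := by
          intro s o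
          have h1 : GSH 0 {v : List α | ∃ s' : P, ((∀ x ∈ v, x ∈ A₀) ∧ prun t s v = some s') ∧
              tc t c s' = o} := by
            refine GSH.exists (fun s' => ?_)
            by_cases hs' : tc t c s' = o
            · exact (IH s s').of_ext (fun v => ⟨fun h => ⟨h, hs'⟩, fun h => h.1⟩)
            · refine (GSH.bot 0).of_ext (fun v => ⟨fun h => absurd h (Language.notMem_zero v), ?_⟩)
              rintro ⟨_, h⟩
              exact absurd h hs'
          cases o with
          | some q =>
            refine h1.of_ext (fun v => ?_)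
            constructor
            · rintro ⟨s', ⟨h2, h3⟩, h4⟩
              exact ⟨h2, by rw [h3]; exact h4⟩
            · rintro ⟨h2, h3⟩
              obtain ⟨s', h5, h6⟩ := Option.bind_eq_some_iff.1 h3
              exact ⟨s', ⟨h2, h5⟩, h6⟩
          | none =>
            have h2 : GSH 0 {v : List α | (∀ x ∈ v, x ∈ A₀) ∧ ¬ ∃ s' : P,
                (∀ x ∈ v, x ∈ A₀) ∧ prun t s v = some s'} :=
              hallA₀.and (GSH.exists (fun s' => IH s s')).not
            refine (h1.or h2).of_ext (fun v => ?_)
            constructor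
            · rintro (⟨s', ⟨h3, h4⟩, h5⟩ | ⟨h3, h4⟩)
              · exact ⟨h3, by rw [h4]; exact h5⟩
              · refine ⟨h3, ?_⟩
                cases h5 : prun t s v with
                | none => rfl
                | some s' => exact absurd ⟨s', h3, h5⟩ h4
            · rintro ⟨h3, h4⟩
              cases h5 : prun t s v with
              | none =>
                refine Or.inr ⟨h3, ?_⟩
                rintro ⟨s', _, h6⟩
                rw [h5] at h6
                exact absurd h6 (by simp)
              | some s' =>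
                refine Or.inl ⟨s', ⟨h3, h5⟩, ?_⟩
                rw [h5] at h4
                exact h4
        -- letters of the new alphabet
        have hletter : ∀ g : BAlpha t c A₀, GSH 0 {w : List α | ∃ v, ((∀ x ∈ v, x ∈ A₀) ∧
            ∀ p, g.1 p = blockP t c v p) ∧ w = v ++ [c]} := by
          intro g
          have h1 : GSH 0 {v : List α | ∀ p : Img t c,
              (∀ x ∈ v, x ∈ A₀) ∧ (prun t p.1 v).bind (tc t c) = g.1 p} :=
            GSH.forall (fun p => hblockval p.1 (g.1 p))
          have h2 : GSH 0 {v : List α | (∀ x ∈ v, x ∈ A₀) ∧ ∀ p, g.1 p = blockP t c v p} :=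
            (hallA₀.and h1).of_ext (fun v => by
              constructor
              · rintro ⟨h3, h4⟩
                exact ⟨h3, fun p => (h4 p).2.symm⟩
              · rintro ⟨h3, h4⟩
                exact ⟨h3, fun p => ⟨h3, (h4 p).symm⟩⟩)
          exact GSH.snoc_letter c h2
        -- block words
        have hY : GSH 0 {w : List α | ∃ w₂, BlockRel t c A₀ w w₂} := by
          have h1 : GSH 0 {w : List α | ∀ x ∈ w, x ∈ A} := GSH.allIn 0 (fun x => x ∈ A)
          have h2 : GSH 0 {w : List α | w = []} :=
            (GSH.one 0).of_ext (fun w => Language.mem_one _)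
          have h3 : GSH 0 {w : List α | ∃ y, True ∧ w = y ++ [c]} :=
            GSH.snoc_letter c (GSH.univ 0)
          refine (h1.and (h2.or h3)).of_ext (fun w => ?_)
          constructor
          · rintro ⟨h4, h5⟩
            refine exists_blockRel_of hc₀ _ w le_rfl (fun x hx => (hmemA x).1 (h4 x hx)) ?_
            rcases h5 with h5 | ⟨y, _, h5⟩
            · exact Or.inl h5
            · exact Or.inr ⟨y, h5⟩
          · rintro ⟨w₂, h4⟩
            obtain ⟨h5, h6⟩ := blockRel_letters h4
            refine ⟨fun x hx => (hmemA x).2 (h5 x hx), ?_⟩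
            rcases h6 with h6 | ⟨y, h6⟩
            · exact Or.inl h6
            · exact Or.inr ⟨y, trivial, h6⟩
        -- the smaller partial action
        have hcard : Nat.card (Img t c) ≤ n := by
          have := card_img_lt hA hcid'
          omega
        haveI : Fintype (BAlpha t c A₀) := Fintype.ofFinite _
        have hsmall := ihn (t₂ t c A₀) hcard (ap_t₂ hA) Finset.univ
        have hF : ∀ p₁ p₂ : Img t c, ∃ F : List α → Prop, GSH 0 {w | F w} ∧
            (∀ w w₂, BlockRel t c A₀ w w₂ → (F w ↔ prun (t₂ t c A₀) p₁ w₂ = some p₂)) ∧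
            (∀ w, F w → ∃ w₂, BlockRel t c A₀ w w₂) := by
          intro p₁ p₂
          obtain ⟨e, he, hl⟩ := hsmall p₁ p₂
          obtain ⟨F, h1, h2, h3⟩ := gsh_pull (P := P) hc₀ hletter hY e (Nat.le_zero.1 he)
          refine ⟨F, h1, fun w w₂ h => ?_, h3⟩
          rw [h2 w w₂ h, hl]
          constructor
          · exact fun h4 => h4.2
          · exact fun h4 => ⟨fun x _ => Finset.mem_univ x, h4⟩
        choose F hF1 hF2 hF3 using hF
        -- first blocks
        have hH : ∀ p₁ : Img t c, GSH 0 {x : List α | ∃ v, ((∀ y ∈ v, y ∈ A₀) ∧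
            (prun t p v).bind (tc t c) = some p₁) ∧ x = v ++ [c]} :=
          fun p₁ => GSH.snoc_letter c (hblockval p (some p₁))
        have hmain : GSH 0 {w : List α | ((∀ x ∈ w, x ∈ A₀) ∧ prun t p w = some r) ∨
            ∃ p₁ : Img t c, ∃ p₂ : Img t c, ∃ x y, (∃ v, ((∀ y ∈ v, y ∈ A₀) ∧
              (prun t p v).bind (tc t c) = some p₁) ∧ x = v ++ [c]) ∧
              (∃ y1 z, F p₁ p₂ y1 ∧ ((∀ x ∈ z, x ∈ A₀) ∧ prun t p₂.1 z = some r) ∧ y = y1 ++ z) ∧
              w = x ++ y} :=
          (IH p r).or (GSH.exists fun p₁ => GSH.exists fun p₂ =>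
            (hH p₁).conc ((hF1 p₁ p₂).conc (IH p₂.1 r)))
        refine hmain.of_ext (fun w => ?_)
        constructor
        · rintro (⟨h1, h2⟩ | ⟨p₁, p₂, x, y, ⟨v, ⟨h1, h2⟩, rfl⟩, ⟨y1, z, h3, ⟨h4, h5⟩, rfl⟩, rfl⟩)
          · exact ⟨fun x hx => (hmemA x).2 (Or.inl (h1 x hx)), h2⟩
          · obtain ⟨y₂, hy₂⟩ := hF3 p₁ p₂ y1 h3
            have h6 := (hF2 p₁ p₂ y1 y₂ hy₂).1 h3
            have h7 := hy₂.run p₁
            rw [h6] at h7
            obtain ⟨s, h8, h9⟩ := Option.bind_eq_some_iff.1 h2
            have h10 := (tc_some t c).1 h9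
            refine ⟨?_, ?_⟩
            · intro a ha
              rw [hmemA]
              simp only [List.mem_append, List.mem_singleton] at ha
              rcases ha with (ha | ha) | ha | ha
              · exact Or.inl (h1 a ha)
              · exact Or.inr ha
              · exact (blockRel_letters hy₂).1 a ha
              · exact Or.inl (h4 a ha)
            · rw [prun_append, prun_append, h8]
              simp only [Option.bind_some, prun, h10]
              rw [prun_append, ← h7]
              simp only [Option.map_some, Option.bind_some]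
              exact h5
        · rintro ⟨h1, h2⟩
          by_cases hcw : c ∈ w
          · right
            obtain ⟨as, bs, rfl, has⟩ := List.eq_append_cons_of_mem hcw
            have hv : ∀ x ∈ as, x ∈ A₀ := by
              intro x hx
              rcases (hmemA x).1 (h1 x (by simp [hx])) with h | h
              · exact h
              · subst h; exact absurd hx has
            have hbs : ∀ x ∈ bs, x ∈ A₀ ∨ x = c := fun x hx => (hmemA x).1 (h1 x (by simp [hx]))
            obtain ⟨y, z, rfl, hy, hz⟩ := split_last (A₀ := A₀) (c := c) bs hbs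
            obtain ⟨y₂, hy₂⟩ := exists_blockRel_of (t := t) hc₀ _ y le_rfl
              (fun x hx => hbs x (by simp [hx])) hy
            rw [prun_append] at h2
            obtain ⟨s, hs, h3⟩ := Option.bind_eq_some_iff.1 h2
            simp only [prun] at h3
            obtain ⟨q, hq, h4⟩ := Option.bind_eq_some_iff.1 h3
            rw [prun_append] at h4
            obtain ⟨s', hs', h5⟩ := Option.bind_eq_some_iff.1 h4
            let p₁ : Img t c := ⟨q, s, hq⟩
            have h6 := hy₂.run p₁
            rw [show p₁.1 = q from rfl, hs'] at h6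
            obtain ⟨p₂, hp₂, hp₂'⟩ := Option.map_eq_some_iff.1 h6
            refine ⟨p₁, p₂, as ++ [c], y ++ z, ⟨as, ⟨hv, ?_⟩, rfl⟩,
              ⟨y, z, (hF2 p₁ p₂ y y₂ hy₂).2 hp₂, ⟨hz, ?_⟩, rfl⟩, by simp⟩
            · rw [hs]
              exact (tc_some t c).2 hq
            · rw [hp₂']
              exact h5
          · left
            refine ⟨fun x hx => ?_, h2⟩
            rcases (hmemA x).1 (h1 x hx) with h | h
            · exact h
            · subst h; exact absurd hx hcw

end Main

end Vale.Agent.Lib.P329
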