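import Vale.Agent.Lib.P329.SubCount

/-!
Polynomial maps from words to a filtered group (in the style of Lazard and Leibman): maps whose
iterated left differences fall into deeper and deeper terms of a filtration.  They are closed under
products, inverses and commutators.
-/

namespace Vale.Agent.Lib.P329

open scoped commutatorElement

variable {α G : Type*} [Group G]

/-- Left difference of a map on words. -/
def lDiff (b : α) (f : List α → G) : List α → G := fun w => f (b :: w) * (f w)⁻¹

/-- A filtration: decreasing, with commutators adding the levels. -/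
structure IsFiltration (F : ℕ → Subgroup G) : Prop where
  anti : Antitone F
  comm : ∀ i j x y, x ∈ F i → y ∈ F j → ⁅x, y⁆ ∈ F (i + j)

/-- Polynomial up to order `m`, starting at level `k`. -/
def PolM (F : ℕ → Subgroup G) : ℕ → ℕ → (List α → G) → Prop
  | 0, k, f => ∀ w, f w ∈ F k
  | m + 1, k, f => (∀ w, f w ∈ F k) ∧ ∀ b, PolM F m (k + 1) (lDiff b f)

variable {F : ℕ → Subgroup G}

theorem PolM.mem {m k : ℕ} {f : List α → G} (h : PolM F m k f) (w : List α) : f w ∈ F k := by
  cases m with
  | zero => exact h w
  | succ m => exact h.1 w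

theorem PolM.mono_order : ∀ {m k : ℕ} {f : List α → G}, PolM F (m + 1) k f → PolM F m k f
  | 0, _, _, h => h.1
  | m + 1, _, _, h => ⟨h.1, fun b => PolM.mono_order (h.2 b)⟩

theorem PolM.mono_level (hF : Antitone F) :
    ∀ {m k k' : ℕ} {f : List α → G}, k' ≤ k → PolM F m k f → PolM F m k' f
  | 0, _, _, _, hk, h => fun w => hF hk (h w)
  | _ + 1, _, _, _, hk, h =>
    ⟨fun w => hF hk (h.1 w), fun b => PolM.mono_level hF (Nat.succ_le_succ hk) (h.2 b)⟩

theorem PolM.congr {m k : ℕ} {f g : List α → G} (h : PolM F m k f) (e : ∀ w, f w = g w) :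
    PolM F m k g := by
  have : f = g := funext e
  rwa [← this]

theorem PolM.one : ∀ (m k : ℕ), PolM F m k (fun _ : List α => (1 : G))
  | 0, _ => fun _ => one_mem _
  | m + 1, k => ⟨fun _ => one_mem _, fun b =>
      (PolM.one m (k + 1)).congr (fun w => by simp [lDiff])⟩

theorem PolM.const {a : G} {k : ℕ} (ha : a ∈ F k) : ∀ (m : ℕ), PolM F m k (fun _ : List α => a)
  | 0 => fun _ => ha
  | m + 1 => ⟨fun _ => ha, fun b => (PolM.one m (k + 1)).congr (fun w => by simp [lDiff])⟩

/-- The closure properties, proved simultaneously by induction on the order. -/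
theorem PolM.closure (hF : IsFiltration F) (m : ℕ) :
    (∀ k (f g : List α → G), PolM F m k f → PolM F m k g → PolM F m k (fun w => f w * g w)) ∧
    (∀ k (f : List α → G), PolM F m k f → PolM F m k (fun w => (f w)⁻¹)) ∧
    (∀ j k (f g : List α → G), PolM F m j f → PolM F m k g →
      PolM F m (j + k) (fun w => ⁅f w, g w⁆)) := by
  induction m with
  | zero =>
    refine ⟨fun k f g hf hg w => mul_mem (hf w) (hg w), fun k f hf w => inv_mem (hf w),
      fun j k f g hf hg w => hF.comm _ _ _ _ (hf w) (hg w)⟩
  | succ m ih =>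
    obtain ⟨ihm, ihi, ihc⟩ := ih
    -- conjugation at order `m`
    have conj : ∀ i s (h t : List α → G), PolM F m i h → PolM F m s t →
        PolM F m s (fun w => h w * t w * (h w)⁻¹) := by
      intro i s h t hh ht
      have h1 := PolM.mono_level hF.anti (Nat.le_add_left s i) (ihc i s h t hh ht)
      refine (ihm s _ _ h1 ht).congr (fun w => ?_)
      simp only [commutatorElement_def]
      group
    refine ⟨?_, ?_, ?_⟩
    · intro k f g hf hg
      refine ⟨fun w => mul_mem (hf.1 w) (hg.1 w), fun b => ?_⟩
      have hY := hg.2 b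
      have hX := hf.2 b
      have h1 := PolM.mono_level hF.anti (by omega : k + 1 ≤ k + (k + 1))
        (ihc k (k + 1) f (lDiff b g) (PolM.mono_order hf) hY)
      refine (ihm _ _ _ (ihm _ _ _ hX h1) hY).congr (fun w => ?_)
      simp only [lDiff, commutatorElement_def]
      group
    · intro k f hf
      refine ⟨fun w => inv_mem (hf.1 w), fun b => ?_⟩
      have hX := ihi _ _ (hf.2 b)
      have hf' := ihi _ _ (PolM.mono_order hf)
      refine (conj k (k + 1) _ _ hf' hX).congr (fun w => ?_)
      simp only [lDiff]
      group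
    · intro j k f g hf hg
      refine ⟨fun w => hF.comm _ _ _ _ (hf.1 w) (hg.1 w), fun b => ?_⟩
      have hX := hf.2 b
      have hY := hg.2 b
      have hf0 := PolM.mono_order hf
      have hg0 := PolM.mono_order hg
      have hc := ihc j k f g hf0 hg0
      have lv : j + k + 1 = j + (k + 1) := by omega
      -- the factors
      have hA : PolM F m (j + k + 1) (fun w => ⁅f w, lDiff b g w⁆) := by
        rw [lv]; exact ihc _ _ _ _ hf0 hY
      have hA' := conj (j + 1) _ _ _ hX hA
      have hYc := PolM.mono_level hF.anti (by omega : j + k + 1 ≤ k + 1 + (j + k))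
        (ihc _ _ _ _ hY hc)
      have hYc' := conj (j + 1) _ _ _ hX hYc
      have hXc := PolM.mono_level hF.anti (by omega : j + k + 1 ≤ j + 1 + (j + k))
        (ihc _ _ _ _ hX hc)
      have hD := PolM.mono_level hF.anti (by omega : j + k + 1 ≤ j + 1 + (k + 1))
        (ihc _ _ _ _ hX hY)
      have hB : PolM F m (j + k + 1) (fun w => ⁅lDiff b f w, g w⁆) := by
        have : j + k + 1 = j + 1 + k := by omega
        rw [this]; exact ihc _ _ _ _ hX hg0
      have hB' := conj (k + 1) _ _ _ hY hB
      have hE := ihm _ _ _ hD hB'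
      have hE' := conj (j + k) _ _ _ hc hE
      refine (ihm _ _ _ (ihm _ _ _ (ihm _ _ _ hA' hYc') hXc) hE').congr (fun w => ?_)
      simp only [lDiff, commutatorElement_def]
      group

theorem PolM.mul (hF : IsFiltration F) {m k : ℕ} {f g : List α → G} (hf : PolM F m k f)
    (hg : PolM F m k g) : PolM F m k (fun w => f w * g w) :=
  (PolM.closure hF m).1 k f g hf hg

theorem PolM.inv (hF : IsFiltration F) {m k : ℕ} {f : List α → G} (hf : PolM F m k f) :
    PolM F m k (fun w => (f w)⁻¹) :=
  (PolM.closure hF m).2.1 k f hf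

/-- Depth: iterated differences of order `d + 1` vanish. -/
def ConstAfter : ℕ → (List α → G) → Prop
  | 0, f => ∀ b w, f (b :: w) = f w
  | d + 1, f => ∀ b, ConstAfter d (lDiff b f)


end Vale.Agent.Lib.P329
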