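import Vale.Agent.Lib.P329.StatUni

/-!
Integer combinations of scattered subword counts, with products by the infiltration product, and
a cancellation test that can be evaluated.
-/

namespace Vale.Agent.Lib.P329

variable {α : Type} [DecidableEq α]

/-- A formal integer combination of words. -/
abbrev Pol (α : Type) := List (ℤ × List α)

/-- The value on a word of a formal combination of scattered subword counts. -/
def evalP (P : Pol α) (w : List α) : ℤ := (P.map fun t => t.1 * (subCount t.2 w : ℤ)).sum

@[simp] theorem evalP_nil (w : List α) : evalP [] w = 0 := rfl

@[simp] theorem evalP_cons (k : ℤ) (z : List α) (P : Pol α) (w : List α) :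
    evalP ((k, z) :: P) w = k * (subCount z w : ℤ) + evalP P w := rfl

theorem evalP_append (P Q : Pol α) (w : List α) : evalP (P ++ Q) w = evalP P w + evalP Q w := by
  simp [evalP]

/-- Prepend a letter to all words. -/
def prep (c : α) (P : Pol α) : Pol α := P.map fun t => (t.1, c :: t.2)

theorem evalP_prep_nil (c : α) (P : Pol α) : evalP (prep c P) [] = 0 := by
  induction P with
  | nil => rfl
  | cons t P ih =>
    obtain ⟨k, z⟩ := t
    simp only [prep, List.map_cons, evalP_cons] at ih ⊢
    rw [ih]
    simp

theorem evalP_prep_cons (c a : α) (P : Pol α) (w : List α) :
    evalP (prep c P) (a :: w) = evalP (prep c P) w + if a = c then evalP P w else 0 := by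
  induction P with
  | nil => simp [prep]
  | cons t P ih =>
    obtain ⟨k, z⟩ := t
    simp only [prep, List.map_cons, evalP_cons] at ih ⊢
    rw [ih, subCount_cons_cons]
    by_cases h : a = c
    · subst h
      simp only [if_true]
      push_cast
      ring
    · have h' : ¬ c = a := fun e => h e.symm
      simp only [h, h', if_false]
      push_cast
      ring

theorem evalP_prep (c : α) (P : Pol α) (w : List α) :
    evalP (prep c P) w = posSum c (evalP P) w := by
  induction w with
  | nil => exact evalP_prep_nil c P
  | cons a w ih =>
    rw [evalP_prep_cons, ih]
    simp only [posSum]
    ring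

/-- Scalar multiples. -/
def scaleP (k : ℤ) (P : Pol α) : Pol α := P.map fun t => (k * t.1, t.2)

theorem evalP_scale (k : ℤ) (P : Pol α) (w : List α) : evalP (scaleP k P) w = k * evalP P w := by
  induction P with
  | nil => simp [scaleP]
  | cons t P ih =>
    obtain ⟨l, z⟩ := t
    simp only [scaleP, List.map_cons, evalP_cons] at ih ⊢
    rw [ih]
    ring

/-! ### Words over a set of letters -/

/-- All words of length `j` over the letters of `S`. -/
def powS (S : List α) : ℕ → Pol α
  | 0 => [(1, [])]
  | j + 1 => S.flatMap fun a => prep a (powS S j)

theorem evalP_flatMap {β : Type} (L : List β) (g : β → Pol α) (w : List α) :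
    evalP (L.flatMap g) w = (L.map fun b => evalP (g b) w).sum := by
  induction L with
  | nil => rfl
  | cons b L ih =>
    simp only [List.flatMap_cons, List.map_cons, List.sum_cons, evalP_append, ih]

/-- The number of letters of `S`, as the count for membership. -/
theorem evalP_powS (S : List α) (hS : S.Nodup) (j : ℕ) (w : List α) :
    evalP (powS S j) w = (((nS (· ∈ S) w).choose j : ℕ) : ℤ) := by
  induction j generalizing w with
  | zero => simp [powS, subCount_nil_left]
  | succ j ihj =>
    rw [powS, evalP_flatMap]
    simp only [evalP_prep]
    have hf : evalP (powS S j) = fun w => (((nS (· ∈ S) w).choose j : ℕ) : ℤ) := funext ihj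
    rw [hf]
    induction w with
    | nil =>
      have : ∀ L : List α, (L.map fun a => posSum a (fun w => (((nS (· ∈ S) w).choose j : ℕ) : ℤ)) ([] : List α)).sum = 0 := by
        intro L
        induction L with
        | nil => rfl
        | cons b L ih => simp [posSum, ih]
      rw [this]
      simp [nS]
    | cons x w ih =>
      simp only [posSum]
      have h1 : ∀ L : List α, L.Nodup → (L.map fun a => (if x = a then (((nS (· ∈ S) w).choose j : ℕ) : ℤ) else 0)
          + posSum a (fun w => (((nS (· ∈ S) w).choose j : ℕ) : ℤ)) w).sum =
          (if x ∈ L then (((nS (· ∈ S) w).choose j : ℕ) : ℤ) else 0) +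
            (L.map fun a => posSum a (fun w => (((nS (· ∈ S) w).choose j : ℕ) : ℤ)) w).sum := by
        intro L
        induction L with
        | nil => simp
        | cons b L ihL =>
          intro hL
          have hb := (List.nodup_cons.1 hL).1
          have := ihL (List.nodup_cons.1 hL).2
          simp only [List.map_cons, List.sum_cons, this, List.mem_cons]
          by_cases hxb : x = b
          · subst hxb
            simp only [if_true, true_or, hb, if_false]
            ring
          · simp only [hxb, if_false, false_or]
            ring
      rw [h1 S hS, ih]
      by_cases hx : x ∈ S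
      · simp only [nS, hx, if_true, Nat.add_comm 1]
        rw [Nat.choose_succ_succ']
        push_cast
        ring
      · simp [nS, hx]

/-! ### The infiltration product -/

/-- Auxiliary recursion for the infiltration product. -/
def infilAux (a : α) (u : List α) (ih : List α → Pol α) : List α → Pol α
  | [] => [(1, a :: u)]
  | b :: v => prep a (ih (b :: v)) ++ (prep b (infilAux a u ih v) ++
      (if a = b then prep a (ih v) else []))

/-- The infiltration product of two words. -/
def infil : List α → List α → Pol α
  | [], v => [(1, v)]
  | a :: u, v => infilAux a u (infil u) v

theorem evalP_infil (u v w : List α) :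
    evalP (infil u v) w = (subCount u w : ℤ) * (subCount v w : ℤ) := by
  induction w generalizing u v with
  | nil =>
    cases u with
    | nil => simp [infil]
    | cons a u =>
      cases v with
      | nil => simp [infil, infilAux]
      | cons b v =>
        simp only [infil, infilAux, evalP_append, evalP_prep_nil, subCount_cons_nil]
        split_ifs <;> simp [evalP_prep_nil]
  | cons x w ih =>
    cases u with
    | nil => simp [infil]
    | cons a u =>
      cases v with
      | nil => simp [infil, infilAux]
      | cons b v =>
        have hdef : infil (a :: u) (b :: v) = prep a (infil u (b :: v)) ++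
            (prep b (infil (a :: u) v) ++ (if a = b then prep a (infil u v) else [])) := rfl
        have e0 := ih (a :: u) (b :: v)
        have e1 := ih u (b :: v)
        have e2 := ih (a :: u) v
        have e3 := ih u v
        rw [hdef, evalP_append, evalP_append] at e0
        rw [hdef, evalP_append, evalP_append, evalP_prep_cons, evalP_prep_cons, e1, e2,
          subCount_cons_cons, subCount_cons_cons]
        push_cast
        by_cases hab : a = b
        · subst hab
          simp only [if_true] at e0 ⊢
          rw [evalP_prep_cons, e3]
          by_cases hxa : x = a
          · subst hxa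
            simp only [if_true]
            linear_combination e0
          · have : ¬ a = x := fun e => hxa e.symm
            simp only [hxa, this, if_false]
            linear_combination e0
        · simp only [hab, if_false, evalP_nil, add_zero] at e0 ⊢
          by_cases hxa : x = a
          · subst hxa
            have hxb : ¬ x = b := hab
            have hbx : ¬ b = x := fun e => hxb e.symm
            simp only [hxb, hbx, if_true, if_false]
            linear_combination e0
          · have hax : ¬ a = x := fun e => hxa e.symm
            by_cases hxb : x = b
            · subst hxb
              simp only [hxa, hax, if_true, if_false]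
              linear_combination e0
            · have hbx : ¬ b = x := fun e => hxb e.symm
              simp only [hxa, hax, hxb, hbx, if_false]
              linear_combination e0

/-- The product of formal combinations. -/
def pmul (P Q : Pol α) : Pol α :=
  P.flatMap fun s => Q.flatMap fun t => scaleP (s.1 * t.1) (infil s.2 t.2)

theorem evalP_pmul (P Q : Pol α) (w : List α) : evalP (pmul P Q) w = evalP P w * evalP Q w := by
  have inner : ∀ (k : ℤ) (z : List α), evalP (Q.flatMap fun t => scaleP (k * t.1) (infil z t.2)) w =
      k * (subCount z w : ℤ) * evalP Q w := by
    intro k z
    induction Q with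
    | nil => simp
    | cons t Q ih =>
      obtain ⟨l, y⟩ := t
      simp only [List.flatMap_cons, evalP_append, evalP_scale, evalP_infil, ih, evalP_cons]
      ring
  unfold pmul
  induction P with
  | nil => simp
  | cons s P ih =>
    obtain ⟨k, z⟩ := s
    simp only [List.flatMap_cons, evalP_append, inner, ih, evalP_cons]
    ring

/-! ### Cancellation -/

/-- The total coefficient of a word. -/
def coefP (z : List α) : Pol α → ℤ
  | [] => 0
  | t :: P => (if t.2 = z then t.1 else 0) + coefP z P

/-- Remove a word. -/
def dropW (z : List α) : Pol α → Pol α
  | [] => []
  | t :: P => if t.2 = z then dropW z P else t :: dropW z P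

theorem evalP_split (z : List α) (P : Pol α) (w : List α) :
    evalP P w = coefP z P * (subCount z w : ℤ) + evalP (dropW z P) w := by
  induction P with
  | nil => simp [coefP, dropW]
  | cons t P ih =>
    obtain ⟨k, y⟩ := t
    by_cases h : y = z
    · subst h
      simp only [coefP, dropW, if_true, evalP_cons, ih]
      ring
    · simp only [coefP, dropW, h, if_false, evalP_cons, ih]
      ring

/-- The cancellation test: all coefficients vanish. -/
def cancel : ℕ → Pol α → Bool
  | _, [] => true
  | 0, _ :: _ => false
  | n + 1, t :: P => decide (coefP t.2 (t :: P) = 0) && cancel n (dropW t.2 P)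

theorem evalP_zero_of_cancel (n : ℕ) (P : Pol α) (h : cancel n P = true) (w : List α) :
    evalP P w = 0 := by
  induction n generalizing P with
  | zero =>
    cases P with
    | nil => rfl
    | cons t P => simp [cancel] at h
  | succ n ih =>
    cases P with
    | nil => rfl
    | cons t P =>
      obtain ⟨k, z⟩ := t
      simp only [cancel, Bool.and_eq_true, decide_eq_true_eq] at h
      rw [evalP_split z, h.1, zero_mul, zero_add]
      have h2 : dropW z ((k, z) :: P) = dropW z P := by simp [dropW]
      rw [h2]
      exact ih _ h.2

end Vale.Agent.Lib.P329
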