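import Vale.Agent.Lib.P329.SubCount

/-!
Products over the positions of a word of a quadratic function of the suffix letter counts,
in a commutative group: such a product only depends on the subword counts of length at most 3.
-/

namespace Vale.Agent.Lib.P329

variable {α : Type*} [DecidableEq α] {A : Type*} [CommGroup A]

/-- Functions of a letter count vector that are quadratic: products of `a`, `a ^ x i`,
`a ^ choose (x i) 2`, `a ^ (x i * x j)`. -/
inductive IsQuad : ((α → ℕ) → A) → Prop
  | const (a : A) : IsQuad fun _ => a
  | lin (a : A) (i : α) : IsQuad fun x => a ^ x i
  | binom (a : A) (i : α) : IsQuad fun x => a ^ (x i).choose 2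
  | bilin (a : A) (i j : α) : IsQuad fun x => a ^ (x i * x j)
  | mul {F F' : (α → ℕ) → A} : IsQuad F → IsQuad F' → IsQuad fun x => F x * F' x

/-- The letter count vector of a word. -/
def cnt (w : List α) : α → ℕ := fun c => w.count c

/-- Product of `F (suffix counts)` over the positions of the letter `c`. -/
def posProd (c : α) (F : (α → ℕ) → A) : List α → A
  | [] => 1
  | b :: w => (if b = c then F (cnt w) else 1) * posProd c F w

theorem posProd_mul (c : α) (F F' : (α → ℕ) → A) (w : List α) :
    posProd c (fun x => F x * F' x) w = posProd c F w * posProd c F' w := by
  induction w with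
  | nil => simp [posProd]
  | cons b w ih =>
    simp only [posProd, ih]
    by_cases h : b = c
    · simp only [h, if_true]; exact mul_mul_mul_comm _ _ _ _
    · simp [h]

theorem posProd_const (c : α) (a : A) (w : List α) :
    posProd c (fun _ => a) w = a ^ subCount [c] w := by
  induction w with
  | nil => simp [posProd]
  | cons b w ih =>
    simp only [posProd, ih, subCount_cons_cons]
    by_cases h : c = b
    · subst h; simp [pow_succ, mul_comm]
    · have h' : ¬ b = c := fun e => h e.symm
      simp [h, h']

theorem posProd_pow (c : α) (a : A) (u : List α) (G : (α → ℕ) → ℕ)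
    (hG : ∀ w, G (cnt w) = subCount u w) (w : List α) :
    posProd c (fun x => a ^ G x) w = a ^ subCount (c :: u) w := by
  induction w with
  | nil => simp [posProd]
  | cons b w ih =>
    simp only [posProd, ih, subCount_cons_cons, hG]
    by_cases h : c = b
    · subst h; simp [pow_add, mul_comm]
    · have h' : ¬ b = c := fun e => h e.symm
      simp [h, h']

/-- Two words with the same subword counts of length at most 3 modulo `N`, in a group of
exponent dividing `N`. -/
theorem posProd_congr {N : ℕ} (hN : ∀ a : A, a ^ N = 1) {w w' : List α}
    (h : ∀ u : List α, u.length ≤ 3 → subCount u w ≡ subCount u w' [MOD N])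
    (c : α) {F : (α → ℕ) → A} (hF : IsQuad F) : posProd c F w = posProd c F w' := by
  have key : ∀ (u : List α) (a : A), u.length ≤ 3 → a ^ subCount u w = a ^ subCount u w' := by
    intro u a hu
    rw [pow_eq_pow_mod (subCount u w) (hN a), pow_eq_pow_mod (subCount u w') (hN a), h u hu]
  induction hF with
  | const a =>
    rw [posProd_const, posProd_const]; exact key _ _ (by simp)
  | lin a i =>
    rw [posProd_pow c a [i] (fun x => x i) (fun w => (subCount_singleton i w).symm),
      posProd_pow c a [i] (fun x => x i) (fun w => (subCount_singleton i w).symm)]
    exact key _ _ (by simp)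
  | binom a i =>
    rw [posProd_pow c a [i, i] (fun x => (x i).choose 2) (fun w => (subCount_pair_self i w).symm),
      posProd_pow c a [i, i] (fun x => (x i).choose 2) (fun w => (subCount_pair_self i w).symm)]
    exact key _ _ (by simp)
  | bilin a i j =>
    by_cases hij : i = j
    · subst hij
      have hs : ∀ x : α → ℕ, a ^ (x i * x i) = (a ^ 2) ^ (x i).choose 2 * a ^ x i := by
        intro x
        rw [← pow_mul, ← pow_add]
        congr 1
        have := Nat.choose_two_right (x i)
        have h2 := Nat.triangle_succ (x i)
        cases hx : x i with
        | zero => simp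
        | succ k =>
          simp only [Nat.choose_two_right]
          have : 2 * ((k + 1) * (k + 1 - 1) / 2) = (k + 1) * k := by
            simp only [Nat.add_sub_cancel]
            exact Nat.mul_div_cancel' (by
              have := Nat.even_mul_succ_self k
              rw [mul_comm]; exact this.two_dvd)
          rw [this]; ring
      simp only [hs]
      rw [posProd_mul, posProd_mul,
        posProd_pow c (a ^ 2) [i, i] (fun x => (x i).choose 2)
          (fun w => (subCount_pair_self i w).symm),
        posProd_pow c (a ^ 2) [i, i] (fun x => (x i).choose 2)
          (fun w => (subCount_pair_self i w).symm),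
        posProd_pow c a [i] (fun x => x i) (fun w => (subCount_singleton i w).symm),
        posProd_pow c a [i] (fun x => x i) (fun w => (subCount_singleton i w).symm),
        key (c :: [i, i]) (a ^ 2) (by simp), key (c :: [i]) a (by simp)]
    · have hs : ∀ w : List α, cnt w i * cnt w j = subCount [i, j] w + subCount [j, i] w := by
        intro w; exact (subCount_pair_add i j hij w).symm
      have hsplit : ∀ w : List α, posProd c (fun x => a ^ (x i * x j)) w
          = a ^ subCount (c :: [i, j]) w * a ^ subCount (c :: [j, i]) w := by
        intro w
        induction w with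
        | nil => simp [posProd]
        | cons b w ih =>
          simp only [posProd, ih, subCount_cons_cons (a := c), hs]
          by_cases h : c = b
          · subst h
            simp only [if_true, pow_add]
            ac_rfl
          · have h' : ¬ b = c := fun e => h e.symm
            simp [h', h]
      rw [hsplit, hsplit, key (c :: [i, j]) a (by simp), key (c :: [j, i]) a (by simp)]
  | mul _ _ ih ih' =>
    rw [posProd_mul, posProd_mul, ih, ih']

/-- A word product of a family of functions over positions. -/
def nProd (F : α → (α → ℕ) → A) : List α → A
  | [] => 1
  | c :: w => F c (cnt w) * nProd F w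

theorem nProd_eq_prod [Fintype α] (F : α → (α → ℕ) → A) (w : List α) :
    nProd F w = ∏ c, posProd c (F c) w := by
  induction w with
  | nil => simp [nProd, posProd]
  | cons b w ih =>
    simp only [nProd, posProd, ih, Finset.prod_mul_distrib]
    congr 1
    rw [Finset.prod_eq_single b]
    · simp
    · intro c _ hc
      have : ¬ b = c := fun e => hc e.symm
      simp [this]
    · simp

theorem nProd_congr [Fintype α] {N : ℕ} (hN : ∀ a : A, a ^ N = 1) {w w' : List α}
    (h : ∀ u : List α, u.length ≤ 3 → subCount u w ≡ subCount u w' [MOD N])
    {F : α → (α → ℕ) → A} (hF : ∀ c, IsQuad (F c)) : nProd F w = nProd F w' := by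
  rw [nProd_eq_prod, nProd_eq_prod]
  exact Finset.prod_congr rfl fun c _ => posProd_congr hN h c (hF c)

end Vale.Agent.Lib.P329
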