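import Vale.Agent.Lib.P329.LevelZp

/-!
Levels in a finite elementary abelian `p`-group: the counts at one level are recovered, up to a
nonzero integer factor, from the counts at the levels of all additive characters.
-/

namespace Vale.Agent.Lib.P329

open Classical

variable {α M : Type} [AddCommGroup M]

/-- Number of occurrences of the letter `a` at the level `τ`, the level being the sum of the shifts
of the letters before the position, added to the start `h`. -/
noncomputable def lc (s : α → M) (a : α) (τ : M) (h : M) (w : List α) : ℤ :=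
  eSum (fun x h => h + s x) (fun x h => if x = a ∧ h = τ then 1 else 0) h w

section Char

variable {p : ℕ} [Fact p.Prime]

theorem EL_eq_lc (s : α → ZMod p) (a : α) (τ : ZMod p) (w : List α) :
    EL s a τ w = lc s a τ 0 w := by
  unfold EL lc
  refine eSum_eq_of_rel (fun (q : ZMod p × Option α) h => q.1 = h) ?_ ?_ rfl w
  · intro x q h hq
    show (pδ s x q).1 = h + s x
    unfold pδ
    by_cases hx : s x = 0
    · simp [hx, hq]
    · simp [hx, hq]
  · intro x q h hq
    unfold ew
    simp [hq]

/-- The count for a character is a sum of counts on a fibre. -/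
theorem lc_char (χ : M →+ ZMod p) [Fintype M] (s : α → M) (a : α) (τ : M) (w : List α) :
    lc (fun x => χ (s x)) a (χ τ) 0 w =
      ∑ τ' : M, if χ τ' = χ τ then lc s a τ' 0 w else 0 := by
  have h1 : lc (fun x => χ (s x)) a (χ τ) 0 w =
      eSum (fun x h => h + s x)
        (fun x h => ∑ τ' : M, if χ τ' = χ τ then (if x = a ∧ h = τ' then 1 else 0) else 0) 0 w := by
    unfold lc
    symm
    refine eSum_eq_of_rel (fun (h : M) (h' : ZMod p) => χ h = h') ?_ ?_ (map_zero χ) w
    · intro x q q' hq
      show χ (q + s x) = q' + χ (s x)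
      rw [map_add, hq]
    · intro x q q' hq
      by_cases hx : x = a
      · subst hx
        simp only [true_and]
        rw [Finset.sum_eq_single q]
        · simp [hq]
        · intro b _ hb
          have : ¬ q = b := fun e => hb e.symm
          simp [this]
        · simp
      · simp [hx]
  rw [h1, eSum_congr (g' := fun x h => ∑ τ' : M,
      (if χ τ' = χ τ then (if x = a ∧ h = τ' then 1 else 0) else 0)) _ (fun _ _ => rfl)]
  rw [eSum_sum]
  refine Finset.sum_congr rfl (fun τ' _ => ?_)
  by_cases hτ : χ τ' = χ τ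
  · simp only [hτ, if_true]
    rfl
  · simp only [hτ, if_false]
    have key : ∀ (w : List α) (q : M), eSum (fun x h => h + s x)
        (fun x h => if False then (if x = a ∧ h = τ' then (1 : ℤ) else 0) else 0) q w = 0 := by
      intro w
      induction w with
      | nil => simp
      | cons b w ih =>
        intro q
        rw [eSum_cons, ih]
        simp
    exact key w 0

theorem exists_char_ne_aux [Module (ZMod p) M] {D : M} (hD : D ≠ 0) :
    ∃ χ : M →+ ZMod p, χ D ≠ 0 := by
  obtain ⟨f, hf⟩ := Module.Projective.exists_dual_ne_zero (V := M) (ZMod p) hD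
  exact ⟨f.toAddMonoidHom, hf⟩

theorem exists_char_ne (hM : ∀ x : M, p • x = 0) {D : M} (hD : D ≠ 0) :
    ∃ χ : M →+ ZMod p, χ D ≠ 0 :=
  @exists_char_ne_aux M _ p _ (AddCommGroup.zmodModule hM) D hD

/-- Counting characters. -/
theorem card_char_eq [Fintype (M →+ ZMod p)] (hM : ∀ x : M, p • x = 0) (D : M) :
    (p : ℤ) * ((Finset.univ.filter (fun χ : M →+ ZMod p => χ D = 0)).card : ℤ) =
      (Fintype.card (M →+ ZMod p) : ℤ) +
        if D = 0 then ((p : ℤ) - 1) * (Fintype.card (M →+ ZMod p) : ℤ) else 0 := by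
  by_cases hD : D = 0
  · subst hD
    simp only [map_zero, Finset.filter_true, if_true, Finset.card_univ]
    ring
  · rw [if_neg hD, add_zero]
    obtain ⟨χ₁, hχ₁⟩ := exists_char_ne hM hD
    let ev : (M →+ ZMod p) →+ ZMod p :=
      { toFun := fun χ => χ D, map_zero' := rfl, map_add' := fun _ _ => rfl }
    have hsurj : ∀ c : ZMod p, c ∈ Set.range ev := by
      intro c
      obtain ⟨k, _, hk⟩ := hit hχ₁ c
      refine ⟨k • χ₁, ?_⟩
      show (k • χ₁) D = c
      rw [AddMonoidHom.nsmul_apply, nsmul_eq_mul, hk]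
    have h1 := Finset.card_eq_sum_card_fiberwise (f := ev) (s := Finset.univ) (t := Finset.univ)
      (fun _ _ => Finset.mem_coe.2 (Finset.mem_univ _))
    have h2 : ∀ c : ZMod p, (Finset.univ.filter (fun χ : M →+ ZMod p => ev χ = c)).card =
        (Finset.univ.filter (fun χ : M →+ ZMod p => χ D = 0)).card := by
      intro c
      exact AddMonoidHom.card_fiber_eq_of_mem_range ev (hsurj c) (hsurj 0)
    have h3 : Fintype.card (M →+ ZMod p) =
        p * (Finset.univ.filter (fun χ : M →+ ZMod p => χ D = 0)).card := by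
      rw [← Finset.card_univ, h1, Finset.sum_congr rfl (fun c _ => h2 c)]
      simp [ZMod.card]
    rw [h3]
    push_cast
    ring

theorem lc_sum [Fintype M] (s : α → M) (a : α) (h : M) (w : List α) :
    ∑ τ : M, lc s a τ h w = cntP (fun x => x = a) w := by
  unfold lc
  induction w generalizing h with
  | nil => simp [cntP]
  | cons x w ih =>
    simp only [eSum_cons, cntP]
    rw [Finset.sum_add_distrib, ih, add_comm]
    congr 1
    by_cases hx : x = a
    · simp [hx]
    · simp [hx]

/-- **Counts at the levels of a finite elementary abelian group are countable.** -/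
theorem cnt_lc [Finite α] [Finite M] (hM : ∀ x : M, p • x = 0) (s : α → M) (a : α) (τ : M) :
    CNT (lc s a τ 0) := by
  cases nonempty_fintype M
  have hfin : Finite (M →+ ZMod p) :=
    Finite.of_injective (fun χ : M →+ ZMod p => (χ : M → ZMod p)) DFunLike.coe_injective
  cases nonempty_fintype (M →+ ZMod p)
  have hp := (Fact.out : p.Prime)
  have hpos : 0 < (p - 1) * Fintype.card (M →+ ZMod p) :=
    Nat.mul_pos (by have := hp.two_le; omega) Fintype.card_pos
  apply CNT.of_mul _ hpos
  have h1 : CNT (fun w => ∑ χ : M →+ ZMod p, lc (fun x => χ (s x)) a (χ τ) 0 w) := by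
    refine CNT.sum _ _ (fun χ _ => ?_)
    exact (cnt_EL (fun x => χ (s x)) a (χ τ)).congr (fun w => EL_eq_lc _ a _ w)
  have h2 : CNT (cntP (α := α) (fun x => x = a)) := cnt_cntP _
  refine (((CNT.const (p : ℤ)).mul h1).sub ((CNT.const (Fintype.card (M →+ ZMod p) : ℤ)).mul h2)).congr
    (fun w => ?_)
  have h3 : ∑ χ : M →+ ZMod p, lc (fun x => χ (s x)) a (χ τ) 0 w =
      ∑ τ' : M, ((Finset.univ.filter (fun χ : M →+ ZMod p => χ (τ' - τ) = 0)).card : ℤ) *
        lc s a τ' 0 w := by
    simp_rw [lc_char]
    rw [Finset.sum_comm]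
    refine Finset.sum_congr rfl (fun τ' _ => ?_)
    rw [← nsmul_eq_mul, ← Finset.sum_const, Finset.sum_filter]
    refine Finset.sum_congr rfl (fun χ _ => ?_)
    by_cases hχ : χ τ' = χ τ
    · have : χ (τ' - τ) = 0 := by rw [map_sub, hχ, sub_self]
      rw [if_pos hχ, if_pos this]
    · have : ¬ χ (τ' - τ) = 0 := by
        rw [map_sub]
        intro h0
        exact hχ (sub_eq_zero.1 h0)
      rw [if_neg hχ, if_neg this]
  rw [h3, Finset.mul_sum, ← lc_sum s a 0 w, Finset.mul_sum, ← Finset.sum_sub_distrib]
  have h4 : ∀ τ' : M, (p : ℤ) * (((Finset.univ.filter (fun χ : M →+ ZMod p => χ (τ' - τ) = 0)).card : ℤ) *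
        lc s a τ' 0 w) - (Fintype.card (M →+ ZMod p) : ℤ) * lc s a τ' 0 w =
      if τ' = τ then ((p : ℤ) - 1) * (Fintype.card (M →+ ZMod p) : ℤ) * lc s a τ' 0 w else 0 := by
    intro τ'
    have h5 := card_char_eq (p := p) hM (τ' - τ)
    rw [← mul_assoc, h5]
    by_cases hτ : τ' = τ
    · simp [hτ]
      ring
    · have : τ' - τ ≠ 0 := sub_ne_zero.2 hτ
      simp [hτ, this]
  simp_rw [h4]
  rw [Finset.sum_ite_eq' ]
  simp only [Finset.mem_univ, if_true]
  rw [Nat.cast_mul, Nat.cast_sub hp.one_le]
  simp

end Char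

end Vale.Agent.Lib.P329
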