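import Vale.Agent.Lib.P329.Good

/-!
Uniform automata.  The letters of `S` add one to a counter `r` modulo `T = p ^ (k + 1)`, and they
change a digit `d` modulo the prime `p` by the carry of the counter plus a letter-dependent value
`h a r`, periodic in `r` with period `p ^ k`.  The other letters act as the identity.  These
automata are good for every choice of base, although the non-base states are not monotone.
-/

namespace Vale.Agent.Lib.P329

variable {α : Type}

section Defs

variable (S : α → Prop) [DecidablePred S]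

/-- Number of letters of `S`. -/
def nS : List α → ℕ
  | [] => 0
  | a :: w => (if S a then 1 else 0) + nS w

theorem nS_append (x y : List α) : nS S (x ++ y) = nS S x + nS S y := by
  induction x with
  | nil => simp [nS]
  | cons a x ih =>
    simp only [List.cons_append, nS, ih]
    omega

theorem nS_wpow (u : List α) (k : ℕ) : nS S (wpow u k) = k * nS S u := by
  induction k with
  | zero => simp [nS]
  | succ k ih =>
    rw [wpow_succ, nS_append, ih, Nat.succ_mul]
    omega

/-- A prefix with a prescribed number of letters of `S`. -/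
theorem exists_prefix_nS (y : List α) (c : ℕ) (hc : c ≤ nS S y) :
    ∃ x x', y = x ++ x' ∧ nS S x = c := by
  induction y generalizing c with
  | nil =>
    simp only [nS] at hc
    exact ⟨[], [], rfl, by simp only [nS]; omega⟩
  | cons a y ih =>
    rcases Nat.eq_zero_or_pos c with rfl | hc0
    · exact ⟨[], a :: y, rfl, rfl⟩
    · by_cases hS : S a
      · simp only [nS, hS, if_true] at hc
        obtain ⟨x, x', rfl, h⟩ := ih (c - 1) (by omega)
        refine ⟨a :: x, x', rfl, ?_⟩
        simp only [nS, hS, if_true, h]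
        omega
      · simp only [nS, hS, if_false] at hc
        obtain ⟨x, x', rfl, h⟩ := ih c (by omega)
        refine ⟨a :: x, x', rfl, ?_⟩
        simp only [nS, hS, if_false, h]
        omega

variable (T P : ℕ) [NeZero T] (h : α → ℕ → ZMod P)

/-- The uniform automaton. -/
def uniδ (a : α) (s : Fin T × ZMod P) : Fin T × ZMod P :=
  if S a then
    (⟨(s.1.val + 1) % T, Nat.mod_lt _ (Nat.pos_of_ne_zero (NeZero.ne T))⟩,
      s.2 + (((s.1.val + 1) / T : ℕ) : ZMod P) + h a s.1.val)
  else s

/-- The letter-dependent part of the digit, reading from the left from counter value `X`. -/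
def bS : ℕ → List α → ZMod P
  | _, [] => 0
  | X, a :: w => if S a then h a X + bS (X + 1) w else bS X w

theorem bS_append (X : ℕ) (x y : List α) :
    bS S P h X (x ++ y) = bS S P h X x + bS S P h (X + nS S x) y := by
  induction x generalizing X with
  | nil => simp [bS, nS]
  | cons a x ih =>
    by_cases hS : S a
    · have e1 : bS S P h X ((a :: x) ++ y) = h a X + bS S P h (X + 1) (x ++ y) := by
        simp [bS, hS]
      have e2 : bS S P h X (a :: x) = h a X + bS S P h (X + 1) x := by simp [bS, hS]
      have e3 : nS S (a :: x) = 1 + nS S x := by simp [nS, hS]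
      rw [e1, e2, e3, ih, show X + 1 + nS S x = X + (1 + nS S x) by omega]
      exact (add_assoc (h a X) _ _).symm
    · simp only [List.cons_append, bS, nS, hS, if_false, ih]
      rw [show X + (0 + nS S x) = X + nS S x by omega]

variable {S T P h}

section Per

variable {T' : ℕ} (hper : ∀ a X, h a (X + T') = h a X)
include hper

theorem h_per_mul (a : α) (X c : ℕ) : h a (X + T' * c) = h a X := by
  induction c with
  | zero => simp
  | succ c ih =>
    rw [Nat.mul_succ, ← Nat.add_assoc, hper, ih]

theorem bS_per (X c : ℕ) (w : List α) : bS S P h (X + T' * c) w = bS S P h X w := by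
  induction w generalizing X with
  | nil => rfl
  | cons a w ih =>
    by_cases hS : S a
    · simp only [bS, hS, if_true]
      rw [h_per_mul hper, show X + T' * c + 1 = X + 1 + T' * c by omega, ih]
    · simp only [bS, hS, if_false, ih]

theorem bS_wpow_mul (X a i : ℕ) (u : List α) (hd : T' ∣ a * nS S u) :
    bS S P h X (wpow u (i * a)) = (i : ZMod P) * bS S P h X (wpow u a) := by
  induction i with
  | zero => simp [bS]
  | succ i ih =>
    obtain ⟨c, hc⟩ := hd
    rw [Nat.succ_mul, Nat.add_comm, wpow_add, bS_append, nS_wpow, hc, bS_per hper, ih]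
    push_cast
    ring

/-- Closed form of the run from the left. -/
theorem run_uni (hT' : T' ∣ T) (w : List α) (r0 : ℕ) (hr : r0 < T) (d0 : ZMod P) :
    (runL (uniδ S T P h) (⟨r0, hr⟩, d0) w).1.val = (r0 + nS S w) % T ∧
    (runL (uniδ S T P h) (⟨r0, hr⟩, d0) w).2 =
      d0 + (((r0 + nS S w) / T : ℕ) : ZMod P) + bS S P h r0 w := by
  have hTpos : 0 < T := Nat.pos_of_ne_zero (NeZero.ne T)
  induction w generalizing r0 d0 with
  | nil =>
    simp [nS, bS, Nat.mod_eq_of_lt hr, Nat.div_eq_of_lt hr]
  | cons a w ih =>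
    by_cases hS : S a
    · have h1 : uniδ S T P h a (⟨r0, hr⟩, d0) =
          (⟨(r0 + 1) % T, Nat.mod_lt _ hTpos⟩,
            d0 + (((r0 + 1) / T : ℕ) : ZMod P) + h a r0) := by
        simp [uniδ, hS]
      rw [runL_cons, h1]
      obtain ⟨h2, h3⟩ := ih ((r0 + 1) % T) (Nat.mod_lt _ hTpos)
        (d0 + (((r0 + 1) / T : ℕ) : ZMod P) + h a r0)
      have hnum : r0 + (1 + nS S w) = (r0 + 1) % T + nS S w + T * ((r0 + 1) / T) := by
        have := Nat.mod_add_div (r0 + 1) T
        omega
      constructor
      · rw [h2]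
        simp only [nS, hS, if_true]
        rw [hnum]
        simp [Nat.add_mul_mod_self_left]
      · rw [h3]
        simp only [nS, hS, if_true, bS]
        rw [hnum, Nat.add_mul_div_left _ _ hTpos]
        -- periodicity of `bS`
        obtain ⟨c, hc⟩ := hT'
        have hX : r0 + 1 = (r0 + 1) % T + T' * (c * ((r0 + 1) / T)) := by
          have := Nat.mod_add_div (r0 + 1) T
          rw [← Nat.mul_assoc, ← hc]
          omega
        have hb : bS S P h (r0 + 1) w = bS S P h ((r0 + 1) % T) w := by
          conv_lhs => rw [hX]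
          exact bS_per hper _ _ _
        rw [hb]
        push_cast
        ring
    · have h1 : uniδ S T P h a (⟨r0, hr⟩, d0) = (⟨r0, hr⟩, d0) := by
        simp [uniδ, hS]
      rw [runL_cons, h1]
      obtain ⟨h2, h3⟩ := ih r0 hr d0
      constructor
      · rw [h2]; simp [nS, hS]
      · rw [h3]; simp [nS, hS, bS]

end Per

/-- The letters are injective. -/
theorem uni_injective (a : α) : Function.Injective (uniδ S T P h a) := by
  have hTpos : 0 < T := Nat.pos_of_ne_zero (NeZero.ne T)
  rintro ⟨⟨r, hr⟩, d⟩ ⟨⟨r', hr'⟩, d'⟩ he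
  by_cases hS : S a
  · simp only [uniδ, hS, if_true, Prod.mk.injEq, Fin.mk.injEq] at he
    have hrr : r = r' := by
      have h1 : (r + 1) ≡ (r' + 1) [MOD T] := he.1
      have h2 : r ≡ r' [MOD T] := Nat.ModEq.add_right_cancel' 1 h1
      have h3 := h2
      unfold Nat.ModEq at h3
      rwa [Nat.mod_eq_of_lt hr, Nat.mod_eq_of_lt hr'] at h3
    subst hrr
    have := he.2
    have h4 := add_right_cancel (add_right_cancel this)
    rw [h4]
  · simpa [uniδ, hS] using he

end Defs

section Main

variable {S : α → Prop} [DecidablePred S] {p k T : ℕ} [Fact p.Prime] [NeZero T]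
  {h : α → ℕ → ZMod p}

/-- The base is hit as soon as a word returning the counter moves the digit. -/
theorem uni_hit (hT : T = p ^ (k + 1)) (hper : ∀ a X, h a (X + p ^ k) = h a X) (y : List α)
    (r0 : ℕ) (hr : r0 < T) (d0 : ZMod p) (base : Fin T × ZMod p)
    (hTy : T ∣ nS S y) (hpos : 0 < nS S y)
    (hσ : ((nS S y / T : ℕ) : ZMod p) + bS S p h r0 y ≠ 0)
    (hne : ((⟨r0, hr⟩, d0) : Fin T × ZMod p) ≠ base) :
    ∃ j, ¬ Avoid (uniδ S T p h) base (⟨r0, hr⟩, d0) (wpow y (j + 1)) := by
  have hTpos : 0 < T := Nat.pos_of_ne_zero (NeZero.ne T)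
  have hT' : p ^ k ∣ T := by rw [hT]; exact pow_dvd_pow _ (Nat.le_succ k)
  set σ := ((nS S y / T : ℕ) : ZMod p) + bS S p h r0 y with hσdef
  -- full periods
  have hy : ∀ D : ZMod p, runL (uniδ S T p h) (⟨r0, hr⟩, D) y = (⟨r0, hr⟩, D + σ) := by
    intro D
    obtain ⟨h1, h2⟩ := run_uni (S := S) hper hT' y r0 hr D
    obtain ⟨c, hc⟩ := hTy
    refine Prod.ext (Fin.ext ?_) ?_
    · rw [h1, hc]
      simp [Nat.add_mul_mod_self_left, Nat.mod_eq_of_lt hr]
    · rw [h2, hc, Nat.add_mul_div_left _ _ hTpos, Nat.div_eq_of_lt hr, hσdef, hc,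
        Nat.mul_div_cancel_left _ hTpos]
      simp [add_assoc]
  have hyj : ∀ j : ℕ, runL (uniδ S T p h) (⟨r0, hr⟩, d0) (wpow y j) =
      (⟨r0, hr⟩, d0 + (j : ZMod p) * σ) := by
    intro j
    induction j with
    | zero => simp
    | succ j ih =>
      rw [show j + 1 = j + 1 from rfl, wpow_add, runL_append, ih]
      simp only [wpow_succ, wpow_zero, List.append_nil]
      rw [hy]
      push_cast
      simp only [Prod.mk.injEq, true_and]
      ring
  -- the prefix reaching the right counter value
  set c := (base.1.val + (T - r0)) % T with hc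
  have hcT : c < T := Nat.mod_lt _ hTpos
  have hle : T ≤ nS S y := Nat.le_of_dvd hpos hTy
  obtain ⟨x, x', hxx, hnx⟩ := exists_prefix_nS S y c (by omega)
  have hmod : (r0 + c) % T = base.1.val := by
    rw [hc, Nat.add_mod_mod, show r0 + (base.1.val + (T - r0)) = base.1.val + T by omega]
    simp [Nat.mod_eq_of_lt base.1.2]
  set κ := (((r0 + c) / T : ℕ) : ZMod p) + bS S p h r0 x with hκ
  refine ⟨((base.2 - d0 - κ) / σ).val, fun hA => ?_⟩
  set j := ((base.2 - d0 - κ) / σ).val with hj
  have hjcast : (j : ZMod p) * σ = base.2 - d0 - κ := by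
    rw [hj, ZMod.natCast_zmod_val, div_mul_cancel₀ _ hσ]
  have hsplit : wpow y (j + 1) = (wpow y j ++ x) ++ (x' ++ []) := by
    calc wpow y (j + 1) = wpow y j ++ wpow y 1 := wpow_add _ _ _
      _ = wpow y j ++ (y ++ []) := rfl
      _ = wpow y j ++ ((x ++ x') ++ []) := by rw [← hxx]
      _ = (wpow y j ++ x) ++ (x' ++ []) := by simp [List.append_assoc]
  rw [hsplit, avoid_append] at hA
  have h3 := runL_ne_of_avoid hne hA.1
  apply h3
  rw [runL_append, hyj]
  obtain ⟨h1, h2⟩ := run_uni (S := S) hper hT' x r0 hr (d0 + (j : ZMod p) * σ)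
  refine Prod.ext (Fin.ext ?_) ?_
  · rw [h1, hnx, hmod]
  · rw [h2, hnx, hjcast]
    rw [add_assoc, ← hκ]
    ring

/-- **Uniform automata are good**, for every base. -/
theorem uni_good (hT : T = p ^ (k + 1)) (hper : ∀ a X, h a (X + p ^ k) = h a X)
    (base : Fin T × ZMod p) : Good (uniδ S T p h) base := by
  have hp : p.Prime := Fact.out
  have hTpos : 0 < T := Nat.pos_of_ne_zero (NeZero.ne T)
  have hT' : p ^ k ∣ T := by rw [hT]; exact pow_dvd_pow _ (Nat.le_succ k)
  rintro u ⟨⟨r0, hr⟩, d0⟩ hne hA
  set L := nS S u with hL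
  -- `p ^ e` divides `L` for all `e ≤ k + 1`
  have hdiv : ∀ e, e ≤ k + 1 → p ^ e ∣ L := by
    intro e
    induction e with
    | zero => intro _; simp
    | succ e ih =>
      intro he
      obtain ⟨L', hL'⟩ := ih (by omega)
      by_cases hpL : p ∣ L'
      · obtain ⟨L'', rfl⟩ := hpL
        exact ⟨L'', by rw [hL', pow_succ]; ring⟩
      · exfalso
        have hL'pos : 0 < L' := Nat.pos_of_ne_zero (fun h0 => hpL (by rw [h0]; exact dvd_zero _))
        obtain ⟨f, rfl⟩ : ∃ f, k = e + f := ⟨k - e, by omega⟩
        set a := p ^ f with ha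
        have hN : nS S (wpow u (p * a)) = T * L' := by
          rw [nS_wpow, ← hL, hL', hT, ha]
          rw [show e + f + 1 = (f + 1) + e by omega, pow_add, pow_succ]
          ring
        have hb : bS S p h r0 (wpow u (p * a)) = 0 := by
          rw [bS_wpow_mul hper r0 a p u ⟨L', ?_⟩]
          · simp
          · rw [← hL, hL', ha, pow_add]
            ring
        have hσ : ((nS S (wpow u (p * a)) / T : ℕ) : ZMod p) +
            bS S p h r0 (wpow u (p * a)) ≠ 0 := by
          rw [hN, Nat.mul_div_cancel_left _ hTpos, hb, add_zero]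
          intro h0
          exact hpL ((ZMod.natCast_eq_zero_iff _ _).1 h0)
        obtain ⟨j, hj⟩ := uni_hit hT hper (wpow u (p * a)) r0 hr d0 base
          ⟨L', hN⟩ (by rw [hN]; exact Nat.mul_pos hTpos hL'pos) hσ hne
        apply hj
        rw [← wpow_mul]
        exact hA _
  have hTL : T ∣ L := by rw [hT]; exact hdiv _ le_rfl
  obtain ⟨h1, h2⟩ := run_uni (S := S) hper hT' u r0 hr d0
  obtain ⟨c, hc⟩ := hTL
  have hval : (runL (uniδ S T p h) (⟨r0, hr⟩, d0) u).1 = ⟨r0, hr⟩ := by
    refine Fin.ext ?_
    rw [h1, ← hL, hc]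
    simp [Nat.add_mul_mod_self_left, Nat.mod_eq_of_lt hr]
  rcases Nat.eq_zero_or_pos L with hL0 | hLpos
  · -- no letter of `S`
    have hb0 : ∀ (v : List α) (X : ℕ), nS S v = 0 → bS S p h X v = 0 := by
      intro v X
      induction v with
      | nil => intro _; rfl
      | cons a v ih =>
        intro hv
        by_cases hS : S a
        · simp [nS, hS] at hv
        · simp only [nS, hS, if_false] at hv
          simp only [bS, hS, if_false]
          exact ih (by omega)
    refine Prod.ext hval ?_
    rw [h2, ← hL, hb0 u r0 (by rw [← hL]; exact hL0), hL0]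
    simp [Nat.div_eq_of_lt hr]
  · by_cases hσ : ((L / T : ℕ) : ZMod p) + bS S p h r0 u = 0
    · refine Prod.ext hval ?_
      rw [h2, ← hL, hc, Nat.add_mul_div_left _ _ hTpos, Nat.div_eq_of_lt hr]
      rw [hc, Nat.mul_div_cancel_left _ hTpos] at hσ
      simp only [Nat.zero_add]
      rw [add_assoc, hσ, add_zero]
    · exfalso
      obtain ⟨j, hj⟩ := uni_hit hT hper u r0 hr d0 base ⟨c, by rw [← hL]; exact hc⟩
        (by rw [← hL]; exact hLpos) (by rw [← hL]; exact hσ) hne
      exact hj (hA _)

end Main

end Vale.Agent.Lib.P329
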