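import Vale.Agent.Lib.P329.GoodRun
import Vale.Agent.Lib.P329.CountExt
import Vale.Agent.Lib.P329.Uniform
import Vale.Agent.Lib.P329.Class3

/-!
Statistics of words computed by good automata with values in `ZMod N`: sums over the positions of a
letter of a function of the state of the automaton on the suffix.
-/

namespace Vale.Agent.Lib.P329

variable {α Q : Type}

/-- All fibres of a function with values in `R` have generalized star height at most one. -/
def CNZ {R : Type} (f : List α → R) : Prop := ∀ r : R, GSH 1 {w | f w = r}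

section Closure

variable {R : Type}

theorem CNZ.congr {f g : List α → R} (hf : CNZ f) (h : ∀ w, f w = g w) : CNZ g := by
  intro r
  refine (hf r).of_ext (fun w => ?_)
  show f w = r ↔ g w = r
  rw [h]

theorem CNZ.const (c : R) : CNZ (fun _ : List α => c) := by
  intro r
  by_cases h : c = r
  · exact (GSH.univ 1).of_ext (fun w => ⟨fun _ => h, fun _ => trivial⟩)
  · refine (GSH.bot 1).of_ext (fun w => ?_)
    constructor
    · intro h0
      exact absurd h0 (Language.notMem_zero w)
    · intro h0
      exact absurd h0 h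

/-- A function of a statistic. -/
theorem CNZ.map [Finite R] {R' : Type} {f : List α → R} (hf : CNZ f) (F : R → R') : CNZ (fun w => F (f w)) := by
  intro r
  refine (GSH.exists (ι := {s : R // F s = r}) (P := fun s w => f w = s.1)
    (fun s => hf s.1)).of_ext (fun w => ?_)
  constructor
  · rintro ⟨⟨s, hs⟩, h⟩
    show F (f w) = r
    rw [show f w = s from h, hs]
  · intro h
    exact ⟨⟨f w, h⟩, rfl⟩

theorem CNZ.pair {R' : Type} [Finite R'] {f : List α → R} {g : List α → R'} (hf : CNZ f)
    (hg : CNZ g) : CNZ (fun w => (f w, g w)) := by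
  rintro ⟨r, s⟩
  refine ((hf r).and (hg s)).of_ext (fun w => ?_)
  constructor
  · rintro ⟨h1, h2⟩
    show (f w, g w) = (r, s)
    rw [h1, h2]
  · intro h
    have h' : (f w, g w) = (r, s) := h
    exact ⟨congrArg Prod.fst h', congrArg Prod.snd h'⟩

theorem CNZ.map₂ [Finite R] {R' R'' : Type} [Finite R'] {f : List α → R} {g : List α → R'} (hf : CNZ f)
    (hg : CNZ g) (F : R → R' → R'') : CNZ (fun w => F (f w) (g w)) :=
  (hf.pair hg).map (fun s => F s.1 s.2)

theorem CNZ.add [Finite R] [Add R] {f g : List α → R} (hf : CNZ f) (hg : CNZ g) : CNZ (fun w => f w + g w) :=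
  hf.map₂ hg (· + ·)

theorem CNZ.sub [Finite R] [Sub R] {f g : List α → R} (hf : CNZ f) (hg : CNZ g) : CNZ (fun w => f w - g w) :=
  hf.map₂ hg (· - ·)

theorem CNZ.mul [Finite R] [Mul R] {f g : List α → R} (hf : CNZ f) (hg : CNZ g) : CNZ (fun w => f w * g w) :=
  hf.map₂ hg (· * ·)

theorem CNZ.sum [Finite R] [AddCommMonoid R] {ι : Type} (s : Finset ι) (F : ι → List α → R)
    (h : ∀ i ∈ s, CNZ (F i)) : CNZ (fun w => ∑ i ∈ s, F i w) := by
  classical
  induction s using Finset.induction_on with
  | empty => simpa using CNZ.const (α := α) (0 : R)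
  | insert a s ha ih =>
    refine ((h a (Finset.mem_insert_self a s)).add
      (ih (fun i hi => h i (Finset.mem_insert_of_mem hi)))).congr (fun w => ?_)
    rw [Finset.sum_insert ha]

end Closure

theorem cnz_of_cntat {N : ℕ} {f : List α → ℤ} (h : CNTat N f) :
    CNZ (fun w => ((f w : ℤ) : ZMod N)) := h

theorem cntat_of_cnz {N : ℕ} {f : List α → ℤ} (h : CNZ (fun w => ((f w : ℤ) : ZMod N))) :
    CNTat N f := h

/-- The sum of `f` on the suffixes following the positions of the letter `c`. -/
def posSum {R : Type} [AddZeroClass R] [DecidableEq α] (c : α) (f : List α → R) : List α → R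
  | [] => 0
  | a :: w => (if a = c then f w else 0) + posSum c f w

section Foldr

variable (δ : α → Q → Q) (z : Q) (E : α → Prop)

/-- The number of increments along the run reading from the right. -/
noncomputable def cntR (q0 : Q) : List α → ℕ
  | [] => 0
  | a :: w => inc δ z E a (w.foldr δ q0) + cntR q0 w

theorem foldr_ext (M : ℕ) (q0 : Q) (w : List α) :
    w.foldr (extδ δ z E M) (q0, 0) = (w.foldr δ q0, ((cntR δ z E q0 w : ℕ) : ZMod M)) := by
  induction w with
  | nil => simp [cntR]
  | cons a w ih =>
    simp only [List.foldr_cons, ih, extδ, cntR]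
    push_cast
    rw [add_comm]

variable [Finite α] [Finite Q] {δ}

/-- The state on reading from the right. -/
theorem cnz_state {z : Q} (hG : Good δ z) (q0 : Q) : CNZ (fun w : List α => w.foldr δ q0) :=
  fun r => gsh_foldr_good hG q0 r

/-- The count of increments. -/
theorem cnz_cntR {z : Q} (hG : Good δ z) (hb : ∀ a, Function.Injective (δ a)) (E : α → Prop)
    (q0 : Q) (M : ℕ) [NeZero M] : CNZ (fun w : List α => ((cntR δ z E q0 w : ℕ) : ZMod M)) := by
  have h0 : Good (extδ δ z E M) (z, (0 : ZMod M)) := good_ext hG hb M 0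
  have h1 : CNZ (fun w : List α => w.foldr (extδ δ z E M) (q0, (0 : ZMod M))) :=
    cnz_state h0 (q0, 0)
  refine (h1.map Prod.snd).congr (fun w => ?_)
  rw [foldr_ext]

end Foldr

section PosSum

variable [DecidableEq α] [DecidableEq Q] {δ : α → Q → Q}

theorem inc_neutral_self (z : Q) (c : α) (hc : Neutral δ c) (q : Q) :
    inc δ z (fun a => a = c) c q = if q = z then 1 else 0 := by
  unfold inc
  rw [hc q]
  by_cases hq : q = z
  · rw [if_pos ⟨hq, Or.inr rfl⟩, if_pos hq]
  · rw [if_neg (fun h => hq h.1), if_neg hq]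

theorem inc_neutral_none (z : Q) (c : α) (hc : Neutral δ c) (q : Q) :
    inc δ z (fun _ => False) c q = 0 := by
  unfold inc
  rw [if_neg]
  rintro ⟨-, h | h⟩
  · exact h hc
  · exact h

theorem inc_other (z : Q) (a c : α) (hac : a ≠ c) (q : Q) :
    inc δ z (fun b => b = c) a q = inc δ z (fun _ => False) a q := by
  unfold inc
  have : (δ a q = z ∧ (¬ Neutral δ a ∨ a = c)) ↔ (δ a q = z ∧ (¬ Neutral δ a ∨ False)) := by
    simp [hac]
  by_cases h : δ a q = z ∧ (¬ Neutral δ a ∨ a = c)
  · rw [if_pos h, if_pos (this.1 h)]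
  · rw [if_neg h, if_neg (fun h' => h (this.2 h'))]

/-- Positions of a neutral letter where the state on the suffix is `z`. -/
theorem cntR_diff (z : Q) (c : α) (hc : Neutral δ c) (q0 : Q) (M : ℕ) (w : List α) :
    (((cntR δ z (fun a => a = c) q0 w : ℕ) : ZMod M) - ((cntR δ z (fun _ => False) q0 w : ℕ) : ZMod M))
      = posSum c (fun w' => if w'.foldr δ q0 = z then (1 : ZMod M) else 0) w := by
  induction w with
  | nil => simp [cntR, posSum]
  | cons a w ih =>
    simp only [cntR, posSum]
    push_cast
    rw [← ih]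
    by_cases ha : a = c
    · subst ha
      rw [inc_neutral_self z a hc, inc_neutral_none z a hc, if_pos rfl]
      by_cases hz : w.foldr δ q0 = z
      · simp only [hz, if_true, Nat.cast_one, Nat.cast_zero]
        ring
      · simp only [hz, if_false, Nat.cast_zero]
        ring
    · rw [inc_other z a c ha, if_neg ha]
      ring

/-- **Sums over the positions of a neutral letter** of any function of the state on the suffix. -/
theorem cnz_posSum [Finite α] [Fintype Q] (hG : ∀ z, Good δ z) (hb : ∀ a, Function.Injective (δ a)) (c : α)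
    (hc : Neutral δ c) (q0 : Q) (M : ℕ) [NeZero M] (G : Q → ZMod M) :
    CNZ (posSum c (fun w : List α => G (w.foldr δ q0))) := by
  have key : ∀ z, CNZ (fun w : List α =>
      ((cntR δ z (fun a => a = c) q0 w : ℕ) : ZMod M) - ((cntR δ z (fun _ => False) q0 w : ℕ) : ZMod M)) :=
    fun z => (cnz_cntR (hG z) hb _ q0 M).sub (cnz_cntR (hG z) hb _ q0 M)
  have h := CNZ.sum (α := α) Finset.univ (fun (z : Q) (w : List α) => G z *
      (((cntR δ z (fun a => a = c) q0 w : ℕ) : ZMod M) - ((cntR δ z (fun _ => False) q0 w : ℕ) : ZMod M)))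
    (fun z _ => (CNZ.const (G z)).mul (key z))
  refine h.congr (fun w => ?_)
  have h1 : ∀ z : Q, (((cntR δ z (fun a => a = c) q0 w : ℕ) : ZMod M) -
      ((cntR δ z (fun _ => False) q0 w : ℕ) : ZMod M)) =
      posSum c (fun w' => if w'.foldr δ q0 = z then (1 : ZMod M) else 0) w :=
    fun z => cntR_diff z c hc q0 M w
  simp only [h1]
  clear h1
  induction w with
  | nil => simp [posSum]
  | cons a w ih =>
    simp only [posSum, mul_add]
    rw [Finset.sum_add_distrib, ih]
    congr 1
    by_cases ha : a = c
    · simp [ha]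
    · simp [ha]

end PosSum

end Vale.Agent.Lib.P329
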