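import Vale.Agent.Lib.P329.StatUni

/-!
More statistics of uniform automata: the counts of arrivals at a state give sums over all the
positions of the letters of `S`; and sums, over the positions of a letter outside `S` or over all
the positions of the letters of `S`, of products of at most four digits.
-/

namespace Vale.Agent.Lib.P329

variable {α Q : Type}

/-- The sum of `f` on the suffixes starting at a letter of `S`. -/
def posS {R : Type} [AddZeroClass R] (S : α → Prop) [DecidablePred S] (f : List α → R) : List α → R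
  | [] => 0
  | a :: w => (if S a then f (a :: w) else 0) + posS S f w

section Arrivals

variable {δ : α → Q → Q} {S : α → Prop} [DecidablePred S] [DecidableEq Q]

theorem cntR_arrivals (hS : ∀ a, S a ↔ ¬ Neutral δ a) (z q0 : Q) (M : ℕ) (w : List α) :
    ((cntR δ z (fun _ => False) q0 w : ℕ) : ZMod M) =
      posS S (fun w' => if w'.foldr δ q0 = z then (1 : ZMod M) else 0) w := by
  induction w with
  | nil => simp [cntR, posS]
  | cons a w ih =>
    simp only [cntR, posS]
    push_cast
    rw [ih]
    congr 1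
    unfold inc
    by_cases ha : S a
    · have h1 : ¬ Neutral δ a := (hS a).1 ha
      simp only [ha, if_true, List.foldr_cons]
      by_cases hz : δ a (w.foldr δ q0) = z
      · simp [hz, h1]
      · simp [hz]
    · have h1 : Neutral δ a := by
        by_contra h2
        exact ha ((hS a).2 h2)
      simp [ha, h1]

/-- **Sums over the positions of the letters of `S`** of any function of the state. -/
theorem cnz_posS [Finite α] [Fintype Q] (hG : ∀ z, Good δ z) (hb : ∀ a, Function.Injective (δ a))
    (hS : ∀ a, S a ↔ ¬ Neutral δ a) (q0 : Q) (M : ℕ) [NeZero M] (G : Q → ZMod M) :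
    CNZ (posS S (fun w : List α => G (w.foldr δ q0))) := by
  have h := CNZ.sum (α := α) Finset.univ (fun (z : Q) (w : List α) => G z *
      ((cntR δ z (fun _ => False) q0 w : ℕ) : ZMod M))
    (fun z _ => (CNZ.const (G z)).mul (cnz_cntR (hG z) hb _ q0 M))
  refine h.congr (fun w => ?_)
  simp only [cntR_arrivals hS]
  induction w with
  | nil => simp [posS]
  | cons a w ih =>
    simp only [posS, mul_add]
    rw [Finset.sum_add_distrib, ih]
    congr 1
    by_cases ha' : S a
    · simp only [ha', if_true, List.foldr_cons]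
      rw [Finset.sum_eq_single (δ a (w.foldr δ q0))]
      · simp
      · intro b _ hb
        have h0 : ¬ (δ a (w.foldr δ q0) = b) := Ne.symm hb
        simp [h0]
      · intro h
        exact absurd (Finset.mem_univ _) h
    · simp [ha']

end Arrivals

variable [DecidableEq α] {S : α → Prop} [DecidablePred S]

section Linear

theorem posS_congr {R : Type} [AddZeroClass R] {f g : List α → R} (h : ∀ w, f w = g w)
    (w : List α) : posS S f w = posS S g w := by
  have : f = g := funext h
  rw [this]

/-- Additivity. -/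
theorem posS_lin {p : ℕ} (c : ZMod p) (f g : List α → ZMod p) (w : List α) :
    posS S (fun w => c * f w + g w) w = c * posS S f w + posS S g w := by
  induction w with
  | nil => simp [posS]
  | cons a w ih =>
    simp only [posS, ih]
    by_cases ha : S a
    · simp only [ha, if_true]
      ring
    · simp only [ha, if_false]
      ring

theorem posSum_lin {p : ℕ} (x : α) (c : ZMod p) (f g : List α → ZMod p) (w : List α) :
    posSum x (fun w => c * f w + g w) w = c * posSum x f w + posSum x g w := by
  induction w with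
  | nil => simp [posSum]
  | cons a w ih =>
    simp only [posSum, ih]
    by_cases ha : a = x
    · simp only [ha, if_true]
      ring
    · simp only [ha, if_false]
      ring

end Linear

section Uniform

variable {p : ℕ} [hp : Fact p.Prime] [Finite α]

theorem two_le_pow (k : ℕ) : 2 ≤ p ^ (k + 1) := by
  have h2 : 2 ≤ p := hp.out.two_le
  calc 2 ≤ p := h2
    _ = p ^ 1 := (pow_one p).symm
    _ ≤ p ^ (k + 1) := Nat.pow_le_pow_right hp.out.pos (by omega)

omit [Finite α] in
theorem not_neutral_uni {k : ℕ} [NeZero (p ^ (k + 1))] (h : α → ℕ → ZMod p) (a : α) :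
    S a ↔ ¬ Neutral (uniδ S (p ^ (k + 1)) p h) a := by
  constructor
  · intro ha hn
    have h1 := hn ((0 : Fin (p ^ (k + 1))), (0 : ZMod p))
    have h2 : (uniδ S (p ^ (k + 1)) p h a ((0 : Fin (p ^ (k + 1))), (0 : ZMod p))).1.val = 0 := by
      rw [h1]
      simp
    simp only [uniδ, ha, if_true] at h2
    have h3 := two_le_pow (p := p) k
    simp at h2
    exact absurd h2 hp.out.ne_one
  · intro hn
    by_contra ha
    exact hn (neutral_uni h ha)

/-- What is needed of a way to sum over positions: it is linear, and it sums every function of the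
counter and the digit. -/
structure Outer (S : α → Prop) [DecidablePred S] (O : (List α → ZMod p) → List α → ZMod p) :
    Prop where
  lin : ∀ (c : ZMod p) (f g : List α → ZMod p) (w : List α),
    O (fun w => c * f w + g w) w = c * O f w + O g w
  congr : ∀ (f g : List α → ZMod p), (∀ w, f w = g w) → ∀ w, O f w = O g w
  cnz : ∀ (k : ℕ) (h : α → ℕ → ZMod p), (∀ a X, h a (X + p ^ k) = h a X) →
    ∀ (G : ℕ → ZMod p → ZMod p), (∀ X d, G (X + p ^ (k + 1)) d = G X d) →
    CNZ (O (fun w => G (nS S w) (((nS S w / p ^ (k + 1) : ℕ) : ZMod p) + bR S p h w)))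

/-- Sums over the positions of a letter outside `S`. -/
theorem outer_posSum (c : α) (hc : ¬ S c) : Outer (p := p) S (posSum c) where
  lin := fun d f g w => posSum_lin c d f g w
  congr := fun f g h w => posSum_congr c h w
  cnz := by
    intro k h hper G hGper
    have := pow_neZero p (k + 1)
    have hG : ∀ z, Good (uniδ S (p ^ (k + 1)) p h) z :=
      fun z => uni_good (S := S) (k := k) (h := h) rfl hper z
    have h1 := cnz_posSum hG uni_injective c (neutral_uni h hc) (0, 0) p
      (fun s => G s.1.val s.2)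
    refine h1.congr (fun w => posSum_congr c (fun w' => ?_) w)
    obtain ⟨h2, h3⟩ := foldr_uni (S := S) hper (pow_dvd_pow p (Nat.le_succ k)) w'
      ((0 : Fin (p ^ (k + 1))), (0 : ZMod p)) (by simp) rfl
    rw [h2, h3]
    have h4 : ∀ d, G (nS S w' % p ^ (k + 1)) d = G (nS S w') d :=
      fun d => per_mod (φ := fun X => G X d) (fun n => hGper n d) _
    rw [h4]

/-- Sums over the positions of all the letters of `S`. -/
theorem outer_posS : Outer (p := p) S (posS S) where
  lin := fun d f g w => posS_lin d f g w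
  congr := fun f g h w => posS_congr h w
  cnz := by
    intro k h hper G hGper
    have := pow_neZero p (k + 1)
    have hG : ∀ z, Good (uniδ S (p ^ (k + 1)) p h) z :=
      fun z => uni_good (S := S) (k := k) (h := h) rfl hper z
    have h1 := cnz_posS hG uni_injective (not_neutral_uni h) (0, 0) p (fun s => G s.1.val s.2)
    refine h1.congr (fun w => posS_congr (fun w' => ?_) w)
    obtain ⟨h2, h3⟩ := foldr_uni (S := S) hper (pow_dvd_pow p (Nat.le_succ k)) w'
      ((0 : Fin (p ^ (k + 1))), (0 : ZMod p)) (by simp) rfl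
    rw [h2, h3]
    have h4 : ∀ d, G (nS S w' % p ^ (k + 1)) d = G (nS S w') d :=
      fun d => per_mod (φ := fun X => G X d) (fun n => hGper n d) _
    rw [h4]

variable {O : (List α → ZMod p) → List α → ZMod p}

theorem Outer.zero (hO : Outer S O) (w : List α) : O (fun _ => 0) w = 0 := by
  have h := hO.lin 1 (fun _ => 0) (fun _ => 0) w
  have h2 : O (fun w => (1 : ZMod p) * (fun _ => (0 : ZMod p)) w + (fun _ => (0 : ZMod p)) w) w =
      O (fun _ => 0) w := hO.congr _ _ (fun w => by simp) w
  rw [h2] at h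
  linear_combination -h

theorem Outer.mul_const (hO : Outer S O) (c : ZMod p) (f : List α → ZMod p) (w : List α) :
    O (fun w => c * f w) w = c * O f w := by
  have h := hO.lin c f (fun _ => 0) w
  rw [hO.zero, add_zero] at h
  rw [← h]
  exact hO.congr _ _ (fun w => by simp) w

theorem Outer.add (hO : Outer S O) (f g : List α → ZMod p) (w : List α) :
    O (fun w => f w + g w) w = O f w + O g w := by
  have h := hO.lin 1 f g w
  rw [one_mul] at h
  rw [← h]
  exact hO.congr _ _ (fun w => by simp) w

theorem Outer.sum (hO : Outer S O) {ι : Type} (s : Finset ι) (F : ι → List α → ZMod p)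
    (w : List α) : O (fun w => ∑ i ∈ s, F i w) w = ∑ i ∈ s, O (F i) w := by
  classical
  induction s using Finset.induction_on with
  | empty => simpa using hO.zero w
  | insert a s ha ih =>
    rw [Finset.sum_insert ha, ← ih, ← hO.add]
    exact hO.congr _ _ (fun w => by rw [Finset.sum_insert ha]) w

/-- Powers of a digit: the carry of the digit is removed by induction on the exponent. -/
theorem stat_pow (hO : Outer S O) (e : ℕ) : ∀ (k l : ℕ) (h : α → ℕ → ZMod p),
    (∀ a X, h a (X + p ^ k) = h a X) → ∀ φ : ℕ → ZMod p, (∀ n, φ (n + p ^ l) = φ n) →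
    CNZ (O (fun w => φ (nS S w) * bR S p h w ^ e)) := by
  have : NeZero p := ⟨hp.out.ne_zero⟩
  induction e using Nat.strong_induction_on with
  | _ e ih =>
    intro k l h hper φ hφ
    -- a common period
    set K := max k l with hK
    have hper' : ∀ a X, h a (X + p ^ K) = h a X := by
      intro a X
      obtain ⟨c, hc⟩ := pow_dvd_pow p (le_max_left k l)
      rw [← hK] at hc
      rw [hc]
      exact per_mul (hper a) X c
    have hφ' : ∀ n, φ (n + p ^ (K + 1)) = φ n := by
      intro n
      obtain ⟨c, hc⟩ := pow_dvd_pow p (show l ≤ K + 1 by have := le_max_right k l; omega)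
      rw [hc]
      exact per_mul hφ n c
    let κ : ℕ → ZMod p := fun n => ((n / p ^ (K + 1) : ℕ) : ZMod p)
    have hκ : ∀ n, κ (n + p ^ (K + 1 + 1)) = κ n := fun n => div_per n
    have h1 := hO.cnz K h hper' (fun X d => φ X * d ^ e) (fun X d => by
      show φ _ * _ = φ _ * _
      rw [hφ'])
    -- lower terms
    have h2 : CNZ (fun w : List α => ∑ j ∈ Finset.range e,
        O (fun w => ((e.choose j : ℕ) : ZMod p) * (φ (nS S w) * κ (nS S w) ^ (e - j) *
          bR S p h w ^ j)) w) := by
      refine CNZ.sum _ _ (fun j hj => ?_)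
      have hj' : j < e := Finset.mem_range.1 hj
      refine (((ih j hj' K (K + 1 + 1) h hper' (fun n => φ n * κ n ^ (e - j)) (fun n => ?_)).map
        (fun x => ((e.choose j : ℕ) : ZMod p) * x))).congr (fun w => ?_)
      · show φ _ * κ _ ^ _ = φ _ * κ _ ^ _
        rw [hκ]
        congr 1
        rw [show K + 1 + 1 = (K + 1) + 1 from rfl, pow_succ p (K + 1)]
        exact per_mul hφ' n p
      · rw [← hO.mul_const]
  
    refine (h1.sub h2).congr (fun w => ?_)
    have h3 : ∀ w, φ (nS S w) * (κ (nS S w) + bR S p h w) ^ e =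
        φ (nS S w) * bR S p h w ^ e + ∑ j ∈ Finset.range e,
          ((e.choose j : ℕ) : ZMod p) * (φ (nS S w) * κ (nS S w) ^ (e - j) * bR S p h w ^ j) := by
      intro w
      rw [add_comm (κ _), add_pow, Finset.sum_range_succ, mul_add, Finset.mul_sum]
      simp only [Nat.choose_self, Nat.cast_one, mul_one, Nat.sub_self, pow_zero]
      rw [add_comm]
      congr 1
      refine Finset.sum_congr rfl (fun j _ => ?_)
      ring
    have h4 := hO.congr _ _ h3 w
    show O (fun w => φ (nS S w) * (κ (nS S w) + bR S p h w) ^ e) w - _ = _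
    rw [h4, hO.add, hO.sum]
    ring

/-- The sum of two letter-dependent parts. -/
def addH (h1 h2 : α → ℕ → ZMod p) : α → ℕ → ZMod p := fun a X => h1 a X + h2 a X

theorem bR_add (h1 h2 : α → ℕ → ZMod p) (w : List α) :
    bR S p (addH h1 h2) w = bR S p h1 w + bR S p h2 w := by
  induction w with
  | nil => simp [bR]
  | cons a w ih =>
    simp only [bR, ih, addH]
    by_cases ha : S a
    · simp only [ha, if_true]
      ring
    · simp only [ha, if_false]
      ring

theorem CNZ.of_mul_const {f : List α → ZMod p} {c : ZMod p} (hc : c ≠ 0)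
    (h : CNZ (fun w => c * f w)) : CNZ f := by
  have : NeZero p := ⟨hp.out.ne_zero⟩
  refine (h.map (fun x => c⁻¹ * x)).congr (fun w => ?_)
  show c⁻¹ * (c * f w) = f w
  rw [inv_mul_cancel_left₀ hc]

section Polar

/-- Combining known sums. -/
theorem stat_comb (hO : Outer S O) {f g : List α → ZMod p} (c : ZMod p) (hf : CNZ (O f)) (hg : CNZ (O g)) :
    CNZ (O (fun w => c * f w + g w)) := by
  have : NeZero p := ⟨hp.out.ne_zero⟩
  refine (((CNZ.const c).mul hf).add hg).congr (fun w => ?_)
  rw [hO.lin]

end Polar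

/-! ### Products of digits -/

section Polar

/-- Periodicity of a letter-dependent part. -/
def Per (k : ℕ) (h : α → ℕ → ZMod p) : Prop := ∀ a X, h a (X + p ^ k) = h a X

theorem per_add {k : ℕ} {h1 h2 : α → ℕ → ZMod p} (H1 : Per k h1) (H2 : Per k h2) :
    Per k (addH h1 h2) := by
  intro a X
  show h1 a _ + h2 a _ = h1 a _ + h2 a _
  rw [H1, H2]

theorem Outer.cnz_congr (hO : Outer S O) {f g : List α → ZMod p} (h : CNZ (O f))
    (e : ∀ w, f w = g w) : CNZ (O g) :=
  h.congr (fun w => hO.congr f g e w)

theorem Outer.cnz_zero (hO : Outer S O) : CNZ (O (fun _ => 0)) :=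
  (CNZ.const (0 : ZMod p)).congr (fun w => (hO.zero w).symm)

variable (hO : Outer S O) {k l : ℕ} {φ : ℕ → ZMod p} (hφ : ∀ n, φ (n + p ^ l) = φ n)
include hO hφ

theorem stat_p0 : CNZ (O (fun w => φ (nS S w))) :=
  hO.cnz_congr (stat_pow hO 0 0 l (fun _ _ => 0) (fun _ _ => rfl) φ hφ) (fun w => by simp)

theorem stat_p1 {h1 : α → ℕ → ZMod p} (H1 : Per k h1) :
    CNZ (O (fun w => φ (nS S w) * bR S p h1 w)) :=
  hO.cnz_congr (stat_pow hO 1 k l h1 H1 φ hφ) (fun w => by simp)

theorem stat_p2 (h2 : (2 : ZMod p) ≠ 0) {h1 h2' : α → ℕ → ZMod p}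
    (H1 : Per k h1) (H2 : Per k h2') :
    CNZ (O (fun w => φ (nS S w) * (bR S p h1 w * bR S p h2' w))) := by
  have K := fun (h : α → ℕ → ZMod p) (H : Per k h) => stat_pow hO 2 k l h H φ hφ
  refine CNZ.of_mul_const h2 ?_
  have h0 := hO.cnz_congr (stat_comb hO 1 (K _ (per_add H1 H2)) (stat_comb hO (-1) (K _ H1)
    (stat_comb hO (-1) (K _ H2) hO.cnz_zero)))
    (g := fun w => 2 * (φ (nS S w) * (bR S p h1 w * bR S p h2' w))) (fun w => by
      simp only [bR_add]
      ring)
  exact h0.congr (fun w => hO.mul_const _ _ w)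

theorem stat_p3 (h6 : (6 : ZMod p) ≠ 0) {h1 h2 h3 : α → ℕ → ZMod p}
    (H1 : Per k h1) (H2 : Per k h2) (H3 : Per k h3) :
    CNZ (O (fun w => φ (nS S w) * (bR S p h1 w * (bR S p h2 w * bR S p h3 w)))) := by
  have K := fun (h : α → ℕ → ZMod p) (H : Per k h) => stat_pow hO 3 k l h H φ hφ
  refine CNZ.of_mul_const h6 ?_
  have h0 := hO.cnz_congr (stat_comb hO 1 (K _ (per_add (per_add H1 H2) H3))
    (stat_comb hO (-1) (K _ (per_add H1 H2))
    (stat_comb hO (-1) (K _ (per_add H1 H3))
    (stat_comb hO (-1) (K _ (per_add H2 H3))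
    (stat_comb hO 1 (K _ H1)
    (stat_comb hO 1 (K _ H2)
    (stat_comb hO 1 (K _ H3) hO.cnz_zero)))))))
    (g := fun w => 6 * (φ (nS S w) * (bR S p h1 w * (bR S p h2 w * bR S p h3 w)))) (fun w => by
      simp only [bR_add]
      ring)
  exact h0.congr (fun w => hO.mul_const _ _ w)

theorem stat_p4 (h24 : (24 : ZMod p) ≠ 0) {h1 h2 h3 h4 : α → ℕ → ZMod p}
    (H1 : Per k h1) (H2 : Per k h2) (H3 : Per k h3) (H4 : Per k h4) :
    CNZ (O (fun w => φ (nS S w) * (bR S p h1 w * (bR S p h2 w * (bR S p h3 w * bR S p h4 w))))) := by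
  have K := fun (h : α → ℕ → ZMod p) (H : Per k h) => stat_pow hO 4 k l h H φ hφ
  refine CNZ.of_mul_const h24 ?_
  have h0 := hO.cnz_congr (stat_comb hO 1 (K _ (per_add (per_add (per_add H1 H2) H3) H4))
    (stat_comb hO (-1) (K _ (per_add (per_add H1 H2) H3))
    (stat_comb hO (-1) (K _ (per_add (per_add H1 H2) H4))
    (stat_comb hO (-1) (K _ (per_add (per_add H1 H3) H4))
    (stat_comb hO (-1) (K _ (per_add (per_add H2 H3) H4))
    (stat_comb hO 1 (K _ (per_add H1 H2))
    (stat_comb hO 1 (K _ (per_add H1 H3))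
    (stat_comb hO 1 (K _ (per_add H1 H4))
    (stat_comb hO 1 (K _ (per_add H2 H3))
    (stat_comb hO 1 (K _ (per_add H2 H4))
    (stat_comb hO 1 (K _ (per_add H3 H4))
    (stat_comb hO (-1) (K _ H1)
    (stat_comb hO (-1) (K _ H2)
    (stat_comb hO (-1) (K _ H3)
    (stat_comb hO (-1) (K _ H4) hO.cnz_zero)))))))))))))))
    (g := fun w => 24 * (φ (nS S w) * (bR S p h1 w * (bR S p h2 w * (bR S p h3 w * bR S p h4 w)))))
    (fun w => by
      simp only [bR_add]
      ring)
  exact h0.congr (fun w => hO.mul_const _ _ w)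

end Polar

/-- The letter-dependent part for one letter and a binomial coefficient. -/
def hOf (p : ℕ) (x : α) (j : ℕ) : α → ℕ → ZMod p :=
  fun a X => if a = x then ((X.choose j : ℕ) : ZMod p) else 0

theorem hOf_per {k j : ℕ} (hj : j < p ^ k) (x : α) : Per (p := p) k (hOf p x j) := by
  intro a X
  unfold hOf
  rw [choose_per k j hj X]

/-- The value of a digit. -/
def Kval (S : α → Prop) [DecidablePred S] (p : ℕ) (m : α × ℕ) (w : List α) : ZMod p :=
  posSum m.1 (fun w : List α => ((nS S w).choose m.2 : ZMod p)) w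

theorem bR_hOf {m : α × ℕ} (hm : S m.1) (w : List α) :
    bR S p (hOf p m.1 m.2) w = Kval S p m w :=
  bR_single m.1 hm (fun X => ((X.choose m.2 : ℕ) : ZMod p)) w

/-- **The statistics**: sums of a binomial coefficient of the number of letters of `S` times a
product of at most four digits. -/
theorem stat_list (h24 : (24 : ZMod p) ≠ 0) (hO : Outer S O) (k i : ℕ) (hi : i < p ^ k)
    (ms : List (α × ℕ)) (hms : ms.length ≤ 4) (hm : ∀ m ∈ ms, S m.1 ∧ m.2 < p ^ k) :
    CNZ (O (fun w => ((nS S w).choose i : ZMod p) * (ms.map fun m => Kval S p m w).prod)) := by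
  have h6 : (6 : ZMod p) ≠ 0 := by
    intro h
    apply h24
    rw [show (24 : ZMod p) = 4 * 6 by norm_num, h, mul_zero]
  have h2 : (2 : ZMod p) ≠ 0 := by
    intro h
    apply h24
    rw [show (24 : ZMod p) = 12 * 2 by norm_num, h, mul_zero]
  let φ : ℕ → ZMod p := fun n => ((n.choose i : ℕ) : ZMod p)
  have hφ : ∀ n, φ (n + p ^ k) = φ n := fun n => choose_per k i hi n
  have hper : ∀ m ∈ ms, Per (p := p) k (hOf p m.1 m.2) :=
    fun m hm' => hOf_per (hm m hm').2 m.1
  match ms, hms with
  | [], _ =>
    exact hO.cnz_congr (stat_p0 hO hφ) (fun w => by simp [φ])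
  | [m1], _ =>
    refine hO.cnz_congr (stat_p1 hO hφ (hper m1 (by simp))) (fun w => ?_)
    rw [bR_hOf (hm m1 (by simp)).1]
    simp [φ]
  | [m1, m2], _ =>
    refine hO.cnz_congr (stat_p2 hO hφ h2 (hper m1 (by simp)) (hper m2 (by simp))) (fun w => ?_)
    rw [bR_hOf (hm m1 (by simp)).1, bR_hOf (hm m2 (by simp)).1]
    simp [φ]
  | [m1, m2, m3], _ =>
    refine hO.cnz_congr (stat_p3 hO hφ h6 (hper m1 (by simp)) (hper m2 (by simp))
      (hper m3 (by simp))) (fun w => ?_)
    rw [bR_hOf (hm m1 (by simp)).1, bR_hOf (hm m2 (by simp)).1, bR_hOf (hm m3 (by simp)).1]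
    simp [φ]
  | [m1, m2, m3, m4], _ =>
    refine hO.cnz_congr (stat_p4 hO hφ h24 (hper m1 (by simp)) (hper m2 (by simp))
      (hper m3 (by simp)) (hper m4 (by simp))) (fun w => ?_)
    rw [bR_hOf (hm m1 (by simp)).1, bR_hOf (hm m2 (by simp)).1, bR_hOf (hm m3 (by simp)).1,
      bR_hOf (hm m4 (by simp)).1]
    simp [φ]
  | _ :: _ :: _ :: _ :: _ :: _, h => simp at h; omega

end Uniform

end Vale.Agent.Lib.P329
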