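import Vale.Agent.Lib.P329.Stat

/-!
Statistics obtained from uniform automata: functions of the number of letters of `S`, sums of these
over the positions of a letter, and one more level over the letters outside `S`.
-/

namespace Vale.Agent.Lib.P329

variable {α : Type} [DecidableEq α]

section General

theorem posSum_congr {R : Type} [AddZeroClass R] (c : α) {f g : List α → R} (h : ∀ w, f w = g w)
    (w : List α) : posSum c f w = posSum c g w := by
  have : f = g := funext h
  rw [this]

theorem posSum_sub {R : Type} [AddCommGroup R] (c : α) (f g : List α → R) (w : List α) :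
    posSum c (fun w => f w - g w) w = posSum c f w - posSum c g w := by
  induction w with
  | nil => simp [posSum]
  | cons a w ih =>
    simp only [posSum, ih]
    by_cases ha : a = c
    · simp only [ha, if_true]
      abel
    · simp only [ha, if_false]
      abel

theorem posSum_add {R : Type} [AddCommGroup R] (c : α) (f g : List α → R) (w : List α) :
    posSum c (fun w => f w + g w) w = posSum c f w + posSum c g w := by
  induction w with
  | nil => simp [posSum]
  | cons a w ih =>
    simp only [posSum, ih]
    by_cases ha : a = c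
    · simp only [ha, if_true]
      abel
    · simp only [ha, if_false]
      abel

end General

variable (S : α → Prop) [DecidablePred S]

/-- The letter-dependent part of the digit, reading from the right. -/
def bR (P : ℕ) (h : α → ℕ → ZMod P) : List α → ZMod P
  | [] => 0
  | a :: w => (if S a then h a (nS S w) else 0) + bR P h w

variable {S}

/-- Closed form of the run from the right. -/
theorem foldr_uni {T P T' : ℕ} [NeZero T] {h : α → ℕ → ZMod P}
    (hper : ∀ a X, h a (X + T') = h a X) (hT' : T' ∣ T) (w : List α)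
    (q0 : Fin T × ZMod P) (hq0 : q0.1.val = 0) (hq0' : q0.2 = 0) :
    (w.foldr (uniδ S T P h) q0).1.val = nS S w % T ∧
    (w.foldr (uniδ S T P h) q0).2 = ((nS S w / T : ℕ) : ZMod P) + bR S P h w := by
  have hTpos : 0 < T := Nat.pos_of_ne_zero (NeZero.ne T)
  induction w with
  | nil =>
    simp [nS, bR, hq0, hq0']
  | cons a w ih =>
    rw [List.foldr_cons]
    set n := nS S w with hn
    obtain ⟨h1, h2⟩ := ih
    by_cases hS : S a
    · have e1 : nS S (a :: w) = n + 1 := by simp [nS, hS, hn]; omega
      have e2 : uniδ S T P h a (w.foldr (uniδ S T P h) q0) =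
          (⟨((w.foldr (uniδ S T P h) q0).1.val + 1) % T, Nat.mod_lt _ hTpos⟩,
            (w.foldr (uniδ S T P h) q0).2 +
              ((((w.foldr (uniδ S T P h) q0).1.val + 1) / T : ℕ) : ZMod P) +
              h a (w.foldr (uniδ S T P h) q0).1.val) := by
        simp [uniδ, hS]
      rw [e2, e1]
      simp only [h1, h2]
      constructor
      · simp [Nat.add_mod]
      · have hdm := Nat.mod_add_div n T
        have e3 : (n + 1) / T = (n % T + 1) / T + n / T := by
          have : n + 1 = (n % T + 1) + T * (n / T) := by omega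
          rw [this, Nat.add_mul_div_left _ _ hTpos]
        have e4 : bR S P h (a :: w) = h a n + bR S P h w := by
          simp [bR, hS, hn]
        obtain ⟨c, hc⟩ := hT'
        have e5 : h a (n % T) = h a n := by
          have : n = n % T + T' * (c * (n / T)) := by
            rw [← Nat.mul_assoc, ← hc]
            omega
          conv_rhs => rw [this]
          exact (h_per_mul hper a _ _).symm
        rw [e3, e4, e5]
        push_cast
        ring
    · have e1 : nS S (a :: w) = n := by simp [nS, hS, hn]
      have e2 : uniδ S T P h a (w.foldr (uniδ S T P h) q0) = w.foldr (uniδ S T P h) q0 := by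
        simp [uniδ, hS]
      have e4 : bR S P h (a :: w) = bR S P h w := by
        simp [bR, hS]
      rw [e2, e1, e4]
      exact ⟨h1, h2⟩

theorem per_mul {R : Type} {φ : ℕ → R} {T : ℕ} (hφ : ∀ n, φ (n + T) = φ n) (X c : ℕ) :
    φ (X + T * c) = φ X := by
  induction c with
  | zero => simp
  | succ c ih => rw [Nat.mul_succ, ← Nat.add_assoc, hφ, ih]

theorem per_mod {R : Type} {φ : ℕ → R} {T : ℕ} (hφ : ∀ n, φ (n + T) = φ n) (n : ℕ) :
    φ (n % T) = φ n := by
  conv_rhs => rw [← Nat.mod_add_div n T]
  exact (per_mul hφ _ _).symm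

section Main

variable {p k : ℕ} [Fact p.Prime] [Finite α]

theorem pow_neZero (p k : ℕ) [hp : Fact p.Prime] : NeZero (p ^ k) :=
  ⟨pow_ne_zero _ hp.out.ne_zero⟩

/-- A periodic function of the number of letters of `S`. -/
theorem cnz_fun_nS (φ : ℕ → ZMod p) (hφ : ∀ n, φ (n + p ^ (k + 1)) = φ n) :
    CNZ (fun w : List α => φ (nS S w)) := by
  have := pow_neZero p (k + 1)
  let h : α → ℕ → ZMod p := fun _ _ => 0
  have hper : ∀ a X, h a (X + p ^ k) = h a X := fun _ _ => rfl
  have hG := uni_good (S := S) (k := k) (h := h) rfl hper (0, 0)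
  have h1 := cnz_state (α := α) hG (0, 0)
  refine (h1.map (fun s => φ s.1.val)).congr (fun w => ?_)
  obtain ⟨h2, -⟩ := foldr_uni (S := S) hper (pow_dvd_pow p (Nat.le_succ k)) w
    ((0 : Fin (p ^ (k + 1))), (0 : ZMod p)) (by simp) rfl
  show φ _ = φ _
  rw [h2, per_mod hφ]

omit [Finite α] in
theorem neutral_uni {T P : ℕ} [NeZero T] (h : α → ℕ → ZMod P) {c : α} (hc : ¬ S c) :
    Neutral (uniδ S T P h) c := by
  intro q
  simp [uniδ, hc]

/-- Sums over the positions of a letter outside `S` of a periodic function of the number of letters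
of `S` on the suffix. -/
theorem cnz_posSum_fun (c : α) (hc : ¬ S c) (φ : ℕ → ZMod p)
    (hφ : ∀ n, φ (n + p ^ (k + 1)) = φ n) :
    CNZ (posSum c (fun w : List α => φ (nS S w))) := by
  have := pow_neZero p (k + 1)
  let h : α → ℕ → ZMod p := fun _ _ => 0
  have hper : ∀ a X, h a (X + p ^ k) = h a X := fun _ _ => rfl
  have hG : ∀ z, Good (uniδ S (p ^ (k + 1)) p h) z :=
    fun z => uni_good (S := S) (k := k) (h := h) rfl hper z
  have h1 := cnz_posSum hG uni_injective c (neutral_uni h hc) (0, 0) p (fun s => φ s.1.val)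
  refine h1.congr (fun w => posSum_congr c (fun w' => ?_) w)
  obtain ⟨h2, -⟩ := foldr_uni (S := S) hper (pow_dvd_pow p (Nat.le_succ k)) w'
    ((0 : Fin (p ^ (k + 1))), (0 : ZMod p)) (by simp) rfl
  rw [h2, per_mod hφ]

/-- The quotient by `p ^ (k + 1)` is periodic. -/
theorem div_per (n : ℕ) :
    (((n + p ^ (k + 1 + 1)) / p ^ (k + 1) : ℕ) : ZMod p) = ((n / p ^ (k + 1) : ℕ) : ZMod p) := by
  have hp : p.Prime := Fact.out
  have hT : 0 < p ^ (k + 1) := pow_pos hp.pos _
  rw [pow_succ p (k + 1), Nat.add_mul_div_left _ _ hT]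
  simp

/-- The letter-dependent part of the digit of a uniform automaton. -/
theorem cnz_bR {h : α → ℕ → ZMod p} (hper : ∀ a X, h a (X + p ^ k) = h a X) :
    CNZ (bR S p h : List α → ZMod p) := by
  have := pow_neZero p (k + 1)
  have hG := uni_good (S := S) (k := k) (h := h) rfl hper (0, 0)
  have h1 := cnz_state (α := α) hG (0, 0)
  have h2 : CNZ (fun w : List α => ((nS S w / p ^ (k + 1) : ℕ) : ZMod p)) :=
    cnz_fun_nS (k := k + 1) (fun n => ((n / p ^ (k + 1) : ℕ) : ZMod p)) div_per
  refine ((h1.map Prod.snd).sub h2).congr (fun w => ?_)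
  obtain ⟨-, h3⟩ := foldr_uni (S := S) hper (pow_dvd_pow p (Nat.le_succ k)) w
    ((0 : Fin (p ^ (k + 1))), (0 : ZMod p)) (by simp) rfl
  rw [h3]
  ring

/-- Sums over the positions of a letter outside `S`, of a periodic function of the number of letters
of `S` times the letter-dependent digit. -/
theorem cnz_posSum_bR (c : α) (hc : ¬ S c) {h : α → ℕ → ZMod p}
    (hper : ∀ a X, h a (X + p ^ k) = h a X) (φ : ℕ → ZMod p)
    (hφ : ∀ n, φ (n + p ^ (k + 1)) = φ n) :
    CNZ (posSum c (fun w : List α => φ (nS S w) * bR S p h w)) := by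
  have := pow_neZero p (k + 1)
  have hG : ∀ z, Good (uniδ S (p ^ (k + 1)) p h) z :=
    fun z => uni_good (S := S) (k := k) (h := h) rfl hper z
  have h1 := cnz_posSum hG uni_injective c (neutral_uni h hc) (0, 0) p (fun s => φ s.1.val * s.2)
  have h2 : CNZ (posSum c (fun w : List α => φ (nS S w) * ((nS S w / p ^ (k + 1) : ℕ) : ZMod p))) :=
    cnz_posSum_fun (k := k + 1) c hc (fun n => φ n * ((n / p ^ (k + 1) : ℕ) : ZMod p)) (by
      intro n
      show φ _ * _ = φ _ * _
      rw [div_per]
      congr 1
      rw [pow_succ p (k + 1)]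
      exact per_mul hφ n p)
  refine (h1.sub h2).congr (fun w => ?_)
  rw [← posSum_sub]
  refine posSum_congr c (fun w' => ?_) w
  obtain ⟨h3, h4⟩ := foldr_uni (S := S) hper (pow_dvd_pow p (Nat.le_succ k)) w'
    ((0 : Fin (p ^ (k + 1))), (0 : ZMod p)) (by simp) rfl
  rw [h3, h4, per_mod hφ]
  ring

end Main

section Letter

variable {p : ℕ}

/-- The letter-dependent part when only one letter of `S` counts. -/
theorem bR_single (x : α) (hx : S x) (ψ : ℕ → ZMod p) (w : List α) :
    bR S p (fun a X => if a = x then ψ X else 0) w = posSum x (fun w => ψ (nS S w)) w := by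
  induction w with
  | nil => rfl
  | cons a w ih =>
    simp only [bR, posSum, ih]
    by_cases ha : a = x
    · subst ha
      simp [hx]
    · simp [ha]

end Letter

section Choose

variable {p : ℕ} [hp : Fact p.Prime]

/-- Binomial coefficients are periodic modulo `p`. -/
theorem choose_per (k j : ℕ) (hj : j < p ^ k) (n : ℕ) :
    (((n + p ^ k).choose j : ℕ) : ZMod p) = ((n.choose j : ℕ) : ZMod p) := by
  rw [Nat.add_choose_eq]
  push_cast
  rw [Finset.sum_eq_single (j, 0)]
  · simp
  · rintro ⟨a, b⟩ hab hne
    have hab' : a + b = j := by simpa using hab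
    have hb : b ≠ 0 := by
      rintro rfl
      apply hne
      have : a = j := by omega
      rw [this]
    have hb2 : b ≠ p ^ k := by omega
    have h1 : ((((p ^ k).choose b : ℕ)) : ZMod p) = 0 :=
      (ZMod.natCast_eq_zero_iff _ _).2 (hp.out.dvd_choose_pow hb hb2)
    rw [h1, mul_zero]
  · intro h
    simp at h

end Choose

/-! ### The statistics as they will be used -/

section Uses

variable {p : ℕ} [hp : Fact p.Prime] [Finite α]

theorem two_choose_lt (j : ℕ) (hj : j ≤ 3) : j < p ^ 2 := by
  have h2 : 2 ≤ p := hp.out.two_le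
  nlinarith

/-- `F1`: positions of a letter outside `S`. -/
theorem stat_F1 (c : α) (hc : ¬ S c) (j : ℕ) (hj : j ≤ 3) :
    CNZ (posSum c (fun w : List α => ((nS S w).choose j : ZMod p))) := by
  refine cnz_posSum_fun (k := 1) c hc (fun n => ((n.choose j : ℕ) : ZMod p)) ?_
  exact choose_per 2 j (two_choose_lt j hj)

/-- `F2`: positions of a letter in `S`. -/
theorem stat_F2 (x : α) (hx : S x) (j : ℕ) (hj : j ≤ 3) :
    CNZ (posSum x (fun w : List α => ((nS S w).choose j : ZMod p))) := by
  let ψ : ℕ → ZMod p := fun X => ((X.choose j : ℕ) : ZMod p)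
  let h : α → ℕ → ZMod p := fun a X => if a = x then ψ X else 0
  have hper : ∀ (a : α) (X : ℕ), h a (X + p ^ 2) = h a X := by
    intro a X
    show (if a = x then _ else _) = (if a = x then _ else _)
    rw [show ψ (X + p ^ 2) = ψ X from choose_per 2 j (two_choose_lt j hj) X]
  exact (cnz_bR (S := S) (k := 2) hper).congr (fun w => bR_single x hx ψ w)

/-- `F3`: positions of a letter outside `S`, with a factor given by the digit. -/
theorem stat_F3 (c : α) (hc : ¬ S c) (x : α) (hx : S x) (i j : ℕ) (hi : i ≤ 3) (hj : j ≤ 3) :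
    CNZ (posSum c (fun w : List α => ((nS S w).choose i : ZMod p) *
      posSum x (fun w : List α => ((nS S w).choose j : ZMod p)) w)) := by
  let ψ : ℕ → ZMod p := fun X => ((X.choose j : ℕ) : ZMod p)
  let h : α → ℕ → ZMod p := fun a X => if a = x then ψ X else 0
  have hper : ∀ (a : α) (X : ℕ), h a (X + p ^ 2) = h a X := by
    intro a X
    show (if a = x then _ else _) = (if a = x then _ else _)
    rw [show ψ (X + p ^ 2) = ψ X from choose_per 2 j (two_choose_lt j hj) X]
  let φ : ℕ → ZMod p := fun n => ((n.choose i : ℕ) : ZMod p)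
  have hφ : ∀ n, φ (n + p ^ (2 + 1)) = φ n := by
    intro n
    refine choose_per 3 i ?_ n
    have := two_choose_lt (p := p) i hi
    have h2 : p ^ 2 ≤ p ^ 3 := Nat.pow_le_pow_right hp.out.pos (by omega)
    omega
  refine (cnz_posSum_bR (S := S) (k := 2) c hc hper φ hφ).congr (fun w => ?_)
  refine posSum_congr c (fun w' => ?_) w
  show φ _ * _ = _
  rw [bR_single x hx ψ]

end Uses

end Vale.Agent.Lib.P329
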