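import Mathlib

/-!
Scattered subword counts and products over positions of a letter.
-/

namespace Vale.Agent.Lib.P329

variable {α : Type*} [DecidableEq α]

/-- `subCount u w`: the number of occurrences of `u` as a scattered subword of `w`. -/
def subCount : List α → List α → ℕ
  | [], _ => 1
  | _ :: _, [] => 0
  | a :: u, b :: w => subCount (a :: u) w + if a = b then subCount u w else 0

@[simp] theorem subCount_nil_left (w : List α) : subCount [] w = 1 := by
  cases w <;> rfl

@[simp] theorem subCount_cons_nil (a : α) (u : List α) : subCount (a :: u) [] = 0 := rfl

theorem subCount_cons_cons (a b : α) (u w : List α) :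
    subCount (a :: u) (b :: w) = subCount (a :: u) w + if a = b then subCount u w else 0 := by
  rfl

theorem subCount_singleton (d : α) (w : List α) : subCount [d] w = w.count d := by
  induction w with
  | nil => rfl
  | cons b w ih =>
    rw [subCount_cons_cons, ih, List.count_cons]
    by_cases h : d = b
    · subst h; simp
    · have h' : (b == d) = false := by
        simp only [beq_eq_false_iff_ne]; exact fun e => h e.symm
      simp [h, h']

theorem subCount_pair_self (d : α) (w : List α) :
    subCount [d, d] w = (w.count d).choose 2 := by
  induction w with
  | nil => simp
  | cons b w ih =>
    rw [subCount_cons_cons, ih, List.count_cons]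
    by_cases h : d = b
    · subst h
      simp [subCount_singleton, Nat.choose_succ_succ', add_comm]
    · have h' : (b == d) = false := by
        simp only [beq_eq_false_iff_ne]; exact fun e => h e.symm
      simp [h, h']

theorem subCount_pair_add (d e : α) (hde : d ≠ e) (w : List α) :
    subCount [d, e] w + subCount [e, d] w = w.count d * w.count e := by
  induction w with
  | nil => simp
  | cons b w ih =>
    rw [subCount_cons_cons, subCount_cons_cons, List.count_cons, List.count_cons]
    by_cases h : d = b
    · subst h
      have h2 : ¬ e = d := fun h => hde h.symm
      have h3 : (d == e) = false := by simp [hde]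
      simp [h2, h3, subCount_singleton] at ih ⊢
      nlinarith [ih]
    · by_cases h2 : e = b
      · subst h2
        have h3 : (e == d) = false := by
          simp only [beq_eq_false_iff_ne]; exact fun e' => h e'.symm
        simp [h, h3, subCount_singleton] at ih ⊢
        nlinarith [ih]
      · have h3 : (b == d) = false := by
          simp only [beq_eq_false_iff_ne]; exact fun e' => h e'.symm
        have h4 : (b == e) = false := by
          simp only [beq_eq_false_iff_ne]; exact fun e' => h2 e'.symm
        simp [h, h2, h3, h4] at ih ⊢
        exact ih

end Vale.Agent.Lib.P329
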